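import Vale.Agent.Lib.P064C.Forest

/-!
The cycles of one level: density on components.
-/

open Finset

namespace Vale.Agent.Lib.P064C

open scoped Classical

variable {V : Type} [Fintype V]

omit [Fintype V] in
/-- Vertices of an edge set are at most twice its edges. -/
private theorem vset_card_le_two (T : Finset (Sym2 V)) : (vset T).card ≤ 2 * T.card := by
  unfold vset
  calc (T.biUnion (fun e => e.toFinset)).card ≤ ∑ e ∈ T, (e.toFinset).card := card_biUnion_le
    _ ≤ ∑ _e ∈ T, 2 := by
        apply Finset.sum_le_sum
        intro e _
        induction e using Sym2.ind with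
        | _ u v =>
          have h : (s(u, v) : Sym2 V).toFinset = {u, v} := by ext; simp
          rw [h]
          exact Finset.card_le_two
    _ = 2 * T.card := by simp [mul_comm]

omit [Fintype V] in
/-- Two ends of an edge of the graph are in one component. -/
private theorem mem_vs_of_adj {G : Finset (Sym2 V)} {u v : V} (h : (gr G).Adj u v) :
    (gr G).connectedComponentMk u = (gr G).connectedComponentMk v :=
  SimpleGraph.ConnectedComponent.sound h.reachable

private theorem sum_vs (G : Finset (Sym2 V)) :
    ∑ c : (gr G).ConnectedComponent, (vs G c).card = Fintype.card V := by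
  unfold vs
  rw [← Finset.card_univ (α := V)]
  exact (Finset.card_eq_sum_card_fiberwise (f := fun v => (gr G).connectedComponentMk v)
    (s := univ) (t := univ) (fun _ _ => mem_univ _)).symm

private theorem sum_inE (G : Finset (Sym2 V)) (hG : NoLoop G) :
    ∑ c : (gr G).ConnectedComponent, (inE G (vs G c)).card = G.card := by
  have hcover : (univ : Finset (gr G).ConnectedComponent).biUnion (fun c => inE G (vs G c)) = G := by
    ext e
    simp only [mem_biUnion, mem_univ, true_and]
    constructor
    · rintro ⟨c, hc⟩
      exact (mem_filter.mp hc).1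
    · intro he
      induction e using Sym2.ind with
      | _ u v =>
        have hne : u ≠ v := by
          intro huv
          exact hG _ he (by simp [huv])
        have hadj : (gr G).Adj u v := by
          simp only [gr, SimpleGraph.fromEdgeSet_adj]
          exact ⟨by exact_mod_cast he, hne⟩
        refine ⟨(gr G).connectedComponentMk u, mem_filter.mpr ⟨he, ?_⟩⟩
        intro z hz
        have hz' : z = u ∨ z = v := by
          simpa using hz
        simp only [vs, mem_filter, mem_univ, true_and]
        rcases hz' with rfl | rfl
        · rfl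
        · exact (mem_vs_of_adj hadj).symm
  conv_rhs => rw [← hcover]
  rw [Finset.card_biUnion]
  intro c _ c' _ hcc'
  rw [Function.onFun, Finset.disjoint_left]
  intro e he he'
  have h1 := (mem_filter.mp he).2
  have h2 := (mem_filter.mp he').2
  induction e using Sym2.ind with
  | _ u v =>
    have hu : u ∈ (s(u, v) : Sym2 V).toFinset := by simp
    have h3 := h1 hu
    have h4 := h2 hu
    simp only [vs, mem_filter, mem_univ, true_and] at h3 h4
    exact hcc' (h3.symm.trans h4)

/-- The inequality on one component. -/
private theorem comp_le {G : Finset (Sym2 V)} {γ γ₁ : ℝ} (hdens : ∀ T ⊆ G, (T.card : ℝ) ≤ (1 + γ) * (vset T).card)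
    (hγ0 : 0 ≤ γ) (hγ : γ ≤ γ₁) (hγ₁ : 0 < γ₁) (hG : NoLoop G) (c : (gr G).ConnectedComponent) :
    ((inE G (vs G c)).card : ℝ) + 1 - (vs G c).card ≤ 10 * γ₁ * (inE G (vs G c)).card +
      (if ((vs G c).card : ℝ) < 1 / (4 * γ₁) ∧ (vs G c).card ≤ (inE G (vs G c)).card then (1 : ℝ) else 0) := by
  set K := vs G c with hK
  set T := inE G K with hT
  have hTG : T ⊆ G := filter_subset _ _
  have hvsub : vset T ⊆ K := by
    intro z hz
    simp only [vset, mem_biUnion] at hz
    obtain ⟨e, he, hze⟩ := hz
    exact (mem_filter.mp he).2 hze
  have hvle : ((vset T).card : ℝ) ≤ K.card := by exact_mod_cast card_le_card hvsub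
  have h1 : (T.card : ℝ) ≤ (1 + γ) * K.card := by
    have := hdens T hTG
    have h2 : (1 + γ) * ((vset T).card : ℝ) ≤ (1 + γ) * K.card :=
      mul_le_mul_of_nonneg_left hvle (by linarith)
    linarith
  have hTnn : (0 : ℝ) ≤ T.card := by positivity
  have hKnn : (0 : ℝ) ≤ K.card := by positivity
  have h10 : 0 ≤ 10 * γ₁ * (T.card : ℝ) := by positivity
  by_cases hsmall : (K.card : ℝ) < 1 / (4 * γ₁)
  · -- small
    have hlt : γ₁ * K.card < 1 / 4 := by
      rw [lt_div_iff₀ (by positivity)] at hsmall
      nlinarith
    have hgK : γ * K.card < 1 := by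
      have : γ * (K.card : ℝ) ≤ γ₁ * K.card := mul_le_mul_of_nonneg_right hγ hKnn
      linarith
    have hTK : (T.card : ℝ) < K.card + 1 := by nlinarith
    have hTK' : T.card ≤ K.card := by
      have : T.card < K.card + 1 := by exact_mod_cast hTK
      omega
    by_cases hde : K.card ≤ T.card
    · rw [if_pos ⟨hsmall, hde⟩]
      have : (T.card : ℝ) ≤ K.card := by exact_mod_cast hTK'
      linarith
    · rw [if_neg (fun h => hde h.2)]
      have : T.card + 1 ≤ K.card := by omega
      have h3 : (T.card : ℝ) + 1 ≤ K.card := by exact_mod_cast this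
      linarith
  · -- large
    rw [if_neg (fun h => hsmall h.1)]
    have hlarge : 1 / (4 * γ₁) ≤ (K.card : ℝ) := not_lt.mp hsmall
    have h4 : 1 ≤ 4 * γ₁ * K.card := by
      rw [div_le_iff₀ (by positivity)] at hlarge
      linarith
    -- K has at least two elements or no edge problem
    have hK2 : (K.card : ℝ) ≤ 2 * T.card ∨ (K.card ≤ 1) := by
      by_cases hc : K.card ≤ 1
      · exact Or.inr hc
      · left
        -- every vertex of K has an edge in T
        have hsub : K ⊆ vset T := by
          intro z hz
          have : 1 < K.card := by omega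
          obtain ⟨w, hw, hwz⟩ := Finset.exists_mem_ne this z
          have hzc : (gr G).connectedComponentMk z = c := by
            simpa [hK, vs] using hz
          have hwc : (gr G).connectedComponentMk w = c := by
            simpa [hK, vs] using hw
          have hreach : (gr G).Reachable z w :=
            SimpleGraph.ConnectedComponent.exact (hzc.trans hwc.symm)
          obtain ⟨p⟩ := hreach
          cases p with
          | nil => exact absurd rfl hwz
          | cons hadj q =>
            rename_i x
            have hxc : (gr G).connectedComponentMk x = c :=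
              (mem_vs_of_adj hadj).symm.trans hzc
            have hed : s(z, x) ∈ G := by
              have := (SimpleGraph.fromEdgeSet_adj (s := (G : Set (Sym2 V)))).mp hadj
              exact_mod_cast this.1
            simp only [vset, mem_biUnion]
            refine ⟨s(z, x), mem_filter.mpr ⟨hed, ?_⟩, by simp⟩
            intro y hy
            have hy' : y = z ∨ y = x := by simpa using hy
            rcases hy' with rfl | rfl
            · exact hz
            · simpa [hK, vs] using hxc
        have h5 := card_le_card hsub
        have h6 := vset_card_le_two T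
        exact_mod_cast h5.trans h6
    rcases hK2 with h5 | h5
    · have h6 : γ * (K.card : ℝ) ≤ γ₁ * K.card := mul_le_mul_of_nonneg_right hγ hKnn
      have h7 : γ₁ * (K.card : ℝ) ≤ γ₁ * (2 * T.card) := mul_le_mul_of_nonneg_left h5 hγ₁.le
      nlinarith
    · -- a single vertex has no edges
      have hT0 : T.card = 0 := by
        rw [card_eq_zero, eq_empty_iff_forall_notMem]
        intro e he
        have hsubK := (mem_filter.mp he).2
        have hGe := (mem_filter.mp he).1
        induction e using Sym2.ind with
        | _ u v =>
          have hne : u ≠ v := fun huv => hG _ hGe (by simp [huv])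
          have hu : u ∈ K := hsubK (by simp)
          have hv : v ∈ K := hsubK (by simp)
          exact hne (Finset.card_le_one.mp h5 u hu v hv)
      have h8 : K.Nonempty := by
        obtain ⟨v, hv⟩ := c.exists_rep
        exact ⟨v, mem_filter.mpr ⟨mem_univ _, hv⟩⟩
      have h9 : 1 ≤ K.card := h8.card_pos
      have h11 : (1 : ℝ) ≤ K.card := by exact_mod_cast h9
      rw [hT0]
      simp only [Nat.cast_zero]
      linarith

/-- The cycles of a sub edge set of a dense-free set. -/
theorem cyc_le {U G : Finset (Sym2 V)} {γ γ₁ : ℝ} (hdens : Dens γ U) (hγ0 : 0 ≤ γ) (hγ : γ ≤ γ₁)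
    (hγ₁ : 0 < γ₁) (hGU : G ⊆ U) (hG : NoLoop G) :
    (G.card : ℝ) + cc G - Fintype.card V ≤ 10 * γ₁ * G.card + SC G (1 / (4 * γ₁)) := by
  have hd' : ∀ T ⊆ G, (T.card : ℝ) ≤ (1 + γ) * (vset T).card := fun T hT => hdens T (hT.trans hGU)
  have hsum := Finset.sum_le_sum (s := (univ : Finset (gr G).ConnectedComponent))
    (fun c _ => comp_le hd' hγ0 hγ hγ₁ hG c)
  have hV : (Fintype.card V : ℝ) = ∑ c : (gr G).ConnectedComponent, ((vs G c).card : ℝ) := by
    rw [← sum_vs G]; push_cast; rfl
  have hE : (G.card : ℝ) = ∑ c : (gr G).ConnectedComponent, ((inE G (vs G c)).card : ℝ) := by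
    conv_lhs => rw [← sum_inE G hG]
    push_cast; rfl
  have hcc : (cc G : ℝ) = ∑ _c : (gr G).ConnectedComponent, (1 : ℝ) := by
    simp [cc]
  have hSC : (SC G (1 / (4 * γ₁)) : ℝ) = ∑ c : (gr G).ConnectedComponent,
      (if ((vs G c).card : ℝ) < 1 / (4 * γ₁) ∧ (vs G c).card ≤ (inE G (vs G c)).card
        then (1 : ℝ) else 0) := by
    unfold SC
    rw [Finset.card_filter]
    push_cast
    rfl
  rw [hV, hE, hcc, hSC, Finset.mul_sum]
  simp only [Finset.sum_add_distrib, Finset.sum_sub_distrib] at hsum ⊢
  linarith

end Vale.Agent.Lib.P064C
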