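import Vale.Agent.Lib.P064C.Pointwise
import Vale.Agent.Lib.P064C.Level

/-!
The average number of closing edges of an image.
-/

open Finset

namespace Vale.Agent.Lib.P064C

open scoped Classical

variable {V ι : Type} [Fintype V]

/-- Layer cake for a bounded natural function on a finite set. -/
lemma layer_cake_aux {α : Type} (X : Finset α) (f : α → ℕ) (N : ℕ) (hf : ∀ x ∈ X, f x ≤ N) :
    ∑ x ∈ X, f x = ∑ t ∈ Icc 1 N, (X.filter (fun x => t ≤ f x)).card := by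
  simp_rw [Finset.card_filter]
  rw [Finset.sum_comm]
  refine Finset.sum_congr rfl fun x hx => ?_
  rw [← Finset.card_filter]
  have h : (Icc 1 N).filter (fun t => t ≤ f x) = Icc 1 (f x) := by
    ext t
    simp only [mem_filter, mem_Icc]
    have := hf x hx
    omega
  rw [h]
  simp

/-- The forest by popularity: the average number of closing edges is small. -/
theorem average (S : Finset ι) (Im : ι → Finset (Sym2 V)) {γ γ₁ : ℝ}
    (hloop : NoLoop (S.biUnion Im)) (hdens : Dens γ (S.biUnion Im))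
    (hγ0 : 0 ≤ γ) (hγ : γ ≤ γ₁) (hγ₁ : 0 < γ₁)
    (hconn : ∀ φ ∈ S, ∃ y, ∀ z ∈ vset (Im φ), (gr (Im φ)).Reachable y z)
    {e₀ v₀ : ℕ} (he : ∀ φ ∈ S, (Im φ).card ≤ e₀) (hv : ∀ φ ∈ S, (vset (Im φ)).card ≤ v₀) :
    ∃ TT ⊆ S.biUnion Im, (gr TT).IsAcyclic ∧
      ((∑ φ ∈ S, (Im φ \ TT).card : ℕ) : ℝ) ≤
        S.card * (10 * γ₁ * e₀ + 2 * γ₁ * v₀ + 2) := by
  set U := S.biUnion Im with hUdef
  set c : Sym2 V → ℕ := fun e => (S.filter (fun φ => e ∈ Im φ)).card with hc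
  obtain ⟨TT, hTT, hacy, hlev⟩ := exists_popular_forest U hloop c
  refine ⟨TT, hTT, hacy, ?_⟩
  have hIm : ∀ φ ∈ S, Im φ ⊆ U := fun φ hφ => Finset.subset_biUnion_of_mem Im hφ
  have hcN : ∀ e, c e ≤ S.card := fun e => Finset.card_filter_le _ _
  have hRHS0 : (0:ℝ) ≤ S.card * (10 * γ₁ * e₀ + 2 * γ₁ * v₀ + 2) := by positivity
  rcases U.eq_empty_or_nonempty with hUe | ⟨e0, he0⟩
  · have : ∑ φ ∈ S, (Im φ \ TT).card = 0 := by
      refine Finset.sum_eq_zero fun φ hφ => ?_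
      have h1 := hIm φ hφ
      rw [hUe, Finset.subset_empty] at h1
      simp [h1]
    rw [this]
    simpa using hRHS0
  have hdbl : ∀ T : Finset (Sym2 V), ∑ φ ∈ S, (T.filter (fun e => e ∈ Im φ)).card = ∑ e ∈ T, c e := by
    intro T
    simp_rw [hc, Finset.card_filter]
    rw [Finset.sum_comm]
  -- the sum to bound
  have h1 : ∑ φ ∈ S, (Im φ \ TT).card = ∑ e ∈ U \ TT, c e := by
    rw [← hdbl]
    refine Finset.sum_congr rfl fun φ hφ => ?_
    congr 1
    ext e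
    simp only [mem_sdiff, mem_filter]
    constructor
    · rintro ⟨h2, h3⟩
      exact ⟨⟨hIm φ hφ h2, h3⟩, h2⟩
    · rintro ⟨⟨_, h3⟩, h2⟩
      exact ⟨h2, h3⟩
  have h2 : ∑ e ∈ U, c e = ∑ φ ∈ S, (Im φ).card := by
    rw [← hdbl]
    refine Finset.sum_congr rfl fun φ hφ => ?_
    congr 1
    ext e
    simp only [mem_filter]
    exact ⟨fun h => h.2, fun h => ⟨hIm φ hφ h, h⟩⟩
  -- the chosen edges
  set l : ℝ := 1 / (4 * γ₁) with hl
  let eK : Finset V → Sym2 V := fun K =>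
    if h : (inE U K).Nonempty then h.choose else e0
  have hek : ∀ K ∈ CC U l, eK K ∈ inE U K := by
    intro K hK
    have hne := CC_edge hK
    simp only [eK, dif_pos hne]
    exact hne.choose_spec
  have hekU : ∀ K ∈ CC U l, eK K ∈ U := fun K hK =>
    (Finset.mem_filter.1 (hek K hK)).1
  -- one level
  have hlevel : ∀ t : ℕ, (((U \ TT).filter (fun e => t ≤ c e)).card : ℝ)
      ≤ 10 * γ₁ * ((U.filter (fun e => t ≤ c e)).card : ℝ)
        + (((CC U l).filter (fun K => t ≤ c (eK K))).card : ℝ) := by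
    intro t
    set G := U.filter (fun e => t ≤ c e) with hG
    have hGU : G ⊆ U := Finset.filter_subset _ _
    have hGloop : NoLoop G := fun e he => hloop e (hGU he)
    have e1 : (U \ TT).filter (fun e => t ≤ c e) = G \ TT := by
      ext e
      simp only [hG, mem_filter, mem_sdiff]
      tauto
    have h3 := hlev t
    have h4 := cyc_le hdens hγ0 hγ hγ₁ hGU hGloop
    have h5 := SC_le hdens hγ0 hγ hγ₁ hGU eK hek
    have h6 : (G.filter (fun e => True)).card = G.card := by simp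
    have h7 : ((CC U l).filter (fun K => eK K ∈ G)).card
        ≤ ((CC U l).filter (fun K => t ≤ c (eK K))).card := by
      apply Finset.card_le_card
      intro K hK
      rw [Finset.mem_filter] at hK ⊢
      exact ⟨hK.1, (Finset.mem_filter.1 hK.2).2⟩
    rw [e1]
    have h3' : (((G \ TT).card : ℝ)) + Fintype.card V ≤ G.card + cc G := by exact_mod_cast h3
    have h5' : (SC G l : ℝ) ≤ ((CC U l).filter (fun K => t ≤ c (eK K))).card := by
      exact_mod_cast h5.trans h7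
    linarith
  -- the sums
  have hS1 : ((∑ e ∈ U \ TT, c e : ℕ) : ℝ)
      = ∑ t ∈ Icc 1 S.card, (((U \ TT).filter (fun e => t ≤ c e)).card : ℝ) := by
    rw [layer_cake_aux (U \ TT) c S.card (fun e _ => hcN e)]
    push_cast
    rfl
  have hS2 : ∑ t ∈ Icc 1 S.card, ((U.filter (fun e => t ≤ c e)).card : ℝ)
      = ((∑ φ ∈ S, (Im φ).card : ℕ) : ℝ) := by
    rw [← h2, layer_cake_aux U c S.card (fun e _ => hcN e)]
    push_cast
    rfl
  have hS3 : ∑ t ∈ Icc 1 S.card, (((CC U l).filter (fun K => t ≤ c (eK K))).card : ℝ)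
      = ((∑ φ ∈ S, ((CC U l).filter (fun K => eK K ∈ Im φ)).card : ℕ) : ℝ) := by
    have h8 := layer_cake_aux (CC U l) (fun K => c (eK K)) S.card (fun K _ => hcN _)
    have h9 : ∑ φ ∈ S, ((CC U l).filter (fun K => eK K ∈ Im φ)).card
        = ∑ K ∈ CC U l, c (eK K) := by
      simp_rw [hc, Finset.card_filter]
      rw [Finset.sum_comm]
    rw [h9, h8]
    push_cast
    rfl
  have hk : ∀ φ ∈ S, (((CC U l).filter (fun K => eK K ∈ Im φ)).card : ℝ)
      ≤ 2 * γ₁ * v₀ + 2 := by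
    intro φ hφ
    obtain ⟨y, hy⟩ := hconn φ hφ
    have h10 := k_le hdens hloop hγ0 hγ hγ₁ (hIm φ hφ) hy eK hek
    have h11 : ((vset (Im φ)).card : ℝ) ≤ v₀ := by exact_mod_cast hv φ hφ
    have h12 : 2 * γ₁ * ((vset (Im φ)).card : ℝ) ≤ 2 * γ₁ * v₀ :=
      mul_le_mul_of_nonneg_left h11 (by positivity)
    linarith
  have hE : ((∑ φ ∈ S, (Im φ).card : ℕ) : ℝ) ≤ S.card * e₀ := by
    have : ∑ φ ∈ S, (Im φ).card ≤ S.card * e₀ := by
      calc ∑ φ ∈ S, (Im φ).card ≤ ∑ _φ ∈ S, e₀ := Finset.sum_le_sum he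
        _ = S.card * e₀ := by simp
    exact_mod_cast this
  have hK : ((∑ φ ∈ S, ((CC U l).filter (fun K => eK K ∈ Im φ)).card : ℕ) : ℝ)
      ≤ S.card * (2 * γ₁ * v₀ + 2) := by
    push_cast
    calc ∑ φ ∈ S, (((CC U l).filter (fun K => eK K ∈ Im φ)).card : ℝ)
        ≤ ∑ _φ ∈ S, (2 * γ₁ * v₀ + 2) := Finset.sum_le_sum hk
      _ = S.card * (2 * γ₁ * v₀ + 2) := by
          rw [Finset.sum_const, nsmul_eq_mul]
  rw [h1, hS1]
  calc ∑ t ∈ Icc 1 S.card, (((U \ TT).filter (fun e => t ≤ c e)).card : ℝ)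
      ≤ ∑ t ∈ Icc 1 S.card, (10 * γ₁ * ((U.filter (fun e => t ≤ c e)).card : ℝ)
        + (((CC U l).filter (fun K => t ≤ c (eK K))).card : ℝ)) :=
        Finset.sum_le_sum fun t _ => hlevel t
    _ = 10 * γ₁ * ((∑ φ ∈ S, (Im φ).card : ℕ) : ℝ)
        + ((∑ φ ∈ S, ((CC U l).filter (fun K => eK K ∈ Im φ)).card : ℕ) : ℝ) := by
        rw [Finset.sum_add_distrib, ← Finset.mul_sum, hS2, hS3]
    _ ≤ 10 * γ₁ * (S.card * e₀) + S.card * (2 * γ₁ * v₀ + 2) := by
        have : 10 * γ₁ * ((∑ φ ∈ S, (Im φ).card : ℕ) : ℝ) ≤ 10 * γ₁ * (S.card * e₀) :=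
          mul_le_mul_of_nonneg_left hE (by positivity)
        linarith
    _ = S.card * (10 * γ₁ * e₀ + 2 * γ₁ * v₀ + 2) := by ring

end Vale.Agent.Lib.P064C
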