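import Vale.Agent.Lib.P064C.Greedy

/-!
Few starts: the components outside the large vertices which have no other attachment are paid by
density.
-/

open Finset

namespace Vale.Agent.Lib.P064C

open Vale.Agent.Lib.P064 Vale.Agent.Lib.P064S
open scoped Classical

variable {V α : Type} [Fintype V] [Fintype α] {F : SimpleGraph α} {H : SimpleGraph V} {n : ℕ}
  {q : ℝ} {W J : Finset α} {S : Finset (α → V)} {φ₁ : α → V}

/-- One block: the low condition and the connectivity give a gain of `L / (g + 1)`. -/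
lemma block_gain (v e : ℕ) (L lq : ℝ) (hL : 0 < L) (hg : 0 ≤ L + lq)
    (hlog : (v : ℝ) * L + e * (1 + lq) < 0) :
    L ≤ ((e : ℝ) * (-lq) - v * L) * (L + lq + 1) := by
  have hev : v + 1 ≤ e := by
    by_contra hcon
    have h1 : e ≤ v := by omega
    have h2 : (e : ℝ) ≤ v := by exact_mod_cast h1
    have h3 : (0 : ℝ) ≤ e := Nat.cast_nonneg e
    nlinarith [mul_nonneg (sub_nonneg.2 h2) hL.le, mul_nonneg h3 hg]
  have hev' : (v : ℝ) + 1 ≤ e := by exact_mod_cast hev
  have hX1 : (e : ℝ) ≤ (e : ℝ) * (-lq) - v * L := by nlinarith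
  have hX2 : L - e * (L + lq) ≤ (e : ℝ) * (-lq) - v * L := by
    nlinarith [mul_nonneg (sub_nonneg.2 hev') hL.le]
  have hX3 : (e : ℝ) * (L + lq) ≤ ((e : ℝ) * (-lq) - v * L) * (L + lq) :=
    mul_le_mul_of_nonneg_right hX1 hg
  nlinarith

/-- The number of starts. `A` contains `J` and all its neighbours in `W`. -/
theorem starts_le (hP : Pin n q F H W J S φ₁) (hG : GoodDensity n q H) (hq1 : q ≤ 1)
    (hD : 1 ≤ (n : ℝ) * q) (hL : 0 < Real.log n) {φ : α → V} (hφ : φ ∈ S)
    {A large st : Finset α} (hAW : A ⊆ W) (hJA : J ⊆ A)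
    (hnb : ∀ u ∈ J, ∀ w ∈ W, F.Adj u w → w ∈ A)
    (hst : ∀ s ∈ st, s ∈ J ∧ s ∉ large ∧ ∀ u ∈ A \ J, u ∉ large →
      ¬ (smallG F A large).Reachable s u)
    (hne : ∀ s ∈ st, ∀ s' ∈ st, s ≠ s' → ¬ (smallG F A large).Reachable s s') :
    (st.card : ℝ) ≤ large.card * (Real.log n + Real.log q + 1) := by
  have hq0 : 0 < q := hP.q0
  have hn1 : (1 : ℝ) ≤ n := by exact_mod_cast hP.n1
  have hn0 : (0 : ℝ) < n := by linarith
  have hg : 0 ≤ Real.log n + Real.log q := by
    have h := Real.log_nonneg hD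
    rwa [Real.log_mul hn0.ne' hq0.ne'] at h
  have hlq : Real.log q ≤ 0 := Real.log_nonpos hq0.le hq1
  have hAdj : ∀ {u w : α}, (smallG F A large).Adj u w ↔
      F.Adj u w ∧ u ∈ A ∧ w ∈ A ∧ u ∉ large ∧ w ∉ large := Iff.rfl
  have hreach : ∀ {s u : α}, (smallG F A large).Reachable s u →
      u = s ∨ (u ∈ A ∧ u ∉ large) := by
    intro s u h
    obtain ⟨p⟩ := h
    have p' := p.reverse
    cases p' with
    | nil => exact Or.inl rfl
    | cons h _ =>
      have h' := hAdj.1 h
      exact Or.inr ⟨h'.2.1, h'.2.2.2.1⟩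
  let B : α → Finset α := fun s => A.filter (fun u => (smallG F A large).Reachable s u)
  have hBmem : ∀ s u, u ∈ B s ↔ u ∈ A ∧ (smallG F A large).Reachable s u := by
    intro s u
    simp only [B, Finset.mem_filter]
  have hself : ∀ s ∈ st, s ∈ B s := fun s hs =>
    (hBmem s s).2 ⟨hJA (hst s hs).1, SimpleGraph.Reachable.refl s⟩
  have hBnl : ∀ s ∈ st, ∀ u ∈ B s, u ∉ large := by
    intro s hs u hu
    rcases hreach ((hBmem s u).1 hu).2 with rfl | h
    · exact (hst u hs).2.1
    · exact h.2
  have hBJ : ∀ s ∈ st, B s ⊆ J := by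
    intro s hs u hu
    by_contra hJ
    exact (hst s hs).2.2 u (Finset.mem_sdiff.2 ⟨((hBmem s u).1 hu).1, hJ⟩) (hBnl s hs u hu)
      ((hBmem s u).1 hu).2
  have hBW : ∀ s ∈ st, B s ⊆ W := fun s hs => (hBJ s hs).trans hP.hJW
  have hBclosed : ∀ s ∈ st, ∀ u ∈ B s, ∀ w ∈ W, F.Adj u w → w ∈ B s ∨ w ∈ large := by
    intro s hs u hu w hw huw
    by_cases hwl : w ∈ large
    · exact Or.inr hwl
    · left
      have hwA := hnb u (hBJ s hs hu) w hw huw
      have hadj : (smallG F A large).Adj u w :=
        hAdj.2 ⟨huw, ((hBmem s u).1 hu).1, hwA, hBnl s hs u hu, hwl⟩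
      exact (hBmem s w).2 ⟨hwA, ((hBmem s u).1 hu).2.trans hadj.reachable⟩
  have hBdisj : ∀ s ∈ st, ∀ s' ∈ st, s ≠ s' → ∀ u ∈ B s, u ∉ B s' := by
    intro s hs s' hs' hss u hu hu'
    exact hne s hs s' hs' hss (((hBmem s u).1 hu).2.trans ((hBmem s' u).1 hu').2.symm)
  have hBcross : ∀ s ∈ st, ∀ s' ∈ st, s ≠ s' → ∀ u ∈ B s, ∀ v ∈ B s', v ∈ W → ¬ F.Adj u v := by
    intro s hs s' hs' hss u hu v hv hvW hadj
    rcases hBclosed s hs u hu v hvW hadj with h | h
    · exact hBdisj s' hs' s hs hss.symm v hv h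
    · exact hBnl s' hs' v hv h
  let E : α → Finset (Sym2 α) := fun s => tI F W (B s)
  have hEdisj : ∀ s ∈ st, ∀ s' ∈ st, s ≠ s' → Disjoint (E s) (E s') := by
    intro s hs s' hs' hss
    rw [Finset.disjoint_left]
    intro e he he'
    induction e using Sym2.ind with
    | _ u v =>
      obtain ⟨h1, h2, h3, h4⟩ := (mem_tI_pair (hBW s hs)).1 he
      obtain ⟨_, _, _, h5⟩ := (mem_tI_pair (hBW s' hs')).1 he'
      rcases h4 with h4 | h4 <;> rcases h5 with h5 | h5
      · exact hBdisj s hs s' hs' hss u h4 h5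
      · exact hBcross s hs s' hs' hss u h4 v h5 h3 h1
      · exact hBcross s hs s' hs' hss v h4 u h5 h2 h1.symm
      · exact hBdisj s hs s' hs' hss v h4 h5
  let BB : Finset α := st.biUnion B
  have hBBW : BB ⊆ W := Finset.biUnion_subset.2 hBW
  let TT : Finset (Sym2 α) := tI F W BB
  have hEsub : ∀ s ∈ st, E s ⊆ TT := by
    intro s hs e he
    induction e using Sym2.ind with
    | _ u v =>
      obtain ⟨h1, h2, h3, h4⟩ := (mem_tI_pair (hBW s hs)).1 he
      refine (mem_tI_pair hBBW).2 ⟨h1, h2, h3, ?_⟩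
      rcases h4 with h4 | h4
      · exact Or.inl (Finset.mem_biUnion.2 ⟨s, hs, h4⟩)
      · exact Or.inr (Finset.mem_biUnion.2 ⟨s, hs, h4⟩)
  have hsumE : ∑ s ∈ st, (E s).card ≤ TT.card := by
    rw [← Finset.card_biUnion hEdisj]
    exact Finset.card_le_card (Finset.biUnion_subset.2 hEsub)
  have hsumB : BB.card = ∑ s ∈ st, (B s).card := by
    refine Finset.card_biUnion ?_
    intro s hs s' hs' hss
    change Disjoint (B s) (B s')
    rw [Finset.disjoint_left]
    intro u hu hu'
    exact hBdisj s hs s' hs' hss u hu hu'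
  have hend : ∀ u v, s(u, v) ∈ TT → u ∈ BB ∪ large := by
    intro u v h
    obtain ⟨h1, h2, h3, h4⟩ := (mem_tI_pair hBBW).1 h
    rcases h4 with h4 | h4
    · exact Finset.mem_union_left _ h4
    · obtain ⟨s, hs, hv⟩ := Finset.mem_biUnion.1 h4
      rcases hBclosed s hs v hv u h2 h1.symm with h5 | h5
      · exact Finset.mem_union_left _ (Finset.mem_biUnion.2 ⟨s, hs, h5⟩)
      · exact Finset.mem_union_right _ h5
  -- One block.
  have hper : ∀ s ∈ st, Real.log n ≤
      (((E s).card : ℝ) * (-Real.log q) - (B s).card * Real.log n) *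
        (Real.log n + Real.log q + 1) := by
    intro s hs
    have hlow := hP.low (B s) (hBJ s hs) ⟨s, hself s hs⟩
    have hepos : 0 < Real.exp 1 * q := by positivity
    have h := Real.log_lt_log (by positivity) hlow
    rw [Real.log_one, Real.log_mul (by positivity) (by positivity), Real.log_pow, Real.log_pow,
      Real.log_mul (Real.exp_pos 1).ne' hq0.ne', Real.log_exp] at h
    exact block_gain _ _ _ _ hL hg h
  rcases st.eq_empty_or_nonempty with hemp | hne'
  · subst hemp
    simp only [Finset.card_empty, Nat.cast_zero]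
    exact mul_nonneg (Nat.cast_nonneg _) (by linarith)
  -- The union is not empty.
  have hTTne : TT.Nonempty := by
    obtain ⟨s, hs⟩ := hne'
    have hlow := hP.low (B s) (hBJ s hs) ⟨s, hself s hs⟩
    by_contra hcon
    rw [Finset.not_nonempty_iff_eq_empty] at hcon
    have hEs : E s = ∅ := by
      have := hEsub s hs
      rw [hcon] at this
      exact Finset.subset_empty.1 this
    change (n : ℝ) ^ (B s).card * (Real.exp 1 * q) ^ (E s).card < 1 at hlow
    rw [hEs, Finset.card_empty, pow_zero, mul_one] at hlow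
    exact absurd (one_le_pow₀ hn1) (not_le.2 hlow)
  -- Density of the image.
  let T : Finset (Sym2 V) := TT.image (Sym2.map φ)
  have hTcard : T.card = TT.card :=
    Finset.card_image_of_injective _ (Sym2.map.injective (hP.inj φ hφ))
  have hTedge : ∀ e ∈ T, e ∈ H.edgeSet := by
    intro e he
    obtain ⟨e', he', rfl⟩ := Finset.mem_image.1 he
    induction e' using Sym2.ind with
    | _ u v =>
      obtain ⟨h1, _, _, _⟩ := (mem_tI_pair hBBW).1 he'
      rw [Sym2.map_mk]
      exact hP.hom φ hφ u v h1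
  have hTne : T.Nonempty := hTTne.image _
  have hdens := density_of_good hG hq0 hq1 T hTedge hTne
  have hvert : (T.biUnion fun e => e.toFinset).card ≤ BB.card + large.card := by
    have hsub : (T.biUnion fun e => e.toFinset) ⊆ (BB ∪ large).image φ := by
      intro z hz
      obtain ⟨e, he, hze⟩ := Finset.mem_biUnion.1 hz
      obtain ⟨e', he', rfl⟩ := Finset.mem_image.1 he
      induction e' using Sym2.ind with
      | _ u v =>
        rw [Sym2.map_mk] at hze
        have hze' : z ∈ s(φ u, φ v) := by simpa using hze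
        rw [Sym2.mem_iff] at hze'
        rcases hze' with rfl | rfl
        · exact Finset.mem_image_of_mem _ (hend u v he')
        · refine Finset.mem_image_of_mem _ (hend v u ?_)
          rwa [Sym2.eq_swap]
    exact (Finset.card_le_card hsub).trans
      (Finset.card_image_le.trans (Finset.card_union_le _ _))
  have hdlog : 0 ≤ ((T.biUnion fun e => e.toFinset).card : ℝ) * Real.log n +
      (T.card : ℝ) * Real.log q := by
    have h := Real.log_le_log (by norm_num) hdens
    rw [Real.log_one, Real.log_mul (by positivity) (by positivity), Real.log_pow,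
      Real.log_pow] at h
    exact h
  -- Summation.
  have hvert' : ((T.biUnion fun e => e.toFinset).card : ℝ) ≤ (BB.card : ℝ) + large.card := by
    exact_mod_cast hvert
  have hsumE' : ((∑ s ∈ st, (E s).card : ℕ) : ℝ) ≤ T.card := by
    rw [hTcard]
    exact_mod_cast hsumE
  have hX : (∑ s ∈ st, (((E s).card : ℝ) * (-Real.log q) - (B s).card * Real.log n)) ≤
      large.card * Real.log n := by
    rw [Finset.sum_sub_distrib, ← Finset.sum_mul, ← Finset.sum_mul, ← Nat.cast_sum,
      ← Nat.cast_sum, ← hsumB]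
    have h1 := mul_le_mul_of_nonneg_right hvert' hL.le
    have h2 := mul_le_mul_of_nonneg_right hsumE' (neg_nonneg.2 hlq)
    nlinarith
  have hsum : (st.card : ℝ) * Real.log n ≤
      (∑ s ∈ st, (((E s).card : ℝ) * (-Real.log q) - (B s).card * Real.log n)) *
        (Real.log n + Real.log q + 1) := by
    rw [Finset.sum_mul]
    calc (st.card : ℝ) * Real.log n = ∑ _s ∈ st, Real.log n := by
          rw [Finset.sum_const, nsmul_eq_mul]
      _ ≤ _ := Finset.sum_le_sum hper
  have hfin : (st.card : ℝ) * Real.log n ≤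
      (large.card * (Real.log n + Real.log q + 1)) * Real.log n := by
    refine hsum.trans ?_
    have h3 := mul_le_mul_of_nonneg_right hX (by linarith : 0 ≤ Real.log n + Real.log q + 1)
    linarith
  exact le_of_mul_le_mul_right hfin hL

end Vale.Agent.Lib.P064C
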