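import Vale.Agent.Lib.P064C.CNum

/-!
The numerics of the loss.
-/

open Finset

namespace Vale.Agent.Lib.P064

open scoped Classical

variable {n : ℕ}

/-- The elementary numerics: `cpK` in terms of `n p`. -/
lemma cpK_le {q p : ℝ} (hL : 4 ≤ Real.log n) (hp1 : 1 ≤ (n : ℝ) * p) (hpq : 2 * p ≤ q)
    (hq4 : q ≤ 4 * p) (hq0 : 0 < q) (hD2 : (Real.exp 1 * ((n : ℝ) * q)) ^ 2 < n)
    (hQ : Real.log n / 2 ≤ - Real.log q) :
    cpK n q ≤ Real.exp 1 * (1 + Real.log n / ((n : ℝ) * p)) *
      Real.exp (9000 * (1 + Real.log ((n : ℝ) * p)) * (1 + Real.log (Real.log n + 2)) /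
        Real.log n) := by
  have hn0 : (0 : ℝ) < n := by
    rcases Nat.eq_zero_or_pos n with h | h
    · subst h
      norm_num at hL
    · exact_mod_cast h
  have hLpos : 0 < Real.log n := by linarith
  have hp0 : 0 < p := by linarith
  have hPpos : 0 < (n : ℝ) * p := by linarith
  have hlogP : 0 ≤ Real.log ((n : ℝ) * p) := Real.log_nonneg hp1
  have hDle : (n : ℝ) * q ≤ 4 * ((n : ℝ) * p) := by nlinarith
  have hDge : (n : ℝ) * p ≤ (n : ℝ) * q := by nlinarith
  have hD1 : 1 ≤ (n : ℝ) * q := le_trans hp1 hDge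
  have hDpos : 0 < (n : ℝ) * q := by linarith
  have hg0 : 0 ≤ spG n q := Real.log_nonneg hD1
  have hlog4 : Real.log 4 ≤ 2 := by
    have h1 : Real.log 4 = 2 * Real.log 2 := by
      rw [show (4 : ℝ) = 2 ^ 2 by norm_num, Real.log_pow]; norm_num
    have h2 := Real.log_two_lt_d9
    rw [h1]; linarith
  have hgle : spG n q + 1 ≤ 3 * (1 + Real.log ((n : ℝ) * p)) := by
    have h1 : spG n q ≤ Real.log 4 + Real.log ((n : ℝ) * p) := by
      have h2 := Real.log_le_log hDpos hDle
      rw [Real.log_mul (by norm_num) hPpos.ne'] at h2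
      exact h2
    linarith
  have hgL : 2 * spG n q + 2 ≤ Real.log n := by
    have h1 := Real.log_lt_log (by positivity) hD2
    rw [Real.log_pow, Real.log_mul (Real.exp_pos _).ne' hDpos.ne', Real.log_exp] at h1
    have h3 : Real.log ((n : ℝ) * q) = spG n q := rfl
    rw [h3] at h1
    push_cast at h1
    linarith
  set L := Real.log (n : ℝ) with hLdef
  set g := spG n q with hgdef
  set l := 1 + Real.log ((n : ℝ) * p) with hldef
  have hl1 : 1 ≤ l := by rw [hldef]; linarith
  set t := Real.log (L + 2) with htdef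
  have ht0 : 0 ≤ t := Real.log_nonneg (by linarith)
  have hexpt : Real.exp t = L + 2 := Real.exp_log (by linarith)
  have hQ1 : L / 4 ≤ - Real.log q - 1 := by linarith
  have hQ1pos : 0 < - Real.log q - 1 := by linarith
  -- the three logarithms
  have hlr : Real.log (2 * g + 3) ≤ t := by
    apply Real.log_le_log (by linarith)
    linarith
  have hlamle : spLam n q ≤ 2 * (L + 2) := by
    have h1 : Real.log (L + 2) ≤ L + 2 := by
      have := Real.log_le_sub_one_of_pos (show (0 : ℝ) < L + 2 by linarith)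
      linarith
    unfold spLam
    have h3 : spG n q = g := rfl
    have h4 : Real.log (Real.log ↑n + 2) = t := rfl
    rw [h3, h4]
    linarith
  have hlam0 : 0 ≤ spLam n q := spLam_nonneg hD1 hLpos.le
  have hTle : (cpT n q : ℝ) ≤ 3 * (L + 2) ^ 2 := by
    unfold cpT
    push_cast
    have h0 : 0 ≤ (spG n q + 2) * spLam n q := by
      apply mul_nonneg _ hlam0
      linarith
    have h1 : ((⌈(spG n q + 2) * spLam n q⌉₊ : ℕ) : ℝ) < (spG n q + 2) * spLam n q + 1 :=
      Nat.ceil_lt_add_one h0
    have h2 : (spG n q + 2) * spLam n q ≤ (L + 2) * (2 * (L + 2)) := by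
      apply mul_le_mul _ hlamle hlam0 (by linarith)
      have h3 : spG n q = g := rfl
      rw [h3]
      linarith
    nlinarith
  have hT2 : (2 : ℝ) ≤ (cpT n q : ℝ) := by exact_mod_cast cpT_two_le (n := n) (q := q)
  have hlT : Real.log (cpT n q) ≤ 2 + 2 * t := by
    have h1 := Real.log_le_log (by linarith) hTle
    rw [Real.log_mul (by norm_num) (by positivity), Real.log_pow] at h1
    have h3 : Real.log 3 ≤ 2 := by
      have h4 := Real.log_le_sub_one_of_pos (show (0 : ℝ) < 3 by norm_num)
      linarith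
    push_cast at h1
    linarith
  have hM : cpM n q ≤ 330 * (1 + t) := by
    unfold cpM
    have h4 : Real.log (Real.log ↑n + 2) = t := rfl
    have h5 : Real.log (2 * spG n q + 3) ≤ t := hlr
    rw [h4]
    nlinarith
  have hM0 := cpM_nonneg (n := n) (q := q) hD1 hLpos.le
  have hkap : cpKap n q ≤ 4000 * l * (1 + t) / L := by
    unfold cpKap
    have h1 : (spG n q + 1) * cpM n q ≤ (3 * l) * (330 * (1 + t)) :=
      mul_le_mul hgle hM hM0 (by linarith)
    have h2 : (spG n q + 1) * cpM n q / (- Real.log q - 1) ≤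
        ((3 * l) * (330 * (1 + t))) / (L / 4) := by
      apply div_le_div₀ _ h1 (by positivity) hQ1
      positivity
    refine h2.trans ?_
    rw [div_le_div_iff₀ (by positivity) hLpos]
    have h3 : 0 ≤ l * (1 + t) := by positivity
    nlinarith
  have hfrac : L / ((n : ℝ) * q) ≤ L / ((n : ℝ) * p) :=
    div_le_div_of_nonneg_left hLpos.le hPpos hDge
  have h1L' : 0 ≤ 1 + L / ((n : ℝ) * p) := by positivity
  have h1L : 0 ≤ 1 + L / ((n : ℝ) * q) := by positivity
  have hk2 : 2 * cpKap n q ≤ 9000 * l * (1 + t) / L := by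
    have h5 : 2 * (4000 * l * (1 + t) / L) ≤ 9000 * l * (1 + t) / L := by
      rw [mul_div_assoc', div_le_div_iff_of_pos_right hLpos]
      have h3 : 0 ≤ l * (1 + t) := by positivity
      nlinarith
    linarith
  unfold cpK
  have hE1 : 0 < Real.exp 1 := Real.exp_pos _
  calc Real.exp 1 * (1 + L / ((n : ℝ) * q)) * Real.exp (2 * cpKap n q)
      ≤ Real.exp 1 * (1 + L / ((n : ℝ) * p)) * Real.exp (9000 * l * (1 + t) / L) := by
        apply mul_le_mul _ (Real.exp_le_exp.2 hk2) (Real.exp_pos _).le (by positivity)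
        apply mul_le_mul_of_nonneg_left _ hE1.le
        linarith

end Vale.Agent.Lib.P064
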