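import Vale.Agent.Lib.P064C.CoPinned

/-!
The numerics of the pinned count by closing edges.
-/

open Finset

namespace Vale.Agent.Lib.P064

/-- The loss per unit of excess. -/
noncomputable def cpM (n : ℕ) (q : ℝ) : ℝ :=
  300 + 12 * Real.log (cpT n q) + 81 * Real.log (2 * spG n q + 3) + Real.log (Real.log n + 2)

/-- The loss exponent per vertex. -/
noncomputable def cpKap (n : ℕ) (q : ℝ) : ℝ :=
  (spG n q + 1) * cpM n q / (- Real.log q - 1)

/-- The loss per edge. -/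
noncomputable def cpK (n : ℕ) (q : ℝ) : ℝ :=
  Real.exp 1 * (1 + Real.log n / ((n : ℝ) * q)) * Real.exp (2 * cpKap n q)

section

variable {n : ℕ} {q : ℝ}

lemma cpT_two_le : 2 ≤ cpT n q := by
  unfold cpT
  omega

lemma cpM_nonneg (hD : 1 ≤ (n : ℝ) * q) (hL : 0 ≤ Real.log n) : 0 ≤ cpM n q := by
  have h1 := spG_nonneg hD
  have h2 : 0 ≤ Real.log (Real.log n + 2) := Real.log_nonneg (by linarith)
  have h3 : 0 ≤ Real.log (2 * spG n q + 3) := Real.log_nonneg (by linarith)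
  have h4 : 0 ≤ Real.log (cpT n q) := Real.log_nonneg (by
    have := cpT_two_le (n := n) (q := q)
    have h5 : (2 : ℝ) ≤ (cpT n q : ℝ) := by exact_mod_cast this
    linarith)
  unfold cpM
  linarith

lemma cpKap_nonneg (hD : 1 ≤ (n : ℝ) * q) (hL : 0 ≤ Real.log n) (hQ : 1 < - Real.log q) :
    0 ≤ cpKap n q := by
  have h1 := spG_nonneg hD
  have h2 := cpM_nonneg hD hL
  unfold cpKap
  apply div_nonneg
  · apply mul_nonneg (by linarith) h2
  · linarith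

lemma one_le_cpK (hD : 1 ≤ (n : ℝ) * q) (hL : 0 ≤ Real.log n) (hQ : 1 < - Real.log q) :
    1 ≤ cpK n q := by
  have h1 := cpKap_nonneg hD hL hQ
  unfold cpK
  have hD0 : 0 < (n : ℝ) * q := by linarith
  have h2 : 1 ≤ Real.exp 1 := Real.one_le_exp (by norm_num)
  have h3 : 1 ≤ 1 + Real.log n / ((n : ℝ) * q) := by
    have : 0 ≤ Real.log n / ((n : ℝ) * q) := div_nonneg hL hD0.le
    linarith
  have h4 : 1 ≤ Real.exp (2 * cpKap n q) := Real.one_le_exp (by linarith)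
  have h5 : 1 ≤ Real.exp 1 * (1 + Real.log n / ((n : ℝ) * q)) := by
    nlinarith
  nlinarith

/-- A factor `1 + L / D` at `D`: what a pendant vertex costs. -/
lemma cpK_pendant (hD : 1 ≤ (n : ℝ) * q) (hL : 0 ≤ Real.log n) (hQ : 1 < - Real.log q) :
    Real.exp 2 * (1 + Real.log n / ((n : ℝ) * q)) ≤ spA * cpK n q := by
  have h1 := cpKap_nonneg hD hL hQ
  have hD0 : 0 < (n : ℝ) * q := by linarith
  have h2 : 1 ≤ Real.exp 1 := Real.one_le_exp (by norm_num)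
  have h3 : 1 ≤ 1 + Real.log n / ((n : ℝ) * q) := by
    have : 0 ≤ Real.log n / ((n : ℝ) * q) := div_nonneg hL hD0.le
    linarith
  have h4 : 1 ≤ Real.exp (2 * cpKap n q) := Real.one_le_exp (by linarith)
  have he2 : 0 < Real.exp 2 := Real.exp_pos 2
  unfold spA cpK
  set X := 1 + Real.log n / ((n : ℝ) * q) with hX
  have h5 : X ≤ Real.exp 1 * X * Real.exp (2 * cpKap n q) := by
    have : 1 ≤ Real.exp 1 * Real.exp (2 * cpKap n q) := by nlinarith
    nlinarith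
  have h6 : Real.exp 2 * X ≤ Real.exp 2 * (Real.exp 1 * X * Real.exp (2 * cpKap n q)) :=
    mul_le_mul_of_nonneg_left h5 he2.le
  have h7 : 0 ≤ Real.exp 2 * (Real.exp 1 * X * Real.exp (2 * cpKap n q)) := by positivity
  nlinarith

/-- `cpGam` is at most one. -/
lemma cpGam_le_one (hn : 2 ≤ n) (hq0 : 0 < q) (hD : 1 ≤ (n : ℝ) * q)
    (hD2 : (Real.exp 1 * ((n : ℝ) * q)) ^ 2 < n) (hQ : 1 < - Real.log q) : cpGam n q ≤ 1 := by
  have hn0 : (0 : ℝ) < n := by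
    have : 0 < n := by omega
    exact_mod_cast this
  have hD0 : 0 < (n : ℝ) * q := by linarith
  have hQ1 : 0 < - Real.log q - 1 := by linarith
  unfold cpGam
  rw [div_le_one hQ1]
  have h1 := Real.log_lt_log (by positivity) hD2
  rw [Real.log_pow, Real.log_mul (Real.exp_pos _).ne' hD0.ne', Real.log_exp] at h1
  have h2 : spG n q = Real.log n + Real.log q := by
    unfold spG
    rw [Real.log_mul hn0.ne' hq0.ne']
  have h3 : Real.log ((n : ℝ) * q) = spG n q := rfl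
  rw [h3] at h1
  push_cast at h1
  linarith

/-- The pinned count in exponential form. -/
lemma cp_P_le (hD : 1 ≤ (n : ℝ) * q) (hQ : 1 < - Real.log q) (hΓ1 : cpGam n q ≤ 1)
    (hL : 0 ≤ Real.log n)
    {a x b : ℕ} (hX : 1 ≤ 2 * (a * cpGam n q)) (hx : (x : ℝ) ≤ a * cpGam n q) (hb : b ≤ x + 1) :
    2 * (((cpT n q : ℝ) ^ (4 * x + 4) * Real.exp (2 * (x : ℝ))) *
        (Real.exp 1 * (2 * spG n q + 3)) ^ (cpm n q a b x + b + 2) *
        4 ^ (b + 1 + 2 * cpm n q a b x)) ≤ Real.exp (a * cpKap n q) := by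
  have hg := spG_nonneg hD
  have hQ1 : 0 < - Real.log q - 1 := by linarith
  have hΓ0 : 0 ≤ cpGam n q := by
    unfold cpGam
    exact div_nonneg (by linarith) hQ1.le
  obtain ⟨Γ, hΓ⟩ : ∃ Γ, Γ = cpGam n q := ⟨_, rfl⟩
  obtain ⟨X, hXdef⟩ : ∃ X, X = (a : ℝ) * Γ := ⟨_, rfl⟩
  have hkap : (a : ℝ) * cpKap n q = X * cpM n q := by
    rw [hXdef, hΓ]
    unfold cpKap cpGam
    ring
  rw [hkap]
  rw [← hΓ] at hΓ0 hΓ1
  rw [← hΓ, ← hXdef] at hX hx
  have hm : ((cpm n q a b x : ℕ) : ℝ) ≤ 74 * X := by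
    have h0 : 0 ≤ 2 * (10 * cpGam n q * ((a : ℝ) + x) + 2 * cpGam n q * ((a : ℝ) + b + 1) + 2) := by
      rw [← hΓ]
      positivity
    have h1 := Nat.ceil_lt_add_one h0
    have h2 : ((cpm n q a b x : ℕ) : ℝ) <
        2 * (10 * cpGam n q * ((a : ℝ) + x) + 2 * cpGam n q * ((a : ℝ) + b + 1) + 2) + 1 := h1
    rw [← hΓ] at h2
    have hb' : (b : ℝ) ≤ x + 1 := by exact_mod_cast hb
    have hx0 : (0 : ℝ) ≤ x := Nat.cast_nonneg _
    have hb0 : (0 : ℝ) ≤ b := Nat.cast_nonneg _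
    have h3 : Γ * (x : ℝ) ≤ X := by nlinarith
    have h4 : Γ * (b : ℝ) ≤ X + 1 := by nlinarith
    have h5 : Γ * (a : ℝ) = X := by rw [hXdef]; ring
    nlinarith
  obtain ⟨m, hmdef⟩ : ∃ m, m = cpm n q a b x := ⟨_, rfl⟩
  rw [← hmdef] at hm ⊢
  have hb' : (b : ℝ) ≤ x + 1 := by exact_mod_cast hb
  have hx0 : (0 : ℝ) ≤ x := Nat.cast_nonneg _
  have hb0 : (0 : ℝ) ≤ b := Nat.cast_nonneg _
  have hm0 : (0 : ℝ) ≤ m := Nat.cast_nonneg _
  have hT2 : (2 : ℝ) ≤ (cpT n q : ℝ) := by exact_mod_cast cpT_two_le (n := n) (q := q)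
  have hT0 : (0 : ℝ) < (cpT n q : ℝ) := by linarith
  obtain ⟨lt, hlt⟩ : ∃ lt, lt = Real.log (cpT n q) := ⟨_, rfl⟩
  have hlt0 : 0 ≤ lt := by
    rw [hlt]
    exact Real.log_nonneg (by linarith)
  have hr0 : (0 : ℝ) < 2 * spG n q + 3 := by linarith
  obtain ⟨lr, hlr⟩ : ∃ lr, lr = Real.log (2 * spG n q + 3) := ⟨_, rfl⟩
  have hlr0 : 0 ≤ lr := by
    rw [hlr]
    exact Real.log_nonneg (by linarith)
  have hlL : 0 ≤ Real.log (Real.log n + 2) := Real.log_nonneg (by linarith)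
  have hlog2 : Real.log 2 ≤ 0.7 := by
    have := Real.log_two_lt_d9
    linarith
  have hlog20 : 0 ≤ Real.log 2 := Real.log_nonneg (by norm_num)
  have hlog4 : Real.log 4 = 2 * Real.log 2 := by
    rw [show (4 : ℝ) = 2 ^ 2 by norm_num, Real.log_pow]
    norm_num
  have e1 : (cpT n q : ℝ) ^ (4 * x + 4) = Real.exp (((4 * x + 4 : ℕ) : ℝ) * lt) := by
    rw [Real.exp_nat_mul, hlt, Real.exp_log hT0]
  have e2 : Real.exp 1 * (2 * spG n q + 3) = Real.exp (1 + lr) := by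
    rw [Real.exp_add, hlr, Real.exp_log hr0]
  have e3 : (4 : ℝ) ^ (b + 1 + 2 * m) = Real.exp (((b + 1 + 2 * m : ℕ) : ℝ) * (2 * Real.log 2)) := by
    rw [← hlog4, Real.exp_nat_mul, Real.exp_log (by norm_num)]
  rw [e1, e2, e3, ← Real.exp_nat_mul, ← Real.exp_add, ← Real.exp_add, ← Real.exp_add]
  rw [show ∀ Y : ℝ, 2 * Real.exp Y = Real.exp (Real.log 2 + Y) from fun Y => by
    rw [Real.exp_add, Real.exp_log (by norm_num)]]
  apply Real.exp_le_exp.2
  push_cast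
  have h1 : (4 * (x : ℝ) + 4) * lt ≤ 12 * X * lt :=
    mul_le_mul_of_nonneg_right (by linarith) hlt0
  have h2 : ((m : ℝ) + b + 2) * (1 + lr) ≤ 81 * X * (1 + lr) :=
    mul_le_mul_of_nonneg_right (by linarith) (by linarith)
  have h3 : ((b : ℝ) + 1 + 2 * m) * (2 * Real.log 2) ≤ 153 * X * (2 * 0.7) := by
    apply mul_le_mul (by linarith) (by linarith) (by positivity) (by linarith)
  have hX0 : 0 ≤ X := by linarith
  have h4 : X * cpM n q = X * (300 + 12 * lt + 81 * lr + Real.log (Real.log n + 2)) := by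
    unfold cpM
    rw [hlt, hlr]
  rw [h4]
  have h5 : 0 ≤ X * Real.log (Real.log n + 2) := mul_nonneg hX0 hlL
  nlinarith

end

end Vale.Agent.Lib.P064
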