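import Vale.Agent.Lib.P064C.Forest

/-!
The facts about one image needed by the count: connected, degrees, density.
-/

open Finset

namespace Vale.Agent.Lib.P064C

open Vale.Agent.Lib.P064 Vale.Agent.Lib.P064S
open scoped Classical

variable {V α : Type} [Fintype V] [Fintype α] {F : SimpleGraph α} {H : SimpleGraph V} {n : ℕ}
  {q : ℝ} {W J : Finset α} {S : Finset (α → V)} {φ₁ : α → V}

/-- The image of the edges touching `J`. -/
noncomputable def imE (F : SimpleGraph α) (W J : Finset α) (φ : α → V) : Finset (Sym2 V) :=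
  (tI F W J).image (Sym2.map φ)

/-- The union of the images is the union of the edges. -/
theorem biUnion_imE (F : SimpleGraph α) (W J : Finset α) (S : Finset (α → V)) :
    S.biUnion (imE F W J) = UU F W J S := rfl

/-- An image is connected. -/
theorem imE_conn (hP : Pin n q F H W J S φ₁) {φ : α → V} (hφ : φ ∈ S) {x : α} (hxW : x ∈ W)
    (hxJ : x ∉ J)
    (hconn : ∀ D : Finset α, x ∈ D → D ⊆ insert x J → D ≠ insert x J →
      ∃ u ∈ D, ∃ v ∈ insert x J \ D, F.Adj u v) :
    ∀ z ∈ vset (imE F W J φ), (gr (imE F W J φ)).Reachable (φ x) z := by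
  have hadj : ∀ u v, F.Adj u v → u ∈ W → v ∈ W → (u ∈ J ∨ v ∈ J) →
      (gr (imE F W J φ)).Adj (φ u) (φ v) := by
    intro u v huv hu hv hor
    rw [SimpleGraph.fromEdgeSet_adj]
    refine ⟨?_, fun h => huv.ne (hP.inj φ hφ h)⟩
    refine Finset.mem_coe.2 (Finset.mem_image.2 ⟨s(u, v), (mem_tI_pair hP.hJW).2 ⟨huv, hu, hv, hor⟩, ?_⟩)
    rfl
  have hreach : ∀ a ∈ insert x J, (gr (imE F W J φ)).Reachable (φ x) (φ a) := by
    by_contra hcon
    push Not at hcon
    obtain ⟨a₀, ha₀, ha₀'⟩ := hcon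
    set D : Finset α := (insert x J).filter (fun a => (gr (imE F W J φ)).Reachable (φ x) (φ a)) with hD
    have hxD : x ∈ D := Finset.mem_filter.2 ⟨Finset.mem_insert_self _ _, SimpleGraph.Reachable.refl _⟩
    have hDsub : D ⊆ insert x J := Finset.filter_subset _ _
    have hDne : D ≠ insert x J := by
      intro h
      have : a₀ ∈ D := by rw [h]; exact ha₀
      exact ha₀' (Finset.mem_filter.1 this).2
    obtain ⟨u, hu, v, hv, huv⟩ := hconn D hxD hDsub hDne
    have hv' := Finset.mem_sdiff.1 hv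
    have hvJ : v ∈ J := by
      rcases Finset.mem_insert.1 hv'.1 with h | h
      · exact absurd (h ▸ hxD) hv'.2
      · exact h
    have huW : u ∈ W := by
      rcases Finset.mem_insert.1 (hDsub hu) with h | h
      · exact h ▸ hxW
      · exact hP.hJW h
    have h1 := (hadj u v huv huW (hP.hJW hvJ) (Or.inr hvJ)).reachable
    exact hv'.2 (Finset.mem_filter.2 ⟨hv'.1, (Finset.mem_filter.1 hu).2.trans h1⟩)
  intro z hz
  obtain ⟨e, he, hze⟩ := Finset.mem_biUnion.1 hz
  obtain ⟨e', he', rfl⟩ := Finset.mem_image.1 he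
  induction e' using Sym2.ind with
  | _ u v =>
    obtain ⟨h1, h2, h3, h4⟩ := (mem_tI_pair hP.hJW).1 he'
    have hmem : z = φ u ∨ z = φ v := by
      simpa [Sym2.map_mk, Sym2.mem_toFinset] using hze
    have hu_or : u ∈ J → (gr (imE F W J φ)).Reachable (φ x) (φ u) :=
      fun h => hreach u (Finset.mem_insert_of_mem h)
    have hv_or : v ∈ J → (gr (imE F W J φ)).Reachable (φ x) (φ v) :=
      fun h => hreach v (Finset.mem_insert_of_mem h)
    have hA := hadj u v h1 h2 h3 h4
    rcases hmem with rfl | rfl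
    · by_cases hu : u ∈ J
      · exact hu_or hu
      · exact (hv_or (h4.resolve_left hu)).trans hA.symm.reachable
    · by_cases hv : v ∈ J
      · exact hv_or hv
      · exact (hu_or (h4.resolve_right hv)).trans hA.reachable

/-- The vertices of an image. -/
theorem vset_imE_card_le (hP : Pin n q F H W J S φ₁) {φ : α → V} (hφ : φ ∈ S) :
    (vset (imE F W J φ)).card ≤ J.card + (roots F W J φ₁).card := by
  have hsub : vset (imE F W J φ) ⊆ J.image φ ∪ roots F W J φ₁ := by
    intro z hz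
    obtain ⟨e, he, hze⟩ := Finset.mem_biUnion.1 hz
    obtain ⟨e', he', rfl⟩ := Finset.mem_image.1 he
    induction e' using Sym2.ind with
    | _ u v =>
      obtain ⟨h1, h2, h3, h4⟩ := (mem_tI_pair hP.hJW).1 he'
      have hmem : z = φ u ∨ z = φ v := by
        simpa [Sym2.map_mk, Sym2.mem_toFinset] using hze
      have key : ∀ a b : α, F.Adj a b → a ∈ W → (a ∈ J ∨ b ∈ J) →
          φ a ∈ J.image φ ∪ roots F W J φ₁ := by
        intro a b hab haW hor
        by_cases ha : a ∈ J
        · exact Finset.mem_union_left _ (Finset.mem_image_of_mem _ ha)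
        · have hb : b ∈ J := hor.resolve_left ha
          have ham : a ∈ W \ J := Finset.mem_sdiff.2 ⟨haW, ha⟩
          rw [hP.agree φ hφ a ham]
          refine Finset.mem_union_right _ (Finset.mem_image_of_mem _ ?_)
          exact Finset.mem_filter.2 ⟨ham, b, hb, hab.symm⟩
      rcases hmem with rfl | rfl
      · exact key u v h1 h2 h4
      · exact key v u h1.symm h3 h4.symm
  calc (vset (imE F W J φ)).card ≤ (J.image φ ∪ roots F W J φ₁).card := Finset.card_le_card hsub
    _ ≤ (J.image φ).card + (roots F W J φ₁).card := Finset.card_union_le _ _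
    _ ≤ J.card + (roots F W J φ₁).card := by
      have := Finset.card_image_le (s := J) (f := φ)
      omega

/-- The degrees in an image. -/
theorem two_le_dg_imE (hP : Pin n q F H W J S φ₁) {φ : α → V} (hφ : φ ∈ S)
    (hdeg : ∀ u ∈ J, 2 ≤ (nbW F W u).card) :
    ∀ z ∈ vset (imE F W J φ), z ∉ roots F W J φ₁ → 2 ≤ dg (imE F W J φ) z := by
  intro z hz hzr
  obtain ⟨e, he, hze⟩ := Finset.mem_biUnion.1 hz
  obtain ⟨e', he', rfl⟩ := Finset.mem_image.1 he
  have hinj := hP.inj φ hφ
  -- `z` is the image of a vertex of `J`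
  have hex : ∃ a ∈ J, φ a = z := by
    induction e' using Sym2.ind with
    | _ u v =>
      obtain ⟨h1, h2, h3, h4⟩ := (mem_tI_pair hP.hJW).1 he'
      have hmem : z = φ u ∨ z = φ v := by
        simpa [Sym2.map_mk, Sym2.mem_toFinset] using hze
      have key : ∀ a b : α, F.Adj a b → a ∈ W → (a ∈ J ∨ b ∈ J) → z = φ a → ∃ a ∈ J, φ a = z := by
        intro a b hab haW hor hza
        by_cases ha : a ∈ J
        · exact ⟨a, ha, hza.symm⟩
        · exfalso
          have hb : b ∈ J := hor.resolve_left ha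
          have ham : a ∈ W \ J := Finset.mem_sdiff.2 ⟨haW, ha⟩
          apply hzr
          rw [hza, hP.agree φ hφ a ham]
          refine Finset.mem_image_of_mem _ ?_
          exact Finset.mem_filter.2 ⟨ham, b, hb, hab.symm⟩
      rcases hmem with h | h
      · exact key u v h1 h2 h4 h
      · exact key v u h1.symm h3 h4.symm h
  obtain ⟨a, ha, rfl⟩ := hex
  have h2 := hdeg a ha
  refine h2.trans ?_
  unfold dg
  refine Finset.card_le_card_of_injOn (fun b => s(φ a, φ b)) ?_ ?_
  · intro b hb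
    have hb' := mem_nbW.1 (Finset.mem_coe.1 hb)
    refine Finset.mem_coe.2 (Finset.mem_filter.2 ⟨?_, by simp⟩)
    exact Finset.mem_image.2 ⟨s(a, b), (mem_tI_pair hP.hJW).2
      ⟨hb'.2, hP.hJW ha, hb'.1, Or.inl ha⟩, rfl⟩
  · intro b _ b' _ hbb
    have hbb' : s(φ a, φ b) = s(φ a, φ b') := hbb
    rcases Sym2.eq_iff.1 hbb' with ⟨_, h⟩ | ⟨h1, h2⟩
    · exact hinj h
    · have h3 : a = b' := hinj h1
      have h4 : b = a := hinj h2
      rw [h4, h3]

/-- Density of the union. -/
theorem dens_UU (hP : Pin n q F H W J S φ₁) (hG : GoodDensity n q H) (hq1 : q ≤ 1)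
    (hg : 0 ≤ Real.log n + Real.log q) (hQ : 0 < - Real.log q) :
    Dens ((Real.log n + Real.log q) / (- Real.log q)) (UU F W J S) := by
  have hn1 : (1 : ℝ) ≤ n := by exact_mod_cast hP.n1
  have hn0 : (0 : ℝ) < n := by linarith
  intro T hT
  by_cases hne : T.Nonempty
  · have hedges : ∀ e ∈ T, e ∈ H.edgeSet := fun e he => UU_edges hP (Finset.Subset.refl _) e (hT he)
    have h1 := density_of_good hG hP.q0 hq1 T hedges hne
    have h2 : (T.biUnion fun e => e.toFinset) = vset T := rfl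
    rw [h2] at h1
    have h3 : (0 : ℝ) ≤ Real.log ((n : ℝ) ^ (vset T).card * q ^ T.card) := Real.log_nonneg h1
    rw [Real.log_mul (by positivity) (pow_pos hP.q0 _).ne', Real.log_pow, Real.log_pow] at h3
    have hfield : (1 + (Real.log n + Real.log q) / (- Real.log q)) = Real.log n / (- Real.log q) := by
      have hQ' : - Real.log q ≠ 0 := hQ.ne'
      rw [eq_div_iff hQ', add_mul, div_mul_cancel₀ _ hQ']
      ring
    rw [hfield, div_mul_eq_mul_div, le_div_iff₀ hQ]
    nlinarith
  · rw [Finset.not_nonempty_iff_eq_empty] at hne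
    subst hne
    simp only [Finset.card_empty, Nat.cast_zero]
    have : (0 : ℝ) ≤ (Real.log n + Real.log q) / (- Real.log q) := div_nonneg hg hQ.le
    positivity

/-- No loops in the union. -/
theorem noLoop_UU (hP : Pin n q F H W J S φ₁) : NoLoop (UU F W J S) := by
  intro e he
  obtain ⟨φ, hφ, he'⟩ := Finset.mem_biUnion.1 he
  obtain ⟨e', he'', rfl⟩ := Finset.mem_image.1 he'
  induction e' using Sym2.ind with
  | _ u v =>
    obtain ⟨h1, _, _, _⟩ := (mem_tI_pair hP.hJW).1 he''
    rw [Sym2.map_mk, Sym2.mk_isDiag_iff]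
    exact fun h => h1.ne (hP.inj φ hφ h)

/-- The number of closing edges. -/
theorem closing_card_le (hP : Pin n q F H W J S φ₁) (hG : GoodDensity n q H) (hq1 : q ≤ 1)
    (hg : 0 ≤ Real.log n + Real.log q) (hQ : Real.log n / 2 ≤ - Real.log q) (hL : 0 < Real.log n)
    {x : α} (hxW : x ∈ W) (hxJ : x ∉ J)
    (hconn : ∀ D : Finset α, x ∈ D → D ⊆ insert x J → D ≠ insert x J →
      ∃ u ∈ D, ∃ v ∈ insert x J \ D, F.Adj u v)
    (hdeg : ∀ u ∈ J, 2 ≤ (nbW F W u).card)
    {TT : Finset (Sym2 V)}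
    (hTT : (UU F W J S \ TT).card + Fintype.card V ≤ (UU F W J S).card + cc (UU F W J S)) :
    ((UU F W J S \ TT).card : ℝ) ≤
      (2 * (Real.log n + Real.log q) + 3) * ((roots F W J φ₁).card + 1) := by
  have hn1 : (1 : ℝ) ≤ n := by exact_mod_cast hP.n1
  obtain ⟨hZU, hex, _⟩ := excess_bound hP hG hq1 hdeg hg
  set U := UU F W J S with hU
  set Z := ZZ J S with hZ
  set r := (roots F W J φ₁).card with hr
  set L := Real.log n with hLd
  set g := L + Real.log q with hgd
  -- the union is connected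
  have hxm : x ∈ W \ J := Finset.mem_sdiff.2 ⟨hxW, hxJ⟩
  have hreach : ∀ z ∈ vset U, (gr U).Reachable (φ₁ x) z := by
    intro z hz
    obtain ⟨e, he, hze⟩ := Finset.mem_biUnion.1 hz
    obtain ⟨φ, hφ, heφ⟩ := Finset.mem_biUnion.1 he
    have hzv : z ∈ vset (imE F W J φ) := Finset.mem_biUnion.2 ⟨e, heφ, hze⟩
    have h1 := imE_conn hP hφ hxW hxJ hconn z hzv
    rw [hP.agree φ hφ x hxm] at h1
    refine h1.mono ?_
    intro a b hab
    rw [SimpleGraph.fromEdgeSet_adj] at hab ⊢
    exact ⟨Finset.mem_coe.2 (Finset.mem_biUnion.2 ⟨φ, hφ, Finset.mem_coe.1 hab.1⟩), hab.2⟩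
  have hcc := cc_add_vset_le U hreach
  -- the vertices of `Z` lie on edges
  have hZv : Z ⊆ vset U := by
    intro z hz
    obtain ⟨φ, hφ, hz'⟩ := Finset.mem_biUnion.1 hz
    obtain ⟨a, ha, rfl⟩ := Finset.mem_image.1 hz'
    have h2 := hdeg a ha
    have hne : (nbW F W a).Nonempty := Finset.card_pos.1 (by omega)
    obtain ⟨b, hb⟩ := hne
    have hb' := mem_nbW.1 hb
    refine Finset.mem_biUnion.2 ⟨s(φ a, φ b), Finset.mem_biUnion.2 ⟨φ, hφ, ?_⟩, by simp [Sym2.mem_toFinset]⟩
    exact Finset.mem_image.2 ⟨s(a, b), (mem_tI_pair hP.hJW).2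
      ⟨hb'.2, hP.hJW ha, hb'.1, Or.inl ha⟩, rfl⟩
  have hZc : Z.card ≤ (vset U).card := Finset.card_le_card hZv
  have hdiff : (U \ TT).card + Z.card ≤ U.card + 1 := by omega
  have hdiff' : ((U \ TT).card : ℝ) + Z.card ≤ U.card + 1 := by exact_mod_cast hdiff
  -- the excess
  have hr0 : (0 : ℝ) ≤ r := Nat.cast_nonneg _
  have hUZ : (0 : ℝ) ≤ (U.card : ℝ) - Z.card := by linarith
  have hex2 : ((U.card : ℝ) - Z.card) * (L / 2) ≤ r * L * (1 + g) :=
    (mul_le_mul_of_nonneg_left hQ hUZ).trans hex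
  have hex3 : ((U.card : ℝ) - Z.card) ≤ 2 * r * (1 + g) := by
    have h1 : ((U.card : ℝ) - Z.card) * L ≤ (2 * r * (1 + g)) * L := by nlinarith
    exact le_of_mul_le_mul_right h1 hL
  nlinarith [mul_nonneg hr0 hg]

end Vale.Agent.Lib.P064C
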