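import Vale.Agent.Lib.P064C.Leaf

/-!
Counting by closing edges: Markov, and the count of images.
-/

open Finset

namespace Vale.Agent.Lib.P064C

open scoped Classical

variable {V ι : Type} [Fintype V]

/-- Subsets of size at most `m` of a set of size `X <= ρ m'`, `m <= m'`. -/
theorem sum_choose_le {X m m' : ℕ} {ρ : ℝ} (hρ : 1 ≤ ρ) (hm : m ≤ m') (hm' : 1 ≤ m')
    (hX : (X : ℝ) ≤ ρ * m') :
    ((∑ i ∈ Finset.range (m + 1), X.choose i : ℕ) : ℝ) ≤ (Real.exp 1 * ρ) ^ m' := by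
  have hρ0 : (0 : ℝ) ≤ ρ := by linarith
  have h1 : ∀ i ∈ Finset.range (m + 1), ((X.choose i : ℕ) : ℝ) ≤
      ρ ^ m' * ((m' : ℝ) ^ i / (i.factorial : ℝ)) := by
    intro i hi
    have hi' : i ≤ m' := by
      have := Finset.mem_range.1 hi
      omega
    have h2 : ((X.choose i : ℕ) : ℝ) ≤ (X : ℝ) ^ i / (i.factorial : ℝ) := Nat.choose_le_pow_div i X
    have h3 : (X : ℝ) ^ i ≤ (ρ * m') ^ i := pow_le_pow_left₀ (Nat.cast_nonneg _) hX i
    have h4 : (ρ * (m' : ℝ)) ^ i = ρ ^ i * (m' : ℝ) ^ i := mul_pow _ _ _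
    have h5 : ρ ^ i ≤ ρ ^ m' := pow_le_pow_right₀ hρ hi'
    have hfac : (0 : ℝ) < (i.factorial : ℝ) := by positivity
    calc ((X.choose i : ℕ) : ℝ) ≤ (X : ℝ) ^ i / (i.factorial : ℝ) := h2
      _ ≤ (ρ ^ i * (m' : ℝ) ^ i) / (i.factorial : ℝ) := by
          rw [← h4]
          gcongr
      _ ≤ (ρ ^ m' * (m' : ℝ) ^ i) / (i.factorial : ℝ) := by
          gcongr
      _ = ρ ^ m' * ((m' : ℝ) ^ i / (i.factorial : ℝ)) := by ring
  have h6 : ∑ i ∈ Finset.range (m + 1), ((m' : ℝ) ^ i / (i.factorial : ℝ)) ≤ Real.exp (m' : ℝ) :=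
    Real.sum_le_exp_of_nonneg (Nat.cast_nonneg _) _
  push_cast
  calc ∑ i ∈ Finset.range (m + 1), ((X.choose i : ℕ) : ℝ)
      ≤ ∑ i ∈ Finset.range (m + 1), ρ ^ m' * ((m' : ℝ) ^ i / (i.factorial : ℝ)) :=
        Finset.sum_le_sum h1
    _ = ρ ^ m' * ∑ i ∈ Finset.range (m + 1), ((m' : ℝ) ^ i / (i.factorial : ℝ)) := by
        rw [Finset.mul_sum]
    _ ≤ ρ ^ m' * Real.exp (m' : ℝ) := by
        gcongr
    _ = (Real.exp 1 * ρ) ^ m' := by
        rw [mul_pow, ← Real.exp_nat_mul, mul_one, mul_comm]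

/-- The vertices of a set of edges: at most two per edge. -/
lemma vset_card_le (C : Finset (Sym2 V)) : (vset C).card ≤ 2 * C.card := by
  unfold vset
  refine Finset.card_biUnion_le_card_mul _ _ _ ?_ |>.trans (by rw [mul_comm])
  intro e _
  induction e using Sym2.ind with
  | _ a b =>
    have h3 : (s(a, b)).toFinset ⊆ {a, b} := by
      intro x hx
      simpa using hx
    exact (Finset.card_le_card h3).trans Finset.card_le_two

/-- The number of images with few closing edges. -/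
theorem card_images_le (TT : Finset (Sym2 V)) (hTT : NoLoop TT) (ha : (gr TT).IsAcyclic)
    (U : Finset (Sym2 V)) (R : Finset V) (m : ℕ) (𝓘 : Finset (Finset (Sym2 V)))
    (hsub : ∀ I' ∈ 𝓘, I' ⊆ U) (hfew : ∀ I' ∈ 𝓘, (I' \ TT).card ≤ m)
    (hdeg : ∀ I' ∈ 𝓘, ∀ z ∈ vset I', z ∉ R → 2 ≤ dg I' z) :
    𝓘.card ≤ (∑ i ∈ Finset.range (m + 1), (U \ TT).card.choose i) * 4 ^ (R.card + 2 * m) := by
  have hfib : ∀ C ∈ 𝓘.image (fun I' => I' \ TT),
      (𝓘.filter (fun I' => I' \ TT = C)).card ≤ 4 ^ (R.card + 2 * m) := by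
    intro C hC
    obtain ⟨I₀, hI₀, rfl⟩ := Finset.mem_image.1 hC
    set C := I₀ \ TT with hCdef
    have hCm : C.card ≤ m := hfew I₀ hI₀
    set A : Finset V := R ∪ vset C with hA
    have hAcard : A.card ≤ R.card + 2 * m := by
      have h1 : A.card ≤ R.card + (vset C).card := Finset.card_union_le _ _
      have h2 := vset_card_le C
      omega
    have hmaps : ∀ I' ∈ 𝓘.filter (fun I' => I' \ TT = C),
        I' ∩ TT ∈ TT.powerset.filter (fun T' => ∀ z, z ∉ A → dg T' z ≠ 1) := by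
      intro I' hI'
      obtain ⟨hI'm, hI'C⟩ := Finset.mem_filter.1 hI'
      refine Finset.mem_filter.2 ⟨Finset.mem_powerset.2 Finset.inter_subset_right, ?_⟩
      intro z hz
      have hzR : z ∉ R := fun h => hz (Finset.mem_union_left _ h)
      have hzC : z ∉ vset C := fun h => hz (Finset.mem_union_right _ h)
      by_cases hzI : z ∈ vset I'
      · have h2 := hdeg I' hI'm z hzI hzR
        have heq : (I' ∩ TT).filter (fun e => z ∈ e) = I'.filter (fun e => z ∈ e) := by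
          ext e
          simp only [Finset.mem_filter, Finset.mem_inter]
          constructor
          · rintro ⟨⟨h3, _⟩, h4⟩
            exact ⟨h3, h4⟩
          · rintro ⟨h3, h4⟩
            refine ⟨⟨h3, ?_⟩, h4⟩
            by_contra h5
            apply hzC
            unfold vset
            refine Finset.mem_biUnion.2 ⟨e, ?_, by simpa using h4⟩
            rw [← hI'C]
            exact Finset.mem_sdiff.2 ⟨h3, h5⟩
        unfold dg at h2 ⊢
        rw [heq]
        omega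
      · have h0 : (I' ∩ TT).filter (fun e => z ∈ e) = ∅ := by
          apply Finset.filter_eq_empty_iff.2
          intro e he hze
          apply hzI
          unfold vset
          exact Finset.mem_biUnion.2 ⟨e, (Finset.mem_inter.1 he).1, by simpa using hze⟩
        unfold dg
        rw [h0]
        simp
    have hinj : Set.InjOn (fun I' : Finset (Sym2 V) => I' ∩ TT)
        (𝓘.filter (fun I' => I' \ TT = C) : Finset (Finset (Sym2 V))) := by
      intro I₁ h₁ I₂ h₂ h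
      have h₁C := (Finset.mem_filter.1 (Finset.mem_coe.1 h₁)).2
      have h₂C := (Finset.mem_filter.1 (Finset.mem_coe.1 h₂)).2
      have h' : I₁ ∩ TT = I₂ ∩ TT := h
      ext e
      by_cases heT : e ∈ TT
      · have h1 : e ∈ I₁ ∩ TT ↔ e ∈ I₂ ∩ TT := by rw [h']
        simpa [heT] using h1
      · have h1 : e ∈ I₁ \ TT ↔ e ∈ I₂ \ TT := by rw [h₁C, h₂C]
        simpa [heT] using h1
    calc (𝓘.filter (fun I' => I' \ TT = C)).card
        ≤ (TT.powerset.filter (fun T' => ∀ z, z ∉ A → dg T' z ≠ 1)).card :=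
          Finset.card_le_card_of_injOn _ hmaps hinj
      _ ≤ 4 ^ A.card := leaf_count TT hTT ha A
      _ ≤ 4 ^ (R.card + 2 * m) := Nat.pow_le_pow_right (by norm_num) hAcard
  have h1 := Finset.card_le_mul_card_image 𝓘 _ hfib
  have himg : 𝓘.image (fun I' => I' \ TT) ⊆
      (Finset.range (m + 1)).biUnion (fun i => (U \ TT).powersetCard i) := by
    intro C hC
    obtain ⟨I₀, hI₀, rfl⟩ := Finset.mem_image.1 hC
    refine Finset.mem_biUnion.2 ⟨(I₀ \ TT).card, ?_, Finset.mem_powersetCard.2 ⟨?_, rfl⟩⟩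
    · have := hfew I₀ hI₀
      exact Finset.mem_range.2 (by omega)
    · exact Finset.sdiff_subset_sdiff (hsub I₀ hI₀) (Finset.Subset.refl _)
  have h2 : (𝓘.image (fun I' => I' \ TT)).card ≤
      ∑ i ∈ Finset.range (m + 1), (U \ TT).card.choose i := by
    refine (Finset.card_le_card himg).trans (Finset.card_biUnion_le.trans ?_)
    simp [Finset.card_powersetCard]
  calc 𝓘.card ≤ 4 ^ (R.card + 2 * m) * (𝓘.image (fun I' => I' \ TT)).card := h1
    _ ≤ 4 ^ (R.card + 2 * m) * ∑ i ∈ Finset.range (m + 1), (U \ TT).card.choose i :=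
        Nat.mul_le_mul_left _ h2
    _ = _ := Nat.mul_comm _ _

/-- Markov and the count of images. -/
theorem images_bound (S : Finset ι) (Im : ι → Finset (Sym2 V)) (TT : Finset (Sym2 V))
    (hTT : NoLoop TT) (ha : (gr TT).IsAcyclic) (R : Finset V)
    (hdeg : ∀ φ ∈ S, ∀ z ∈ vset (Im φ), z ∉ R → 2 ≤ dg (Im φ) z)
    {M Fb ρ : ℝ} (hM : 0 < M) (hFb : 0 ≤ Fb) (hρ : 1 ≤ ρ)
    (hsum : ((∑ φ ∈ S, (Im φ \ TT).card : ℕ) : ℝ) ≤ S.card * M)
    (hfib : ∀ φ ∈ S, ((S.filter (fun ψ => Im ψ = Im φ)).card : ℝ) ≤ Fb)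
    {m m' : ℕ} (hm : 2 * M ≤ m) (hmm : m ≤ m') (hm' : 1 ≤ m')
    (hX : (((S.biUnion Im) \ TT).card : ℝ) ≤ ρ * m') :
    (S.card : ℝ) ≤ 2 * Fb * (Real.exp 1 * ρ) ^ m' * 4 ^ (R.card + 2 * m) := by
  set Good := S.filter (fun φ => (Im φ \ TT).card ≤ m) with hGood
  set Bad := S.filter (fun φ => ¬ (Im φ \ TT).card ≤ m) with hBad
  have hsplit : Good.card + Bad.card = S.card := Finset.card_filter_add_card_filter_not _
  have hbad : (Bad.card : ℝ) * (2 * M) ≤ S.card * M := by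
    have h1 : (Bad.card : ℝ) * (2 * M) ≤ ∑ φ ∈ Bad, ((Im φ \ TT).card : ℝ) := by
      have h2 : ∀ φ ∈ Bad, 2 * M ≤ ((Im φ \ TT).card : ℝ) := by
        intro φ hφ
        have h3 := (Finset.mem_filter.1 hφ).2
        have h4 : (m : ℝ) ≤ ((Im φ \ TT).card : ℝ) := by
          exact_mod_cast (not_le.1 h3).le
        linarith
      have := Finset.card_nsmul_le_sum Bad (fun φ => ((Im φ \ TT).card : ℝ)) (2 * M) h2
      simpa [nsmul_eq_mul] using this
    have h5 : ∑ φ ∈ Bad, ((Im φ \ TT).card : ℝ) ≤ ∑ φ ∈ S, ((Im φ \ TT).card : ℝ) :=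
      Finset.sum_le_sum_of_subset_of_nonneg (Finset.filter_subset _ _)
        (fun _ _ _ => Nat.cast_nonneg _)
    push_cast at hsum
    linarith
  have hSG : (S.card : ℝ) ≤ 2 * Good.card := by
    have h1 : (Bad.card : ℝ) * 2 ≤ S.card := by
      have h2 : ((Bad.card : ℝ) * 2) * M ≤ (S.card : ℝ) * M := by nlinarith
      exact le_of_mul_le_mul_right h2 hM
    have h3 : (Good.card : ℝ) + Bad.card = S.card := by exact_mod_cast hsplit
    linarith
  set U := S.biUnion Im with hU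
  set 𝓘 := Good.image Im with h𝓘
  have hcount := card_images_le TT hTT ha U R m 𝓘
    (by
      intro I' hI'
      obtain ⟨φ, hφ, rfl⟩ := Finset.mem_image.1 hI'
      exact Finset.subset_biUnion_of_mem Im (Finset.mem_filter.1 hφ).1)
    (by
      intro I' hI'
      obtain ⟨φ, hφ, rfl⟩ := Finset.mem_image.1 hI'
      exact (Finset.mem_filter.1 hφ).2)
    (by
      intro I' hI'
      obtain ⟨φ, hφ, rfl⟩ := Finset.mem_image.1 hI'
      exact hdeg φ (Finset.mem_filter.1 hφ).1)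
  have hchoose := sum_choose_le (X := (U \ TT).card) hρ hmm hm' hX
  have hI : (𝓘.card : ℝ) ≤ (Real.exp 1 * ρ) ^ m' * 4 ^ (R.card + 2 * m) := by
    have h1 : (𝓘.card : ℝ) ≤
        ((∑ i ∈ Finset.range (m + 1), (U \ TT).card.choose i : ℕ) : ℝ) * 4 ^ (R.card + 2 * m) := by
      exact_mod_cast hcount
    exact h1.trans (mul_le_mul_of_nonneg_right hchoose (by positivity))
  have hG : (Good.card : ℝ) ≤ 𝓘.card * Fb := by
    have h1 : Good.card = ∑ b ∈ 𝓘, (Good.filter (fun a => Im a = b)).card :=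
      Finset.card_eq_sum_card_image Im Good
    have h2 : ∀ b ∈ 𝓘, (((Good.filter (fun a => Im a = b)).card : ℕ) : ℝ) ≤ Fb := by
      intro b hb
      obtain ⟨φ, hφ, rfl⟩ := Finset.mem_image.1 hb
      refine le_trans ?_ (hfib φ (Finset.mem_filter.1 hφ).1)
      have h3 : Good.filter (fun a => Im a = Im φ) ⊆ S.filter (fun ψ => Im ψ = Im φ) := by
        intro a ha
        obtain ⟨h4, h5⟩ := Finset.mem_filter.1 ha
        exact Finset.mem_filter.2 ⟨(Finset.mem_filter.1 h4).1, h5⟩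
      exact_mod_cast Finset.card_le_card h3
    have h4 := Finset.sum_le_card_nsmul 𝓘 (fun b => (((Good.filter (fun a => Im a = b)).card : ℕ) : ℝ)) Fb h2
    rw [h1]
    push_cast
    simpa [nsmul_eq_mul] using h4
  have hpos : (0 : ℝ) ≤ (Real.exp 1 * ρ) ^ m' * 4 ^ (R.card + 2 * m) := by
    have : (0 : ℝ) ≤ ρ := by linarith
    positivity
  calc (S.card : ℝ) ≤ 2 * Good.card := hSG
    _ ≤ 2 * (𝓘.card * Fb) := by linarith
    _ ≤ 2 * (((Real.exp 1 * ρ) ^ m' * 4 ^ (R.card + 2 * m)) * Fb) := by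
        gcongr
    _ = 2 * Fb * (Real.exp 1 * ρ) ^ m' * 4 ^ (R.card + 2 * m) := by ring

end Vale.Agent.Lib.P064C
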