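import Vale.Agent.Lib.P064C.Fibre
import Vale.Agent.Lib.P064C.Conn
import Vale.Agent.Lib.P064C.Average
import Vale.Agent.Lib.P064C.Images
import Vale.Agent.Lib.P064S.Num
import Vale.Agent.Lib.P064S.LowProps
import Vale.Agent.Lib.P064S.Degree
import Vale.Agent.Lib.P064S.Excess

/-!
The pinned count by closing edges.
-/

open Finset

namespace Vale.Agent.Lib.P064

open Vale.Agent.Lib.P064S Vale.Agent.Lib.P064C
open scoped Classical

variable {V α : Type} [Fintype V] [Fintype α] {H : SimpleGraph V} {F : SimpleGraph α} {n : ℕ}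
  {q : ℝ}

/-- The ratio `(g + 1) / (Q - 1)`. -/
noncomputable def cpGam (n : ℕ) (q : ℝ) : ℝ := (spG n q + 1) / (- Real.log q - 1)

/-- The threshold for large vertices. -/
noncomputable def cpT (n : ℕ) (q : ℝ) : ℕ := 2 + ⌈(spG n q + 2) * spLam n q⌉₊

/-- The number of closing edges allowed. -/
noncomputable def cpm (n : ℕ) (q : ℝ) (a b x : ℕ) : ℕ :=
  ⌈2 * (10 * cpGam n q * ((a : ℝ) + x) + 2 * cpGam n q * ((a : ℝ) + b + 1) + 2)⌉₊

/-- Extending a forest to a spanning forest of an edge set. -/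
private theorem cp_forest_ext (E F : Finset (Sym2 V)) (hFE : F ⊆ E)
    (ha : (gr F).IsAcyclic) :
    ∃ F' : Finset (Sym2 V), F ⊆ F' ∧ F' ⊆ E ∧ (gr F').IsAcyclic ∧
      (gr F').Reachable = (gr E).Reachable := by
  have hle : gr F ≤ gr E :=
    SimpleGraph.fromEdgeSet_mono (by exact_mod_cast hFE)
  obtain ⟨H, hFH, hHE, hHa, hHr⟩ :=
    (gr E).exists_isAcyclic_reachable_eq_le_of_le_of_isAcyclic hle ha
  have hle2 : gr (F ∪ E.filter (fun e => e ∈ H.edgeSet)) ≤ H := by
    intro a b hab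
    simp only [gr, SimpleGraph.fromEdgeSet_adj, coe_union, Set.mem_union, mem_coe,
      mem_filter] at hab
    rcases hab with ⟨h | h, hne⟩
    · exact hFH (by simp only [gr, SimpleGraph.fromEdgeSet_adj, mem_coe]; exact ⟨h, hne⟩)
    · exact h.2
  have hle3 : H ≤ gr (F ∪ E.filter (fun e => e ∈ H.edgeSet)) := by
    intro a b hab
    have h1 : (gr E).Adj a b := hHE hab
    simp only [gr, SimpleGraph.fromEdgeSet_adj, mem_coe] at h1
    simp only [gr, SimpleGraph.fromEdgeSet_adj, coe_union, Set.mem_union, mem_coe, mem_filter]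
    exact ⟨Or.inr ⟨h1.1, hab⟩, h1.2⟩
  have heq : gr (F ∪ E.filter (fun e => e ∈ H.edgeSet)) = H := le_antisymm hle2 hle3
  refine ⟨F ∪ E.filter (fun e => e ∈ H.edgeSet), subset_union_left,
    union_subset hFE (filter_subset _ _), ?_, ?_⟩
  · rw [heq]; exact hHa
  · rw [heq, hHr]

/-- The pinned bound, same data as `sp_pinned`. -/
theorem cp_pinned (hG : GoodDensity n q H) (hn : 2 ≤ n) (hV : Fintype.card V ≤ n) (hq0 : 0 < q)
    (hqe : q ≤ Real.exp (-1)) (hL : 0 < Real.log n) (hD : 1 ≤ (n : ℝ) * q)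
    (hQ : Real.log n / 2 ≤ - Real.log q) (hQ1 : 1 < - Real.log q)
    {E I : Finset α} (hdisj : Disjoint I E)
    (hconn : ∀ D : Finset α, D.Nonempty → D ⊆ I → D ≠ I → ∃ u ∈ D, ∃ v ∈ I \ D, F.Adj u v)
    (hmin : ∀ J ⊆ I, J.Nonempty → J ≠ I → Low n q F (E ∪ I) J)
    (hdeg : ∀ w ∈ I, 2 ≤ dW F (E ∪ I) w) {xI : ℕ} (hm : (newE F E I).card = I.card + xI)
    {S : Finset (α → V)} (hinj : ∀ φ ∈ S, Function.Injective φ)
    (hhom : ∀ φ ∈ S, ∀ u v, F.Adj u v → H.Adj (φ u) (φ v))
    {φ₀ : α → V} (hagree : ∀ φ ∈ S, ∀ x ∈ E, φ x = φ₀ x) {x : α} (hx : x ∈ I) (y : V) :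
    (((S.filter (fun φ => φ x = y)).image (proj (E ∪ I))).card : ℝ) ≤
      2 * (((cpT n q : ℝ) ^ (4 * xI + 4) * Real.exp (2 * (xI : ℝ))) *
        (Real.exp 1 * (2 * spG n q + 3)) ^ (cpm n q I.card (core F E I).card xI +
          (core F E I).card + 2) *
        4 ^ ((core F E I).card + 1 + 2 * cpm n q I.card (core F E I).card xI)) := by
  have hn' : 1 ≤ n := by omega
  have hn1 : (1 : ℝ) ≤ n := by exact_mod_cast hn'
  have hn0 : (0 : ℝ) < n := by linarith
  have hq1 : q ≤ 1 := hqe.trans (by rw [Real.exp_le_one_iff]; norm_num)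
  have hg0 : 0 ≤ spG n q := spG_nonneg hD
  have hgeq : spG n q = Real.log n + Real.log q := by
    unfold spG
    exact Real.log_mul hn0.ne' hq0.ne'
  have hg : 0 ≤ Real.log n + Real.log q := by rw [← hgeq]; exact hg0
  have hLam0 : 0 ≤ spLam n q := spLam_nonneg hD hL.le
  have hT2 : 2 ≤ cpT n q := by unfold cpT; omega
  have hTr : (2 : ℝ) ≤ (cpT n q : ℝ) := by exact_mod_cast hT2
  have hρ0 : (0 : ℝ) ≤ 2 * spG n q + 3 := by linarith
  by_cases hS' : (S.filter (fun φ => φ x = y)).Nonempty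
  swap
  · rw [Finset.not_nonempty_iff_eq_empty] at hS'
    rw [hS']
    simp only [Finset.image_empty, Finset.card_empty, Nat.cast_zero]
    positivity
  obtain ⟨φ₁, hφ₁⟩ := hS'
  have hφ₁' := Finset.mem_filter.1 hφ₁
  -- representatives
  obtain ⟨S₂, hS₂, hinjS₂, himgS₂⟩ :=
    Finset.exists_subset_injOn_image_eq_of_surjOn (s := S.filter (fun φ => φ x = y))
      (t := (S.filter (fun φ => φ x = y)).image (proj (E ∪ I))) (f := proj (E ∪ I))
      (by
        intro b hb
        obtain ⟨a, ha, rfl⟩ := Finset.mem_image.1 hb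
        exact ⟨a, ha, rfl⟩)
  have hcardS₂ : ((S.filter (fun φ => φ x = y)).image (proj (E ∪ I))).card = S₂.card := by
    rw [← himgS₂]
    exact Finset.card_image_of_injOn hinjS₂
  rw [hcardS₂]
  have hinj' : ∀ φ ∈ S₂, Function.Injective φ :=
    fun φ hφ => hinj φ (Finset.mem_filter.1 (hS₂ hφ)).1
  have hhom' : ∀ φ ∈ S₂, ∀ u v, F.Adj u v → H.Adj (φ u) (φ v) :=
    fun φ hφ => hhom φ (Finset.mem_filter.1 (hS₂ hφ)).1
  have hag : ∀ φ ∈ S₂, ∀ y' ∈ insert x E, φ y' = φ₁ y' := by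
    intro φ hφ y' hy'
    have hφ' := Finset.mem_filter.1 (hS₂ hφ)
    rcases Finset.mem_insert.1 hy' with rfl | hy''
    · rw [hφ'.2, hφ₁'.2]
    · rw [hagree φ hφ'.1 y' hy'', hagree φ₁ hφ₁'.1 y' hy'']
  have hJY : Disjoint (I.erase x) (insert x E) := by
    rw [Finset.disjoint_left]
    intro a ha hb
    rcases Finset.mem_insert.1 hb with rfl | h
    · exact (Finset.mem_erase.1 ha).1 rfl
    · exact Finset.disjoint_left.1 hdisj (Finset.mem_erase.1 ha).2 h
  set W := E ∪ I with hW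
  set J := I.erase x with hJ
  have hins : insert x J = I := Finset.insert_erase hx
  have hIW : I ⊆ W := Finset.subset_union_right
  have hxW : x ∈ W := hIW hx
  have hxJ : x ∉ J := Finset.notMem_erase _ _
  have hJW : J ⊆ W := (Finset.erase_subset _ _).trans hIW
  have hWJ : W \ J = insert x E := by
    have h := union_sdiff_of_disj hJY
    rwa [insert_union_erase hx] at h
  have hWI : W \ I = E := by
    have h := union_sdiff_of_disj hdisj
    exact h
  have hqe' : Real.exp 1 * q ≤ 1 := by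
    have h2 : Real.exp 1 * Real.exp (-1) = 1 := by
      rw [← Real.exp_add]
      simp
    calc Real.exp 1 * q ≤ Real.exp 1 * Real.exp (-1) :=
          mul_le_mul_of_nonneg_left hqe (Real.exp_pos _).le
      _ = 1 := h2
  have hP : Pin n q F H W J S₂ φ₁ := by
    refine ⟨hJW, hinj', hhom', ?_, ?_, hn', hq0, hqe'⟩
    · rw [hWJ]
      exact hag
    · intro J' h1 h2
      refine hmin J' (h1.trans (Finset.erase_subset _ _)) h2 ?_
      intro h
      have h3 := h1 (h ▸ hx)
      exact (Finset.mem_erase.1 h3).1 rfl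
  have hPsub : ∀ T ⊆ S₂, Pin n q F H W J T φ₁ := by
    intro T hT
    refine ⟨hP.hJW, fun φ hφ => hP.inj φ (hT hφ), fun φ hφ => hP.hom φ (hT hφ),
      fun φ hφ => hP.agree φ (hT hφ), hP.low, hP.n1, hP.q0, hP.qe⟩
  have hconn' : ∀ D : Finset α, x ∈ D → D ⊆ insert x J → D ≠ insert x J →
      ∃ u ∈ D, ∃ v ∈ insert x J \ D, F.Adj u v := by
    intro D h1 h2 h3
    rw [hins] at h2 h3 ⊢
    exact hconn D ⟨x, h1⟩ h2 h3
  have hdegI : ∀ u ∈ insert x J, 2 ≤ (nbW F W u).card := by
    intro u hu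
    rw [hins] at hu
    have := hdeg u hu
    rwa [dW_eq_nbW (hIW hu)] at this
  have hdegJ : ∀ u ∈ J, 2 ≤ (nbW F W u).card :=
    fun u hu => hdegI u (Finset.mem_insert_of_mem hu)
  -- the constants
  set b := (core F E I).card with hb
  set a := I.card with ha
  set R := roots F W J φ₁ with hR
  have hRb : R.card ≤ b + 1 := by
    have := pinR_card_le (F := F) (φ₀ := φ₁) hx hdisj
    have h2 : R = pinR F (insert x E) (I.erase x) φ₁ := by
      rw [hR]
      unfold pinR roots
      rw [hWJ]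
    rw [h2]
    exact this
  have hJa : J.card + 1 = a := by
    have := Finset.card_erase_add_one hx
    rw [ha, hJ]
    exact this
  set γ := (Real.log n + Real.log q) / (- Real.log q) with hγ
  set γ₁ := cpGam n q with hγ₁
  have hQ0 : 0 < - Real.log q := by linarith
  have hQ10 : 0 < - Real.log q - 1 := by linarith
  have hγ0 : 0 ≤ γ := div_nonneg hg hQ0.le
  have hγ₁0 : 0 < γ₁ := by
    rw [hγ₁]; unfold cpGam
    exact div_pos (by linarith) hQ10
  have hγγ₁ : γ ≤ γ₁ := by
    rw [hγ₁]; unfold cpGam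
    rw [hγ, hgeq, div_le_div_iff₀ hQ0 hQ10]
    nlinarith
  have hImdef : S₂.biUnion (imE F W J) = UU F W J S₂ := biUnion_imE F W J S₂
  have hNL : NoLoop (UU F W J S₂) := noLoop_UU hP
  have hDens : Dens γ (UU F W J S₂) := dens_UU hP hG hq1 hg hQ0
  have htIcard : (tI F W J).card ≤ a + xI := by
    rw [← hm]
    refine Finset.card_le_card ?_
    intro e he
    have h1 : tI F W J ⊆ tI F W I := by
      intro e he
      induction e using Sym2.ind with
      | _ u v =>
        obtain ⟨h1, h2, h3, h4⟩ := (mem_tI_pair hJW).1 he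
        refine (mem_tI_pair hIW).2 ⟨h1, h2, h3, ?_⟩
        rcases h4 with h | h
        · exact Or.inl (Finset.mem_of_mem_erase h)
        · exact Or.inr (Finset.mem_of_mem_erase h)
    have h2 : tI F W I = newE F E I := by
      unfold tI
      rw [hWI]
    rw [← h2]
    exact h1 he
  obtain ⟨TT, hTTU, hTTa, hsum⟩ := average S₂ (imE F W J) (γ := γ) (γ₁ := γ₁)
    (e₀ := a + xI) (v₀ := J.card + R.card)
    (by rw [hImdef]; exact hNL) (by rw [hImdef]; exact hDens) hγ0 hγγ₁ hγ₁0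
    (fun φ hφ => ⟨φ x, imE_conn hP hφ hxW hxJ hconn'⟩)
    (fun φ _ => Finset.card_image_le.trans htIcard)
    (fun φ hφ => vset_imE_card_le hP hφ)
  rw [hImdef] at hTTU
  -- a spanning forest
  obtain ⟨TT', hTT1, hTT2, hTT3, hTT4⟩ := cp_forest_ext (UU F W J S₂) TT hTTU hTTa
  have hTT'NL : NoLoop TT' := fun e he => hNL e (hTT2 he)
  have hsum' : ((∑ φ ∈ S₂, (imE F W J φ \ TT').card : ℕ) : ℝ) ≤
      S₂.card * (10 * γ₁ * ((a + xI : ℕ) : ℝ) + 2 * γ₁ * ((J.card + R.card : ℕ) : ℝ) + 2) := by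
    refine le_trans ?_ hsum
    have : (∑ φ ∈ S₂, (imE F W J φ \ TT').card) ≤ ∑ φ ∈ S₂, (imE F W J φ \ TT).card := by
      refine Finset.sum_le_sum fun φ _ => ?_
      exact Finset.card_le_card (Finset.sdiff_subset_sdiff (Finset.Subset.refl _) hTT1)
    exact_mod_cast this
  have hspan : (UU F W J S₂ \ TT').card + Fintype.card V ≤
      (UU F W J S₂).card + cc (UU F W J S₂) := by
    have h1 := acyclic_card_add_cc TT' hTT'NL hTT3
    have h2 := cc_eq_of_reachable hTT4
    have h3 : (UU F W J S₂ \ TT').card + TT'.card = (UU F W J S₂).card :=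
      Finset.card_sdiff_add_card_eq_card hTT2
    omega
  have hclosing := closing_card_le hP hG hq1 hg hQ hL hxW hxJ hconn' hdegJ hspan
  -- parameters
  set M : ℝ := 10 * γ₁ * ((a + xI : ℕ) : ℝ) + 2 * γ₁ * ((J.card + R.card : ℕ) : ℝ) + 2 with hMdef
  have hM0 : 0 < M := by
    have h1 : 0 ≤ 10 * γ₁ * ((a + xI : ℕ) : ℝ) := by positivity
    have h2 : 0 ≤ 2 * γ₁ * ((J.card + R.card : ℕ) : ℝ) := by positivity
    rw [hMdef]
    linarith
  set m := cpm n q a b xI with hmdef
  have hMm : 2 * M ≤ (m : ℝ) := by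
    have h1 : ((J.card + R.card : ℕ) : ℝ) ≤ (a : ℝ) + b + 1 := by
      have : J.card + R.card ≤ a + b + 1 := by omega
      exact_mod_cast this
    have h2 : ((a + xI : ℕ) : ℝ) = (a : ℝ) + xI := by push_cast; ring
    refine le_trans ?_ (Nat.le_ceil _)
    rw [hMdef, h2]
    have h3 : 2 * γ₁ * ((J.card + R.card : ℕ) : ℝ) ≤ 2 * γ₁ * ((a : ℝ) + b + 1) :=
      mul_le_mul_of_nonneg_left h1 (by positivity)
    linarith
  -- the fibre
  set Fb : ℝ := (cpT n q : ℝ) ^ (4 * xI + 4) * Real.exp (2 * (xI : ℝ)) with hFb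
  have hFb0 : 0 ≤ Fb := by positivity
  have hexcess : (tI F W (insert x J)).card - (insert x J).card = xI := by
    rw [hins]
    have h2 : tI F W I = newE F E I := by
      unfold tI
      rw [hWI]
    rw [h2, hm]
    omega
  have hfib : ∀ φ ∈ S₂, ((S₂.filter (fun ψ => imE F W J ψ = imE F W J φ)).card : ℝ) ≤ Fb := by
    intro φ hφ
    set S₃ := S₂.filter (fun ψ => imE F W J ψ = imE F W J φ) with hS₃
    have hS₃S₂ : S₃ ⊆ S₂ := Finset.filter_subset _ _
    have hP₃ := hPsub S₃ hS₃S₂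
    have hsame : ∀ φ' ∈ S₃, ∀ φ'' ∈ S₃,
        (tI F W J).image (Sym2.map φ') = (tI F W J).image (Sym2.map φ'') := by
      intro φ' h' φ'' h''
      have h1 := (Finset.mem_filter.1 h').2
      have h2 := (Finset.mem_filter.1 h'').2
      have h3 : imE F W J φ' = imE F W J φ'' := h1.trans h2.symm
      exact h3
    have hnb : ∀ z, ((nb (UU F W J S₃) z).card : ℝ) ≤ Real.exp (spLam n q) := by
      intro z
      have hU : ∀ e ∈ UU F W J S₃, e ∈ H.edgeSet := by
        intro e he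
        obtain ⟨φ', hφ', he'⟩ := Finset.mem_biUnion.1 he
        obtain ⟨e', he'', rfl⟩ := Finset.mem_image.1 he'
        induction e' using Sym2.ind with
        | _ u v =>
          have h1 := ((mem_tI_pair hJW).1 he'').1
          exact (SimpleGraph.mem_edgeSet H).2 (hP₃.hom φ' hφ' u v h1)
      have h1 : (nb (UU F W J S₃) z).card ≤ ((univ : Finset V).filter (fun b => H.Adj z b)).card :=
        udeg_le_degree _ hU z
      have h2 := degree_bound hG hq0 hq1 hn' hV hD z
      have h3 := degree_le_exp_lam hD hL.le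
      have h4 : ((nb (UU F W J S₃) z).card : ℝ) ≤
          (((univ : Finset V).filter (fun b => H.Adj z b)).card : ℝ) := by exact_mod_cast h1
      linarith
    have hTbd : (Real.log n + Real.log q + 2) * spLam n q ≤ (cpT n q : ℝ) - 1 := by
      have h1 : (spG n q + 2) * spLam n q ≤ (⌈(spG n q + 2) * spLam n q⌉₊ : ℝ) := Nat.le_ceil _
      have h2 : (cpT n q : ℝ) = 2 + (⌈(spG n q + 2) * spLam n q⌉₊ : ℝ) := by
        unfold cpT
        push_cast
        ring
      rw [h2, ← hgeq]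
      linarith
    have hfb := fibre_bound hP₃ hG hq1 hD hL hxW hxJ hconn' hdegI hsame hLam0 hnb hT2 hTbd
    rw [hexcess] at hfb
    have hinjI : Set.InjOn (proj (insert x J)) (S₃ : Set (α → V)) := by
      intro φ' h' φ'' h'' heq
      have h1 : φ' ∈ S₂ := hS₃S₂ h'
      have h2 : φ'' ∈ S₂ := hS₃S₂ h''
      refine hinjS₂ h1 h2 ?_
      funext w
      unfold proj
      by_cases hw : w ∈ W
      · rw [if_pos hw, if_pos hw]
        by_cases hwE : w ∈ E
        · have h3 := hP.agree φ' h1 w (by rw [hWJ]; exact Finset.mem_insert_of_mem hwE)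
          have h4 := hP.agree φ'' h2 w (by rw [hWJ]; exact Finset.mem_insert_of_mem hwE)
          rw [h3, h4]
        · have hwI : w ∈ insert x J := by
            rw [hins]
            rcases Finset.mem_union.1 hw with h5 | h5
            · exact absurd h5 hwE
            · exact h5
          have h6 := congrFun heq w
          unfold proj at h6
          rw [if_pos hwI, if_pos hwI] at h6
          exact h6
      · rw [if_neg hw, if_neg hw]
    have hc : (S₃.image (proj (insert x J))).card = S₃.card :=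
      Finset.card_image_of_injOn hinjI
    rw [hc] at hfb
    exact hfb
  -- the images
  have hm'1 : 1 ≤ m + b + 2 := by omega
  have hmm' : m ≤ m + b + 2 := by omega
  have hρ : (1 : ℝ) ≤ 2 * spG n q + 3 := by linarith
  have hX : ((((S₂.biUnion (imE F W J)) \ TT').card : ℕ) : ℝ) ≤
      (2 * spG n q + 3) * ((m + b + 2 : ℕ) : ℝ) := by
    rw [hImdef]
    refine hclosing.trans ?_
    rw [← hgeq]
    have h1 : ((R.card : ℝ) + 1) ≤ ((m + b + 2 : ℕ) : ℝ) := by
      have : R.card + 1 ≤ m + b + 2 := by omega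
      exact_mod_cast this
    exact mul_le_mul_of_nonneg_left h1 hρ0
  have hbound := images_bound S₂ (imE F W J) TT' hTT'NL hTT3 R
    (fun φ hφ => two_le_dg_imE hP hφ hdegJ) hM0 hFb0 hρ hsum' hfib hMm hmm' hm'1 hX
  refine hbound.trans ?_
  have h4 : (4 : ℝ) ^ (R.card + 2 * m) ≤ 4 ^ (b + 1 + 2 * m) :=
    pow_le_pow_right₀ (by norm_num) (by omega)
  have h5 : 0 ≤ 2 * Fb * (Real.exp 1 * (2 * spG n q + 3)) ^ (m + b + 2) := by positivity
  calc 2 * Fb * (Real.exp 1 * (2 * spG n q + 3)) ^ (m + b + 2) * 4 ^ (R.card + 2 * m)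
      ≤ 2 * Fb * (Real.exp 1 * (2 * spG n q + 3)) ^ (m + b + 2) * 4 ^ (b + 1 + 2 * m) :=
        mul_le_mul_of_nonneg_left h4 h5
    _ = _ := by ring

end Vale.Agent.Lib.P064
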