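import Vale.Agent.Lib.P064S.HWalkMain

/-!
Edge sets, their components, dense sets: definitions for the count by popular forests.
-/

open Finset

namespace Vale.Agent.Lib.P064C

open scoped Classical

variable {V : Type} [Fintype V]

/-- The graph of an edge set. -/
noncomputable abbrev gr (G : Finset (Sym2 V)) : SimpleGraph V :=
  SimpleGraph.fromEdgeSet (G : Set (Sym2 V))

/-- The number of components of an edge set (isolated vertices count). -/
noncomputable def cc (G : Finset (Sym2 V)) : ℕ := Fintype.card (gr G).ConnectedComponent

/-- Edges inside a vertex set. -/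
noncomputable def inE (G : Finset (Sym2 V)) (K : Finset V) : Finset (Sym2 V) :=
  G.filter (fun e => e.toFinset ⊆ K)

/-- The vertices on the edges. -/
noncomputable def vset (G : Finset (Sym2 V)) : Finset V := G.biUnion (fun e => e.toFinset)

/-- No loops. -/
def NoLoop (G : Finset (Sym2 V)) : Prop := ∀ e ∈ G, ¬ e.IsDiag

/-- Density of all sub edge sets. -/
def Dens (γ : ℝ) (U : Finset (Sym2 V)) : Prop :=
  ∀ T ⊆ U, (T.card : ℝ) ≤ (1 + γ) * (vset T).card

/-- The vertices of a component. -/
noncomputable def vs (G : Finset (Sym2 V)) (c : (gr G).ConnectedComponent) : Finset V :=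
  univ.filter (fun v => (gr G).connectedComponentMk v = c)

/-- The number of small dense components. -/
noncomputable def SC (G : Finset (Sym2 V)) (l : ℝ) : ℕ :=
  (univ.filter (fun c : (gr G).ConnectedComponent =>
    ((vs G c).card : ℝ) < l ∧ (vs G c).card ≤ (inE G (vs G c)).card)).card

/-- The minimal small dense sets. -/
noncomputable def CC (U : Finset (Sym2 V)) (l : ℝ) : Finset (Finset V) :=
  univ.filter (fun K => K.Nonempty ∧ (K.card : ℝ) < l ∧ K.card ≤ (inE U K).card ∧
    ∀ K' ⊂ K, K'.Nonempty → (inE U K').card < K'.card)

/-- The degree in an edge set. -/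
noncomputable def dg (G : Finset (Sym2 V)) (z : V) : ℕ := (G.filter (fun e => z ∈ e)).card

end Vale.Agent.Lib.P064C
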