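import Vale.Agent.Lib.P064C.Forest

/-!
Minimal small dense sets.
-/

open Finset

namespace Vale.Agent.Lib.P064C

open scoped Classical

variable {V : Type} [Fintype V]

variable {U : Finset (Sym2 V)} {γ γ₁ : ℝ}

/-- The vertices on the edges inside `K` are in `K`. -/
lemma vset_inE_subset (U : Finset (Sym2 V)) (K : Finset V) : vset (inE U K) ⊆ K := by
  intro a ha
  simp only [vset, mem_biUnion] at ha
  obtain ⟨e, he, hae⟩ := ha
  exact (mem_filter.mp he).2 hae

/-- The density bound for a set with few vertices. -/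
lemma inE_card_le_of_small (hdens : Dens γ U) (hγ0 : 0 ≤ γ) (hγ : γ ≤ γ₁) (_hγ₁ : 0 < γ₁)
    {K : Finset V} (hsmall : (K.card : ℝ) * γ₁ < 1) : (inE U K).card ≤ K.card := by
  have h1 := hdens (inE U K) (filter_subset _ _)
  have h2 : ((vset (inE U K)).card : ℝ) ≤ K.card := by
    exact_mod_cast card_le_card (vset_inE_subset U K)
  have h3 : ((inE U K).card : ℝ) ≤ (1 + γ) * K.card :=
    h1.trans (mul_le_mul_of_nonneg_left h2 (by linarith))
  have h4 : (K.card : ℝ) * γ ≤ (K.card : ℝ) * γ₁ :=
    mul_le_mul_of_nonneg_left hγ (Nat.cast_nonneg _)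
  have h5 : ((inE U K).card : ℝ) < K.card + 1 := by nlinarith
  have h6 : (inE U K).card < K.card + 1 := by exact_mod_cast h5
  omega

lemma CC_spec {l : ℝ} {K : Finset V} (hK : K ∈ CC U l) :
    K.Nonempty ∧ (K.card : ℝ) < l ∧ K.card ≤ (inE U K).card ∧
      ∀ K' ⊂ K, K'.Nonempty → (inE U K').card < K'.card := by
  simpa [CC] using hK

/-- A set with fewer than `1 / (4 γ₁)` vertices is small. -/
lemma small_of_lt (hγ₁ : 0 < γ₁) {K : Finset V} (h : (K.card : ℝ) < 1 / (4 * γ₁)) :
    (K.card : ℝ) * γ₁ < 1 / 4 := by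
  have h1 : (K.card : ℝ) * (4 * γ₁) < 1 := by
    rwa [lt_div_iff₀ (by positivity)] at h
  linarith

/-- A minimal small dense set has exactly as many edges as vertices. -/
theorem CC_card (hdens : Dens γ U) (hγ0 : 0 ≤ γ) (hγ : γ ≤ γ₁) (hγ₁ : 0 < γ₁) {K : Finset V}
    (hK : K ∈ CC U (1 / (4 * γ₁))) : (inE U K).card = K.card := by
  obtain ⟨_, h2, h3, _⟩ := CC_spec hK
  have h := small_of_lt hγ₁ h2
  exact le_antisymm (inE_card_le_of_small hdens hγ0 hγ hγ₁ (by linarith)) h3

/-- Minimal small dense sets are pairwise disjoint. -/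
theorem CC_disjoint (hdens : Dens γ U) (hγ0 : 0 ≤ γ) (hγ : γ ≤ γ₁) (hγ₁ : 0 < γ₁) {K K' : Finset V}
    (hK : K ∈ CC U (1 / (4 * γ₁))) (hK' : K' ∈ CC U (1 / (4 * γ₁))) (hne : K ≠ K') :
    Disjoint K K' := by
  by_contra hnd
  obtain ⟨_, a2, a3, a4⟩ := CC_spec hK
  obtain ⟨_, b2, b3, b4⟩ := CC_spec hK'
  have hne0 : (K ∩ K').Nonempty := Finset.not_disjoint_iff_nonempty_inter.mp hnd
  have hK1 : K ∩ K' ⊂ K := by
    refine (Finset.inter_subset_left).ssubset_of_ne ?_
    intro h
    have hsub : K ⊆ K' := Finset.inter_eq_left.mp h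
    have := b4 K (hsub.ssubset_of_ne hne) (by rw [← h]; exact hne0)
    omega
  have hK2 : K ∩ K' ⊂ K' := by
    refine (Finset.inter_subset_right).ssubset_of_ne ?_
    intro h
    have hsub : K' ⊆ K := Finset.inter_eq_right.mp h
    have := a4 K' (hsub.ssubset_of_ne hne.symm) (by rw [← h]; exact hne0)
    omega
  have h0 := a4 _ hK1 hne0
  -- edges of the union
  have hunion : (inE U K ∪ inE U K').card + (inE U K ∩ inE U K').card =
      (inE U K).card + (inE U K').card := Finset.card_union_add_card_inter _ _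
  have hinter : inE U K ∩ inE U K' = inE U (K ∩ K') := by
    ext e
    simp only [inE, mem_inter, mem_filter, Finset.subset_inter_iff]
    tauto
  have hsub : inE U K ∪ inE U K' ⊆ inE U (K ∪ K') := by
    intro e he
    simp only [inE, mem_union, mem_filter] at he ⊢
    rcases he with ⟨h1, h2⟩ | ⟨h1, h2⟩
    · exact ⟨h1, h2.trans subset_union_left⟩
    · exact ⟨h1, h2.trans subset_union_right⟩
  have hc : (inE U K ∪ inE U K').card ≤ (inE U (K ∪ K')).card := card_le_card hsub
  have hv : (K ∪ K').card + (K ∩ K').card = K.card + K'.card := Finset.card_union_add_card_inter _ _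
  rw [hinter] at hunion
  have hs1 := small_of_lt hγ₁ a2
  have hs2 := small_of_lt hγ₁ b2
  have hsmall : ((K ∪ K').card : ℝ) * γ₁ < 1 := by
    have : ((K ∪ K').card : ℝ) ≤ K.card + K'.card := by exact_mod_cast card_union_le K K'
    nlinarith
  have := inE_card_le_of_small hdens hγ0 hγ hγ₁ hsmall
  omega

/-- A minimal small dense set is connected. -/
theorem CC_conn {l : ℝ} {K : Finset V} (hK : K ∈ CC U l) {u v : V} (hu : u ∈ K) (hv : v ∈ K) :
    (gr (inE U K)).Reachable u v := by
  by_contra hnr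
  obtain ⟨_, _, h3, h4⟩ := CC_spec hK
  set D : Finset V := K.filter (fun w => (gr (inE U K)).Reachable u w) with hD
  have huD : u ∈ D := mem_filter.mpr ⟨hu, SimpleGraph.Reachable.refl _⟩
  have hvD : v ∉ D := fun h => hnr (mem_filter.mp h).2
  have hDK : D ⊂ K := by
    refine (filter_subset _ _).ssubset_of_ne ?_
    intro h
    have h' : D = K := h
    apply hvD
    rw [h']
    exact hv
  have hEK : K \ D ⊂ K := by
    refine sdiff_subset.ssubset_of_ne ?_
    intro h
    have : u ∈ K \ D := by
      rw [h]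
      exact hu
    exact (mem_sdiff.mp this).2 huD
  have h1 := h4 D hDK ⟨u, huD⟩
  have h2 := h4 (K \ D) hEK ⟨v, mem_sdiff.mpr ⟨hv, hvD⟩⟩
  have hcover : inE U K ⊆ inE U D ∪ inE U (K \ D) := by
    intro e he
    have he' := mem_filter.mp he
    induction e using Sym2.ind with
    | _ a b =>
      have ha : a ∈ K := he'.2 (by simp)
      have hb : b ∈ K := he'.2 (by simp)
      by_cases hab : a = b
      · subst hab
        by_cases haD : a ∈ D
        · refine mem_union_left _ (mem_filter.mpr ⟨he'.1, ?_⟩)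
          intro w hw
          simp at hw
          subst hw
          exact haD
        · refine mem_union_right _ (mem_filter.mpr ⟨he'.1, ?_⟩)
          intro w hw
          simp at hw
          subst hw
          exact mem_sdiff.mpr ⟨ha, haD⟩
      · have hadj : (gr (inE U K)).Adj a b := by
          rw [SimpleGraph.fromEdgeSet_adj]
          exact ⟨by simpa using he, hab⟩
        have hiff : a ∈ D ↔ b ∈ D := by
          constructor
          · intro h
            exact mem_filter.mpr ⟨hb, (mem_filter.mp h).2.trans hadj.reachable⟩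
          · intro h
            exact mem_filter.mpr ⟨ha, (mem_filter.mp h).2.trans hadj.symm.reachable⟩
        by_cases haD : a ∈ D
        · refine mem_union_left _ (mem_filter.mpr ⟨he'.1, ?_⟩)
          intro w hw
          simp at hw
          rcases hw with rfl | rfl
          · exact haD
          · exact hiff.mp haD
        · refine mem_union_right _ (mem_filter.mpr ⟨he'.1, ?_⟩)
          intro w hw
          simp at hw
          rcases hw with rfl | rfl
          · exact mem_sdiff.mpr ⟨ha, haD⟩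
          · exact mem_sdiff.mpr ⟨hb, fun h => haD (hiff.mpr h)⟩
  have hc := (card_le_card hcover).trans (card_union_le _ _)
  have hk : D.card + (K \ D).card = K.card := by
    rw [add_comm]
    exact card_sdiff_add_card_eq_card hDK.subset
  omega

/-- A minimal small dense set has an edge. -/
theorem CC_edge {l : ℝ} {K : Finset V} (hK : K ∈ CC U l) : (inE U K).Nonempty := by
  obtain ⟨h1, _, h3, _⟩ := CC_spec hK
  have : 0 < K.card := h1.card_pos
  exact card_pos.mp (by omega)

/-- A dense set contains a minimal one. -/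
lemma exists_minimal_dense {l : ℝ} (K₀ : Finset V) (hne : K₀.Nonempty)
    (hl : (K₀.card : ℝ) < l) (hd : K₀.card ≤ (inE U K₀).card) :
    ∃ K ∈ CC U l, K ⊆ K₀ := by
  classical
  let 𝓕 : Finset (Finset V) := K₀.powerset.filter (fun K => K.Nonempty ∧ K.card ≤ (inE U K).card)
  have hmem : K₀ ∈ 𝓕 := mem_filter.mpr ⟨mem_powerset.mpr (Subset.refl _), hne, hd⟩
  obtain ⟨K, hK, hmin⟩ := 𝓕.exists_min_image (fun K => K.card) ⟨K₀, hmem⟩
  have hK' := mem_filter.mp hK
  have hsub : K ⊆ K₀ := mem_powerset.mp hK'.1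
  refine ⟨K, ?_, hsub⟩
  simp only [CC, mem_filter, mem_univ, true_and]
  refine ⟨hK'.2.1, ?_, hK'.2.2, ?_⟩
  · have : (K.card : ℝ) ≤ K₀.card := by exact_mod_cast card_le_card hsub
    linarith
  · intro K' hK'K hne'
    by_contra hcon
    have hmem' : K' ∈ 𝓕 :=
      mem_filter.mpr ⟨mem_powerset.mpr (hK'K.subset.trans hsub), hne', by omega⟩
    have h1 := hmin K' hmem'
    have h2 := card_lt_card hK'K
    omega

/-- Every small dense component of a sub edge set contains a minimal dense set whose chosen edge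
is in the sub edge set, and different components give different sets. -/
theorem SC_le (hdens : Dens γ U) (hγ0 : 0 ≤ γ) (hγ : γ ≤ γ₁) (hγ₁ : 0 < γ₁)
    {G : Finset (Sym2 V)} (hGU : G ⊆ U)
    (eK : Finset V → Sym2 V) (hek : ∀ K ∈ CC U (1 / (4 * γ₁)), eK K ∈ inE U K) :
    SC G (1 / (4 * γ₁)) ≤ ((CC U (1 / (4 * γ₁))).filter (fun K => eK K ∈ G)).card := by
  classical
  have hinE : ∀ K, inE G K ⊆ inE U K := fun K e he =>
    mem_filter.mpr ⟨hGU (mem_filter.mp he).1, (mem_filter.mp he).2⟩
  have hex : ∀ c : (gr G).ConnectedComponent,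
      ((vs G c).card : ℝ) < 1 / (4 * γ₁) ∧ (vs G c).card ≤ (inE G (vs G c)).card →
      ∃ K ∈ (CC U (1 / (4 * γ₁))).filter (fun K => eK K ∈ G), K ⊆ vs G c := by
    intro c hc
    have hne : (vs G c).Nonempty := by
      induction c using SimpleGraph.ConnectedComponent.ind with
      | _ v => exact ⟨v, by simp [vs]⟩
    have hd : (vs G c).card ≤ (inE U (vs G c)).card := hc.2.trans (card_le_card (hinE _))
    obtain ⟨K, hK, hsub⟩ := exists_minimal_dense (vs G c) hne hc.1 hd
    refine ⟨K, mem_filter.mpr ⟨hK, ?_⟩, hsub⟩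
    have hs := small_of_lt hγ₁ hc.1
    have hle := inE_card_le_of_small hdens hγ0 hγ hγ₁ (K := vs G c) (by linarith)
    have heq : inE G (vs G c) = inE U (vs G c) :=
      eq_of_subset_of_card_le (hinE _) (hle.trans hc.2)
    have h1 := hek K hK
    have h2 : eK K ∈ inE U (vs G c) :=
      mem_filter.mpr ⟨(mem_filter.mp h1).1, (mem_filter.mp h1).2.trans hsub⟩
    rw [← heq] at h2
    exact (mem_filter.mp h2).1
  choose! f hf hfsub using hex
  unfold SC
  refine card_le_card_of_injOn f ?_ ?_
  · intro c hc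
    have hc' : ((vs G c).card : ℝ) < 1 / (4 * γ₁) ∧ (vs G c).card ≤ (inE G (vs G c)).card := by
      simpa using hc
    exact hf c hc'
  · intro c hc c' hc' heq
    have h1 : ((vs G c).card : ℝ) < 1 / (4 * γ₁) ∧ (vs G c).card ≤ (inE G (vs G c)).card := by
      simpa using hc
    have h2 : ((vs G c').card : ℝ) < 1 / (4 * γ₁) ∧ (vs G c').card ≤ (inE G (vs G c')).card := by
      simpa using hc'
    have hKne : (f c).Nonempty := (CC_spec (mem_filter.mp (hf c h1)).1).1
    obtain ⟨a, ha⟩ := hKne
    have ha1 : a ∈ vs G c := hfsub c h1 ha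
    have ha2 : a ∈ vs G c' := hfsub c' h2 (heq ▸ ha)
    simp only [vs, mem_filter, mem_univ, true_and] at ha1 ha2
    exact ha1.symm.trans ha2

end Vale.Agent.Lib.P064C
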