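import Vale.Agent.Lib.P064C.Blocks

/-!
The fibre of the image map: all embeddings with one set of edges.
-/

open Finset

namespace Vale.Agent.Lib.P064C

open Vale.Agent.Lib.P064 Vale.Agent.Lib.P064S
open scoped Classical

variable {V α : Type} [Fintype V] [Fintype α] {F : SimpleGraph α} {H : SimpleGraph V} {n : ℕ}
  {q : ℝ} {W J : Finset α} {S : Finset (α → V)} {φ₁ : α → V}

/-- Incidences of `J` and outer parents: each edge has two orientations. -/
private lemma sum_nbW_add_bad_le {par : α → α} (hJW : J ⊆ W)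
    (hpar : ∀ v ∈ J, par v ∉ J → par v ∈ W ∧ F.Adj (par v) v) :
    ∑ u ∈ J, (nbW F W u).card + (J.filter (fun v => par v ∉ J)).card ≤ 2 * (tI F W J).card := by
  set Bad := J.filter (fun v => par v ∉ J) with hBad
  set P : Finset (Σ _ : α, α) :=
    J.sigma (nbW F W) ∪ Bad.image (fun v => (⟨par v, v⟩ : Σ _ : α, α)) with hP
  have hdisj : Disjoint (J.sigma (nbW F W)) (Bad.image (fun v => (⟨par v, v⟩ : Σ _ : α, α))) := by
    rw [disjoint_left]
    intro p hp hp'
    obtain ⟨v, hv, rfl⟩ := mem_image.1 hp'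
    have h1 := (mem_sigma.1 hp).1
    exact (mem_filter.1 hv).2 h1
  have hcard : P.card = ∑ u ∈ J, (nbW F W u).card + Bad.card := by
    rw [hP, card_union_of_disjoint hdisj, card_sigma, card_image_of_injective]
    intro a b h
    simpa using (Sigma.mk.inj_iff.1 h).2
  rw [← hcard]
  have h1 := Finset.card_le_mul_card_image (f := fun p : (Σ _ : α, α) => s(p.1, p.2)) P 2 ?_
  · refine h1.trans (Nat.mul_le_mul_left _ (Finset.card_le_card ?_))
    intro e he
    obtain ⟨p, hp, rfl⟩ := mem_image.1 he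
    rcases mem_union.1 hp with hp | hp
    · obtain ⟨h2, h3⟩ := mem_sigma.1 hp
      obtain ⟨h4, h5⟩ := mem_nbW.1 h3
      exact (mem_tI_pair hJW).2 ⟨h5, hJW h2, h4, Or.inl h2⟩
    · obtain ⟨v, hv, rfl⟩ := mem_image.1 hp
      obtain ⟨h2, h3⟩ := mem_filter.1 hv
      obtain ⟨h4, h5⟩ := hpar v h2 h3
      exact (mem_tI_pair hJW).2 ⟨h5, h4, hJW h2, Or.inr h2⟩
  · intro e he
    obtain ⟨p, _, rfl⟩ := mem_image.1 he
    obtain ⟨a, b⟩ := p
    have : P.filter (fun p : (Σ _ : α, α) => s(p.1, p.2) = s(a, b)) ⊆ {⟨a, b⟩, ⟨b, a⟩} := by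
      intro d hd
      obtain ⟨c, d'⟩ := d
      have h2 := (mem_filter.1 hd).2
      rcases Sym2.eq_iff.1 h2 with ⟨h3, h4⟩ | ⟨h3, h4⟩
      · subst h3 h4
        simp
      · subst h3 h4
        simp
    exact (Finset.card_le_card this).trans Finset.card_le_two

private lemma tI_card_mono {x : α} (hJW : J ⊆ W) (hxW : x ∈ W) :
    (tI F W J).card ≤ (tI F W (insert x J)).card := by
  apply card_le_card
  intro e he
  induction e using Sym2.ind with
  | _ a b =>
    obtain ⟨h1, h2, h3, h4⟩ := (mem_tI_pair hJW).1 he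
    refine (mem_tI_pair (insert_subset hxW hJW)).2 ⟨h1, h2, h3, ?_⟩
    rcases h4 with h4 | h4
    · exact Or.inl (mem_insert_of_mem h4)
    · exact Or.inr (mem_insert_of_mem h4)

/-- Every vertex is in `A = insert x (core) ∪ J`; parents with few edges: the number of children
of vertices which are not of degree two inside `J` is at most `4 x + 4`. -/
theorem card_branch_le' {x : α} {par : α → α} {D₀ : Finset α} {r : Finset α}
    (hJW : J ⊆ W) (hxW : x ∈ W) (hxJ : x ∉ J) (hD₀ : D₀ = insert x (core F (W \ J) J))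
    (hr : r = J)
    (hpar : ∀ v ∈ r, par v ∈ D₀ ∪ J ∧ F.Adj (par v) v ∧ (par v ∈ J → par (par v) ∈ D₀ ∪ J ∧
      F.Adj (par (par v)) (par v) ∧ par (par v) ≠ v))
    (hparJ : ∀ v ∈ J, par v ∈ J → par (par v) ≠ v)
    (hdeg : ∀ u ∈ insert x J, 2 ≤ (nbW F W u).card) :
    (J.filter (fun v => ¬ (par v ∈ J ∧ (nbW F W (par v)).card = 2))).card ≤
      4 * ((tI F W (insert x J)).card - (insert x J).card) + 4 := by
  subst hr
  have hparW : ∀ v ∈ r, par v ∈ W := by
    intro v hv
    rcases mem_union.1 (hpar v hv).1 with h | h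
    · rw [hD₀] at h
      rcases mem_insert.1 h with h | h
      · rw [h]
        exact hxW
      · exact (mem_sdiff.1 (mem_filter.1 h).1).1
    · exact hJW h
  set I := insert x r with hI
  have hIW : I ⊆ W := insert_subset hxW hJW
  have hcardI : I.card = r.card + 1 := card_insert_of_notMem hxJ
  -- the two families
  set Bad₁ := r.filter (fun v => par v ∉ r) with hBad₁
  set M := r.filter (fun w => (nbW F W w).card ≠ 2) with hM
  set Bad₂ := r.filter (fun v => par v ∈ r ∧ (nbW F W (par v)).card ≠ 2) with hBad₂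
  have hsub : r.filter (fun v => ¬ (par v ∈ r ∧ (nbW F W (par v)).card = 2)) ⊆ Bad₁ ∪ Bad₂ := by
    intro v hv
    obtain ⟨h1, h2⟩ := mem_filter.1 hv
    rw [mem_union]
    by_cases h3 : par v ∈ r
    · right
      refine mem_filter.2 ⟨h1, h3, fun h4 => h2 ⟨h3, h4⟩⟩
    · left
      exact mem_filter.2 ⟨h1, h3⟩
  have hcard := (card_le_card hsub).trans (card_union_le _ _)
  -- children
  have hchild : ∀ w ∈ r, (children r par w).card + 1 ≤ (nbW F W w).card := by
    intro w hw
    have hnot : par w ∉ children r par w := by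
      intro h
      obtain ⟨h1, h2⟩ := mem_filter.1 h
      exact hparJ w hw h1 h2
    rw [← card_insert_of_notMem hnot]
    apply card_le_card
    intro v hv
    rcases mem_insert.1 hv with rfl | hv2
    · exact mem_nbW.2 ⟨hparW w hw, (hpar w hw).2.1.symm⟩
    · obtain ⟨h1, h2⟩ := mem_filter.1 hv2
      exact mem_nbW.2 ⟨hJW h1, h2 ▸ (hpar v h1).2.1⟩
  have hB2 : Bad₂ ⊆ M.biUnion (children r par) := by
    intro v hv
    obtain ⟨h1, h2, h3⟩ := mem_filter.1 hv
    exact mem_biUnion.2 ⟨par v, mem_filter.2 ⟨h2, h3⟩, mem_filter.2 ⟨h1, rfl⟩⟩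
  have hB2c := (card_le_card hB2).trans card_biUnion_le
  have hsum : ∑ w ∈ M, (children r par w).card + 4 * r.card ≤ 2 * ∑ w ∈ r, (nbW F W w).card := by
    rw [hM, sum_filter, mul_comm 4, ← smul_eq_mul, ← sum_const, ← sum_add_distrib, mul_sum]
    apply sum_le_sum
    intro w hw
    have h1 := hchild w hw
    have h2 := hdeg w (mem_insert_of_mem hw)
    by_cases h3 : (nbW F W w).card = 2
    · rw [if_neg (by simpa using h3)]
      omega
    · rw [if_pos h3]
      omega
  have hinc := sum_nbW_add_bad_le (F := F) (W := W) (J := r) (par := par) hJW (by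
    intro v hv hnot
    exact ⟨hparW v hv, (hpar v hv).2.1⟩)
  have hmono : (tI F W r).card ≤ (tI F W I).card := tI_card_mono (F := F) (J := r) hJW hxW
  have hdegI : 2 * I.card ≤ 2 * (tI F W I).card := by
    have h1 := sum_nbW_le (F := F) hIW
    have h2 : ∑ z ∈ I, 2 ≤ ∑ z ∈ I, (nbW F W z).card := sum_le_sum hdeg
    rw [sum_const, smul_eq_mul] at h2
    omega
  rw [← hBad₁] at hinc
  rw [hcardI] at hdegI ⊢
  omega

/-- The number of vertices with many edges. -/
theorem card_large_mul_le {x : α} (hJW : J ⊆ W) (hxW : x ∈ W) (hxJ : x ∉ J)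
    (hdeg : ∀ u ∈ insert x J, 2 ≤ (nbW F W u).card) {T : ℕ} :
    ((insert x (core F (W \ J) J) ∪ J).filter (fun a => T < (nb (tI F W J) a).card)).card * (T - 1)
      ≤ 2 * ((tI F W (insert x J)).card - (insert x J).card) := by
  rcases Nat.eq_zero_or_pos T with rfl | hT
  · simp
  set I := insert x J with hI
  have hIW : I ⊆ W := insert_subset hxW hJW
  have hcardI : I.card = J.card + 1 := card_insert_of_notMem hxJ
  set large := (insert x (core F (W \ J) J) ∪ J).filter (fun a => T < (nb (tI F W J) a).card) with hlarge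
  set L₁ := large.filter (fun a => a ∈ J) with hL₁
  set L₂ := large.filter (fun a => a ∉ J) with hL₂
  have hsplit : large.card = L₁.card + L₂.card := (card_filter_add_card_filter_not _).symm
  have hnb : ∀ a ∈ J, (nb (tI F W J) a).card = (nbW F W a).card := by
    intro a ha
    congr 1
    ext b
    rw [mem_nb, mem_nbW, mem_tI_pair hJW]
    constructor
    · rintro ⟨h1, _, h3, _⟩
      exact ⟨h3, h1⟩
    · rintro ⟨h1, h2⟩
      exact ⟨h2, hJW ha, h1, Or.inl ha⟩
  -- first family
  have hL₁J : L₁ ⊆ J := fun a ha => (mem_filter.1 ha).2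
  have h1 : L₁.card * (T - 1) + 2 * J.card ≤ ∑ a ∈ J, (nbW F W a).card := by
    have e1 : L₁.card * (T - 1) = ∑ a ∈ J, (if a ∈ L₁ then T - 1 else 0) := by
      rw [← sum_filter, filter_mem_eq_inter, inter_eq_right.2 hL₁J, sum_const, smul_eq_mul]
    rw [e1, mul_comm 2, ← smul_eq_mul, ← sum_const, ← sum_add_distrib]
    apply sum_le_sum
    intro a ha
    have h2 := hdeg a (mem_insert_of_mem ha)
    by_cases h3 : a ∈ L₁
    · rw [if_pos h3]
      have h4 := (mem_filter.1 (mem_filter.1 h3).1).2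
      rw [hnb a ha] at h4
      omega
    · rw [if_neg h3]
      omega
  -- second family
  have h2 : L₂.card * (T - 1) + 2 * L₂.card ≤ ∑ a ∈ L₂, (nb (tI F W J) a).card := by
    have e2 : L₂.card * (T - 1) + 2 * L₂.card = ∑ _a ∈ L₂, (T - 1 + 2) := by
      rw [sum_const, smul_eq_mul]
      ring
    rw [e2]
    apply sum_le_sum
    intro a ha
    have h4 := (mem_filter.1 (mem_filter.1 ha).1).2
    omega
  have hdisj : Disjoint J L₂ := by
    rw [disjoint_left]
    intro a h3 h4
    exact (mem_filter.1 h4).2 h3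
  have h3 : ∑ a ∈ J, (nbW F W a).card + ∑ a ∈ L₂, (nb (tI F W J) a).card ≤ 2 * (tI F W J).card := by
    have h4 := sum_card_nb_le (tI F W J) (J ∪ L₂)
    rw [sum_union hdisj, sum_congr rfl hnb] at h4
    exact h4
  have h4 : ∑ a ∈ I, (nbW F W a).card ≤ 2 * (tI F W I).card := sum_nbW_le (F := F) hIW
  rw [hI, sum_insert hxJ, ← hI] at h4
  have h5 := hdeg x (mem_insert_self _ _)
  have h6 : (tI F W J).card ≤ (tI F W I).card := tI_card_mono (F := F) (J := J) hJW hxW
  rw [hsplit, add_mul, hcardI]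
  rcases L₂.eq_empty_or_nonempty with h7 | h7
  · have h9 : L₂.card = 0 := by
      rw [h7]
      rfl
    rw [h9, zero_mul]
    omega
  · have h8 : 0 < L₂.card := card_pos.2 h7
    omega

/-- The fibre bound. All members of `S` have the same image of the edges touching `J`. -/
theorem fibre_bound (hP : Pin n q F H W J S φ₁) (hG : GoodDensity n q H) (hq1 : q ≤ 1)
    (hD : 1 ≤ (n : ℝ) * q) (hL : 0 < Real.log n) {x : α} (hxW : x ∈ W) (hxJ : x ∉ J)
    (hconn : ∀ D : Finset α, x ∈ D → D ⊆ insert x J → D ≠ insert x J →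
      ∃ u ∈ D, ∃ v ∈ insert x J \ D, F.Adj u v)
    (hdeg : ∀ u ∈ insert x J, 2 ≤ (nbW F W u).card)
    (hsame : ∀ φ ∈ S, ∀ φ' ∈ S, (tI F W J).image (Sym2.map φ) = (tI F W J).image (Sym2.map φ'))
    {Lam : ℝ} (hLam0 : 0 ≤ Lam) (hLam : ∀ z, ((nb (UU F W J S) z).card : ℝ) ≤ Real.exp Lam)
    {T : ℕ} (hT2 : 2 ≤ T) (hT : (Real.log n + Real.log q + 2) * Lam ≤ (T : ℝ) - 1) :
    ((S.image (proj (insert x J))).card : ℝ) ≤
      (T : ℝ) ^ (4 * ((tI F W (insert x J)).card - (insert x J).card) + 4) *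
        Real.exp (2 * (((tI F W (insert x J)).card - (insert x J).card : ℕ) : ℝ)) := by
  rcases S.eq_empty_or_nonempty with rfl | ⟨φ₀, hφ₀⟩
  · simp only [Finset.image_empty, Finset.card_empty, Nat.cast_zero]
    positivity
  have hJW : J ⊆ W := hP.hJW
  have hq0 : 0 < q := hP.q0
  have hn1 : (1 : ℝ) ≤ n := by exact_mod_cast hP.n1
  have hn0 : (0 : ℝ) < n := by linarith
  have hg : 0 ≤ Real.log n + Real.log q := by
    have h := Real.log_nonneg hD
    rwa [Real.log_mul hn0.ne' hq0.ne'] at h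
  have hT1 : (1 : ℝ) ≤ T := by
    have : (2 : ℝ) ≤ T := by exact_mod_cast hT2
    linarith
  have hlarge_mul := card_large_mul_le (F := F) (T := T) hJW hxW hxJ hdeg
  set X : ℕ := (tI F W (insert x J)).card - (insert x J).card with hX
  set D₀ : Finset α := insert x (core F (W \ J) J) with hD₀
  set A : Finset α := D₀ ∪ J with hA
  set large : Finset α := A.filter (fun a => T < (nb (tI F W J) a).card) with hlarge
  have hxW' : x ∈ W \ J := Finset.mem_sdiff.2 ⟨hxW, hxJ⟩
  have hD₀sub : D₀ ⊆ W \ J := by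
    refine Finset.insert_subset hxW' ?_
    exact Finset.filter_subset _ _
  have hD₀J : ∀ y ∈ D₀, y ∉ J := fun y hy => (Finset.mem_sdiff.1 (hD₀sub hy)).2
  have hxD₀ : x ∈ D₀ := Finset.mem_insert_self _ _
  have hAW : A ⊆ W := by
    refine Finset.union_subset ?_ hJW
    exact hD₀sub.trans Finset.sdiff_subset
  have hJA : J ⊆ A := Finset.subset_union_right
  have hnb' : ∀ u ∈ J, ∀ w ∈ W, F.Adj u w → w ∈ A := by
    intro u hu w hw huw
    by_cases hwJ : w ∈ J
    · exact hJA hwJ
    · refine Finset.mem_union_left _ (Finset.mem_insert_of_mem ?_)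
      exact Finset.mem_filter.2 ⟨Finset.mem_sdiff.2 ⟨hw, hwJ⟩, u, hu, huw⟩
  have hcon' : ∀ D : Finset α, D₀ ⊆ D → D ⊆ A → D ≠ A → ∃ u ∈ D, ∃ v ∈ A \ D, F.Adj u v := by
    intro D h1 h2 h3
    obtain ⟨y, hyA, hyD⟩ : ∃ y ∈ A, y ∉ D := by
      by_contra hcon
      push Not at hcon
      exact h3 (Finset.Subset.antisymm h2 hcon)
    have hyJ : y ∈ J := by
      rcases Finset.mem_union.1 hyA with h | h
      · exact absurd (h1 h) hyD
      · exact h
    obtain ⟨u, hu, v, hv, huv⟩ := hconn (D.filter (· ∈ insert x J))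
      (Finset.mem_filter.2 ⟨h1 hxD₀, Finset.mem_insert_self _ _⟩)
      (fun z hz => (Finset.mem_filter.1 hz).2)
      (by
        intro heq
        have : y ∈ D.filter (· ∈ insert x J) := by
          rw [heq]
          exact Finset.mem_insert_of_mem hyJ
        exact hyD (Finset.mem_filter.1 this).1)
    obtain ⟨hv1, hv2⟩ := Finset.mem_sdiff.1 hv
    have hvD : v ∉ D := fun h => hv2 (Finset.mem_filter.2 ⟨h, hv1⟩)
    have hvA : v ∈ A := by
      rcases Finset.mem_insert.1 hv1 with rfl | h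
      · exact Finset.mem_union_left _ hxD₀
      · exact hJA h
    exact ⟨u, (Finset.mem_filter.1 hu).1, v, Finset.mem_sdiff.2 ⟨hvA, hvD⟩, huv⟩
  obtain ⟨par, r, st, hpar0, hC, hnd, hun, hlg, hst1, hst2⟩ :=
    exists_chain_greedy (F := F) (A := A) (D₀ := D₀) (large := large) hcon' _ D₀ rfl
      (Finset.Subset.refl _) Finset.subset_union_left (fun _ => x)
  have hrJ : r.toFinset = J := by
    ext y
    rw [List.mem_toFinset]
    constructor
    · intro hy
      have h1 : y ∈ D₀ ∪ r.toFinset := Finset.mem_union_right _ (List.mem_toFinset.2 hy)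
      rw [hun] at h1
      rcases Finset.mem_union.1 h1 with h | h
      · exact absurd hy (hC.not_mem y h)
      · exact h
    · intro hy
      have h1 : y ∈ D₀ ∪ r.toFinset := by
        rw [hun]
        exact hJA hy
      rcases Finset.mem_union.1 h1 with h | h
      · exact absurd hy (hD₀J y h)
      · exact List.mem_toFinset.1 h
  have hvr : ∀ v ∈ J, v ∈ r := fun v hv => by
    rw [← List.mem_toFinset, hrJ]
    exact hv
  have hInv : ParInv x par D₀ := by
    intro u hu _
    rw [hpar0 u hu]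
    exact hxD₀
  have hfacts := chain_facts hInv hC
  rw [hun] at hfacts
  -- The union of the images.
  have hUeq : ∀ φ ∈ S, UU F W J S = (tI F W J).image (Sym2.map φ) := by
    intro φ hφ
    ext e
    constructor
    · intro he
      obtain ⟨φ', hφ', he'⟩ := Finset.mem_biUnion.1 he
      rw [hsame φ' hφ' φ hφ] at he'
      exact he'
    · intro he
      exact Finset.mem_biUnion.2 ⟨φ, hφ, he⟩
  have hnbU : ∀ φ ∈ S, ∀ a, (nb (UU F W J S) (φ a)).card = (nb (tI F W J) a).card := by
    intro φ hφ a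
    have himg : nb (UU F W J S) (φ a) = (nb (tI F W J) a).image φ := by
      ext z
      rw [mem_nb, Finset.mem_image]
      constructor
      · intro h
        rw [hUeq φ hφ] at h
        obtain ⟨e, he, hez⟩ := Finset.mem_image.1 h
        induction e using Sym2.ind with
        | _ u w =>
          rw [Sym2.map_mk] at hez
          rcases Sym2.eq_iff.1 hez with ⟨h1, h2⟩ | ⟨h1, h2⟩
          · obtain rfl := hP.inj φ hφ h1
            exact ⟨w, mem_nb.2 he, h2⟩
          · obtain rfl := hP.inj φ hφ h2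
            exact ⟨u, mem_nb.2 (by rwa [Sym2.eq_swap]), h1⟩
      · rintro ⟨w, hw, rfl⟩
        exact Finset.mem_biUnion.2 ⟨φ, hφ, Finset.mem_image.2 ⟨s(a, w), mem_nb.1 hw, rfl⟩⟩
    rw [himg, Finset.card_image_of_injective _ (hP.inj φ hφ)]
  have hdJ : ∀ u ∈ J, (nb (tI F W J) u).card = (nbW F W u).card := by
    intro u hu
    congr 1
    ext z
    rw [mem_nb, mem_nbW, mem_tI_pair hJW]
    constructor
    · rintro ⟨h1, _, h3, _⟩
      exact ⟨h3, h1⟩
    · rintro ⟨h1, h2⟩
      exact ⟨h2, hJW hu, h1, Or.inl hu⟩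
  -- Candidates.
  have hedge : ∀ φ ∈ S, ∀ v ∈ J, φ v ∈ nb (UU F W J S) (φ (par v)) := by
    intro φ hφ v hv
    have hf := hfacts v (hvr v hv)
    refine mem_nb.2 (Finset.mem_biUnion.2 ⟨φ, hφ, Finset.mem_image.2 ⟨s(par v, v), ?_, rfl⟩⟩)
    exact (mem_tI_pair hJW).2 ⟨hf.2.1, hAW hf.1, hJW hv, Or.inr hv⟩
  have hmem : ∀ φ ∈ S, ∀ v ∈ r, φ v ∈ Cand (UU F W J S) par x v φ := by
    intro φ hφ v hvr'
    have hvJ : v ∈ J := by
      rw [← hrJ]
      exact List.mem_toFinset.2 hvr'
    unfold Cand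
    by_cases hp : par v = x
    · rw [if_pos hp, ← hp]
      exact hedge φ hφ v hvJ
    · rw [if_neg hp]
      refine Finset.mem_erase.2 ⟨?_, hedge φ hφ v hvJ⟩
      intro h
      exact ((hfacts v hvr').2.2 hp).2 (hP.inj φ hφ h).symm
  have hag : ∀ φ ∈ S, ∀ φ' ∈ S, ∀ u ∈ D₀, φ u = φ' u := by
    intro φ hφ φ' hφ' u hu
    rw [hP.agree φ hφ u (hD₀sub hu), hP.agree φ' hφ' u (hD₀sub hu)]
  -- The starts.
  have hstarts : (st.card : ℝ) ≤ large.card * (Real.log n + Real.log q + 1) := by
    refine starts_le hP hG hq1 hD hL hφ₀ hAW hJA hnb' ?_ hst2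
    intro s hs
    obtain ⟨h1, h2, h3⟩ := hst1 s hs
    refine ⟨?_, h2, ?_⟩
    · rw [← hrJ]
      exact List.mem_toFinset.2 h1
    · intro u hu hul
      obtain ⟨hu1, hu2⟩ := Finset.mem_sdiff.1 hu
      rcases Finset.mem_union.1 hu1 with h | h
      · exact h3 u h hul
      · exact absurd h hu2
  have hlarge_real : (large.card : ℝ) * ((T : ℝ) - 1) ≤ 2 * (X : ℝ) := by
    have h1 : ((large.card * (T - 1) : ℕ) : ℝ) ≤ ((2 * X : ℕ) : ℝ) := by
      exact_mod_cast hlarge_mul
    rw [Nat.cast_mul, Nat.cast_mul, Nat.cast_sub (by omega : 1 ≤ T)] at h1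
    simpa using h1
  -- The walk.
  have hB0 : 0 ≤ (T : ℝ) ^ (4 * X + 4) * Real.exp (2 * (X : ℝ)) := by positivity
  have hprod : ∀ φ ∈ S, (r.map (fun v => ((Cand (UU F W J S) par x v φ).card : ℝ))).prod ≤
      (T : ℝ) ^ (4 * X + 4) * Real.exp (2 * (X : ℝ)) := by
    intro φ hφ
    rw [← List.prod_toFinset _ hnd, hrJ]
    have hcandle : ∀ v, ((Cand (UU F W J S) par x v φ).card : ℝ) ≤
        ((nb (UU F W J S) (φ (par v))).card : ℝ) := by
      intro v
      unfold Cand
      by_cases hp : par v = x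
      · rw [if_pos hp, hp]
      · rw [if_neg hp]
        exact_mod_cast Finset.card_erase_le
    rw [← Finset.prod_filter_mul_prod_filter_not J
      (fun v => par v ∈ J ∧ (nbW F W (par v)).card = 2)]
    have hbranch := card_branch_le' (F := F) (J := J) (W := W) (x := x) (par := par)
      (D₀ := D₀) (r := J) hJW hxW hxJ hD₀ rfl
      (by
        intro v hv
        have hf := hfacts v (hvr v hv)
        refine ⟨hf.1, hf.2.1, ?_⟩
        intro hpJ
        have hpx : par v ≠ x := fun h => hxJ (h ▸ hpJ)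
        have hf2 := hfacts (par v) (hvr _ hpJ)
        exact ⟨hf2.1, hf2.2.1, (hf.2.2 hpx).2⟩)
      (by
        intro v hv hpJ
        have hpx : par v ≠ x := fun h => hxJ (h ▸ hpJ)
        exact ((hfacts v (hvr v hv)).2.2 hpx).2)
      hdeg
    -- Degree two parents.
    have hA1 : ∏ v ∈ J.filter (fun v => par v ∈ J ∧ (nbW F W (par v)).card = 2),
        ((Cand (UU F W J S) par x v φ).card : ℝ) ≤ 1 := by
      refine Finset.prod_le_one (fun _ _ => Nat.cast_nonneg _) ?_
      intro v hv
      obtain ⟨hvJ, hpJ, hd2⟩ := Finset.mem_filter.1 hv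
      have hpx : par v ≠ x := fun h => hxJ (h ▸ hpJ)
      have hf2 := hfacts (par v) (hvr _ hpJ)
      have hpos : φ (par (par v)) ∈ nb (UU F W J S) (φ (par v)) := by
        refine mem_nb.2 (Finset.mem_biUnion.2
          ⟨φ, hφ, Finset.mem_image.2 ⟨s(par v, par (par v)), ?_, rfl⟩⟩)
        exact (mem_tI_pair hJW).2 ⟨hf2.2.1.symm, hJW hpJ, hAW hf2.1, Or.inl hpJ⟩
      have hc : (Cand (UU F W J S) par x v φ).card = 1 := by
        unfold Cand
        rw [if_neg hpx, Finset.card_erase_of_mem hpos, hnbU φ hφ, hdJ _ hpJ, hd2]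
      rw [hc]
      simp
    -- The others.
    rw [← Finset.prod_filter_mul_prod_filter_not
      (J.filter (fun v => ¬ (par v ∈ J ∧ (nbW F W (par v)).card = 2))) (fun v => par v ∉ large)]
    have hB1 : ∏ v ∈ (J.filter (fun v => ¬ (par v ∈ J ∧ (nbW F W (par v)).card = 2))).filter
        (fun v => par v ∉ large), ((Cand (UU F W J S) par x v φ).card : ℝ) ≤
        (T : ℝ) ^ (4 * X + 4) := by
      have h1 : ∏ v ∈ (J.filter (fun v => ¬ (par v ∈ J ∧ (nbW F W (par v)).card = 2))).filter
          (fun v => par v ∉ large), ((Cand (UU F W J S) par x v φ).card : ℝ) ≤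
          ∏ _v ∈ (J.filter (fun v => ¬ (par v ∈ J ∧ (nbW F W (par v)).card = 2))).filter
          (fun v => par v ∉ large), (T : ℝ) := by
        refine Finset.prod_le_prod (fun _ _ => Nat.cast_nonneg _) ?_
        intro v hv
        obtain ⟨hv1, hv2⟩ := Finset.mem_filter.1 hv
        have hvJ : v ∈ J := (Finset.mem_filter.1 hv1).1
        have hpA : par v ∈ A := (hfacts v (hvr v hvJ)).1
        have hle : (nb (tI F W J) (par v)).card ≤ T := by
          by_contra hcon
          exact hv2 (Finset.mem_filter.2 ⟨hpA, not_le.1 hcon⟩)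
        refine (hcandle v).trans ?_
        rw [hnbU φ hφ]
        exact_mod_cast hle
      refine h1.trans ?_
      rw [Finset.prod_const]
      refine pow_le_pow_right₀ hT1 ?_
      exact (Finset.card_le_card (Finset.filter_subset _ _)).trans hbranch
    have hB2 : ∏ v ∈ (J.filter (fun v => ¬ (par v ∈ J ∧ (nbW F W (par v)).card = 2))).filter
        (fun v => ¬ par v ∉ large), ((Cand (UU F W J S) par x v φ).card : ℝ) ≤
        Real.exp (2 * (X : ℝ)) := by
      set B₂ := (J.filter (fun v => ¬ (par v ∈ J ∧ (nbW F W (par v)).card = 2))).filter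
        (fun v => ¬ par v ∉ large) with hB₂
      have h1 : ∏ v ∈ B₂, ((Cand (UU F W J S) par x v φ).card : ℝ) ≤
          ∏ _v ∈ B₂, Real.exp Lam := by
        refine Finset.prod_le_prod (fun _ _ => Nat.cast_nonneg _) ?_
        intro v _
        exact (hcandle v).trans (hLam _)
      refine h1.trans ?_
      rw [Finset.prod_const, ← Real.exp_nat_mul]
      apply Real.exp_le_exp.2
      have hsub : B₂ ⊆ large ∪ st := by
        intro v hv
        obtain ⟨hv1, hv2⟩ := Finset.mem_filter.1 hv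
        have hvJ : v ∈ J := (Finset.mem_filter.1 hv1).1
        have hpl : par v ∈ large := by
          by_contra hcon
          exact hv2 hcon
        rcases hlg v (hvr v hvJ) hpl with h | h
        · exact Finset.mem_union_left _ h
        · exact Finset.mem_union_right _ h
      have hcard : (B₂.card : ℝ) ≤ (large.card : ℝ) + st.card := by
        have := (Finset.card_le_card hsub).trans (Finset.card_union_le _ _)
        exact_mod_cast this
      have hl0 : (0 : ℝ) ≤ large.card := Nat.cast_nonneg _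
      calc (B₂.card : ℝ) * Lam
          ≤ ((large.card : ℝ) + large.card * (Real.log n + Real.log q + 1)) * Lam := by
            refine mul_le_mul_of_nonneg_right ?_ hLam0
            linarith
        _ = (large.card : ℝ) * ((Real.log n + Real.log q + 2) * Lam) := by ring
        _ ≤ (large.card : ℝ) * ((T : ℝ) - 1) := mul_le_mul_of_nonneg_left hT hl0
        _ ≤ 2 * (X : ℝ) := hlarge_real
    have hB12 := mul_le_mul hB1 hB2 (Finset.prod_nonneg (fun _ _ => Nat.cast_nonneg _))
      (by positivity : (0 : ℝ) ≤ (T : ℝ) ^ (4 * X + 4))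
    calc _ ≤ 1 * ((T : ℝ) ^ (4 * X + 4) * Real.exp (2 * (X : ℝ))) :=
          mul_le_mul hA1 hB12 (mul_nonneg (Finset.prod_nonneg (fun _ _ => Nat.cast_nonneg _))
            (Finset.prod_nonneg (fun _ _ => Nat.cast_nonneg _))) zero_le_one
      _ = _ := one_mul _
  have hmain := walk_count (F := F) (UU F W J S) par x r D₀ S _ hInv hC hxD₀ hag hmem hB0 hprod
  rw [hun] at hmain
  refine le_trans ?_ hmain
  have himg : S.image (proj (insert x J)) = (S.image (proj A)).image (res (insert x J)) := by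
    rw [Finset.image_image]
    refine Finset.image_congr ?_
    intro φ _
    have hsub : insert x J ⊆ A := Finset.insert_subset (Finset.mem_union_left _ hxD₀) hJA
    exact (res_proj hsub φ).symm
  rw [himg]
  exact_mod_cast Finset.card_image_le

end Vale.Agent.Lib.P064C
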