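import Vale.Agent.Lib.P064C.Defs

/-!
Forests: edges plus components, and the forest by popularity.
-/

open Finset

namespace Vale.Agent.Lib.P064C

open scoped Classical

variable {V : Type} [Fintype V]

/-- Reachability determines the number of components. -/
theorem cc_eq_of_reachable {G G' : Finset (Sym2 V)} (h : (gr G).Reachable = (gr G').Reachable) :
    cc G = cc G' := by
  unfold cc
  refine Fintype.card_congr ⟨Quot.map id (fun a b hab => by rw [← h]; exact hab),
    Quot.map id (fun a b hab => by rw [h]; exact hab), ?_, ?_⟩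
  · rintro ⟨a⟩; rfl
  · rintro ⟨a⟩; rfl

/-- The reachability of a graph with one more edge. -/
private theorem reach_sup_edge {G' G : SimpleGraph V} {u v : V}
    (hadj : ∀ a b, G'.Adj a b → G.Adj a b ∨ (a = u ∧ b = v) ∨ (a = v ∧ b = u))
    {a b : V} (h : G'.Reachable a b) :
    G.Reachable a b ∨ (G.Reachable a u ∧ G.Reachable v b) ∨ (G.Reachable a v ∧ G.Reachable u b) := by
  obtain ⟨p⟩ := h
  induction p with
  | nil => exact Or.inl (SimpleGraph.Reachable.refl _)
  | @cons x y z hxy _ ih =>
    have hstep : G.Reachable x y ∨ (G.Reachable x u ∧ G.Reachable v y) ∨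
        (G.Reachable x v ∧ G.Reachable u y) := by
      rcases hadj _ _ hxy with h | ⟨rfl, rfl⟩ | ⟨rfl, rfl⟩
      · exact Or.inl h.reachable
      · exact Or.inr (Or.inl ⟨SimpleGraph.Reachable.refl _, SimpleGraph.Reachable.refl _⟩)
      · exact Or.inr (Or.inr ⟨SimpleGraph.Reachable.refl _, SimpleGraph.Reachable.refl _⟩)
    rcases hstep with h1 | ⟨h1, h2⟩ | ⟨h1, h2⟩ <;> rcases ih with h3 | ⟨h3, h4⟩ | ⟨h3, h4⟩
    · exact Or.inl (h1.trans h3)
    · exact Or.inr (Or.inl ⟨h1.trans h3, h4⟩)
    · exact Or.inr (Or.inr ⟨h1.trans h3, h4⟩)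
    · exact Or.inr (Or.inl ⟨h1, h2.trans h3⟩)
    · exact Or.inr (Or.inl ⟨h1, h4⟩)
    · exact Or.inl (h1.trans h4)
    · exact Or.inr (Or.inr ⟨h1, h2.trans h3⟩)
    · exact Or.inl (h1.trans h4)
    · exact Or.inr (Or.inr ⟨h1, h4⟩)

/-- Adding an edge lowers the number of components by at most one, and by one exactly if its ends
are not connected. -/
private theorem card_cc_step {G' G : SimpleGraph V} {u v : V} (hle : G ≤ G')
    (huv : G'.Adj u v)
    (hadj : ∀ a b, G'.Adj a b → G.Adj a b ∨ (a = u ∧ b = v) ∨ (a = v ∧ b = u)) :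
    Nat.card G.ConnectedComponent ≤ Nat.card G'.ConnectedComponent + 1 ∧
      (¬ G.Reachable u v →
        Nat.card G.ConnectedComponent = Nat.card G'.ConnectedComponent + 1) := by
  simp only [Nat.card_eq_fintype_card]
  set f : G.ConnectedComponent → G'.ConnectedComponent :=
    SimpleGraph.ConnectedComponent.map (SimpleGraph.Hom.ofLE hle) with hf
  have hfmk : ∀ a, f (G.connectedComponentMk a) = G'.connectedComponentMk a := fun a => rfl
  set cv : G.ConnectedComponent := G.connectedComponentMk v with hcv
  set cu : G.ConnectedComponent := G.connectedComponentMk u with hcu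
  have hinj : Set.InjOn f (((univ : Finset G.ConnectedComponent).erase cv : Finset _) : Set _) := by
    intro c₁ h₁ c₂ h₂ h12
    induction c₁ using SimpleGraph.ConnectedComponent.ind with
    | _ a =>
    induction c₂ using SimpleGraph.ConnectedComponent.ind with
    | _ b =>
    have h₁' : G.connectedComponentMk a ≠ cv := by simpa using h₁
    have h₂' : G.connectedComponentMk b ≠ cv := by simpa using h₂
    have hr : G'.Reachable a b := by
      have := h12
      rw [hfmk, hfmk] at this
      exact SimpleGraph.ConnectedComponent.exact this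
    rcases reach_sup_edge hadj hr with h | ⟨h, h'⟩ | ⟨h, h'⟩
    · exact SimpleGraph.ConnectedComponent.sound h
    · exact absurd (SimpleGraph.ConnectedComponent.sound h'.symm) h₂'
    · exact absurd (SimpleGraph.ConnectedComponent.sound h) h₁'
  have hfv : f cv = f cu := by
    rw [hcv, hcu, hfmk, hfmk]
    exact SimpleGraph.ConnectedComponent.sound huv.reachable.symm
  have hcard : (((univ : Finset G.ConnectedComponent).erase cv).image f).card =
      Fintype.card G.ConnectedComponent - 1 := by
    rw [Finset.card_image_of_injOn hinj, Finset.card_erase_of_mem (mem_univ _), Finset.card_univ]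
  have hpos : 0 < Fintype.card G.ConnectedComponent :=
    Fintype.card_pos_iff.mpr ⟨cv⟩
  constructor
  · have : (((univ : Finset G.ConnectedComponent).erase cv).image f).card ≤
        Fintype.card G'.ConnectedComponent := Finset.card_le_univ _
    omega
  · intro hnr
    have hne : cu ≠ cv := by
      intro h
      exact hnr (SimpleGraph.ConnectedComponent.exact h)
    have hsurj : ((univ : Finset G.ConnectedComponent).erase cv).image f = univ := by
      ext c'
      simp only [mem_image, mem_erase, mem_univ, and_true, iff_true]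
      obtain ⟨c, rfl⟩ := SimpleGraph.ConnectedComponent.surjective_map_ofLE hle c'
      by_cases hc : c = cv
      · exact ⟨cu, hne, by rw [hc]; exact hfv.symm⟩
      · exact ⟨c, hc, rfl⟩
    rw [hsurj, Finset.card_univ] at hcard
    omega

private theorem gr_insert_adj {G : Finset (Sym2 V)} {u v : V} (a b : V)
    (h : (gr (insert s(u, v) G)).Adj a b) :
    (gr G).Adj a b ∨ (a = u ∧ b = v) ∨ (a = v ∧ b = u) := by
  simp only [gr, SimpleGraph.fromEdgeSet_adj, coe_insert, Set.mem_insert_iff, mem_coe,
    Sym2.eq_iff] at h ⊢
  rcases h with ⟨h | h, hne⟩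
  · right; simpa using h
  · exact Or.inl ⟨h, hne⟩

private theorem gr_mono {G G' : Finset (Sym2 V)} (h : G ⊆ G') : gr G ≤ gr G' :=
  SimpleGraph.fromEdgeSet_mono (by exact_mod_cast h)

private theorem cc_eq_nat (G : Finset (Sym2 V)) : cc G = Nat.card (gr G).ConnectedComponent := by
  unfold cc
  exact Nat.card_eq_fintype_card.symm

private theorem cc_empty : cc (∅ : Finset (Sym2 V)) = Fintype.card V := by
  have hbot : (gr (∅ : Finset (Sym2 V))) = ⊥ := by simp [gr]
  unfold cc
  symm
  refine Fintype.card_of_bijective (f := fun v => (gr (∅ : Finset (Sym2 V))).connectedComponentMk v)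
    ⟨?_, ?_⟩
  · intro a b hab
    have h2 : (gr (∅ : Finset (Sym2 V))).Reachable a b := SimpleGraph.ConnectedComponent.exact hab
    rw [hbot] at h2
    exact SimpleGraph.reachable_bot.mp h2
  · intro c
    induction c using SimpleGraph.ConnectedComponent.ind with
    | _ a => exact ⟨a, rfl⟩

/-- Every edge set: vertices at most edges plus components. -/
theorem card_le_card_add_cc (G : Finset (Sym2 V)) : Fintype.card V ≤ G.card + cc G := by
  induction G using Finset.induction_on with
  | empty =>
    simp [cc_empty]
  | @insert e G he ih =>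
    rw [card_insert_of_notMem he]
    induction e using Sym2.ind with
    | _ u v =>
    by_cases huv : u = v
    · subst huv
      have h : gr (insert s(u, u) G) = gr G := by
        ext a b
        simp only [gr, SimpleGraph.fromEdgeSet_adj, coe_insert, Set.mem_insert_iff, mem_coe, Sym2.eq_iff]
        constructor
        · rintro ⟨h | h, hne⟩
          · exfalso; rcases h with ⟨rfl, rfl⟩ | ⟨rfl, rfl⟩ <;> exact hne rfl
          · exact ⟨h, hne⟩
        · rintro ⟨h, hne⟩; exact ⟨Or.inr h, hne⟩
      have : cc (insert s(u, u) G) = cc G := cc_eq_of_reachable (by rw [h])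
      omega
    · have hadj : (gr (insert s(u, v) G)).Adj u v := by
        simp [gr, huv]
      have h1 : cc G ≤ cc (insert s(u, v) G) + 1 := by
        rw [cc_eq_nat, cc_eq_nat]
        exact (card_cc_step (gr_mono (Finset.subset_insert _ G)) hadj gr_insert_adj).1
      omega

/-- An acyclic edge set: edges plus components equals vertices. -/
theorem acyclic_card_add_cc (G : Finset (Sym2 V)) (hG : NoLoop G) (ha : (gr G).IsAcyclic) :
    G.card + cc G = Fintype.card V := by
  induction G using Finset.induction_on with
  | empty =>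
    simp [cc_empty]
  | @insert e G he ih =>
    have hG' : NoLoop G := fun e' he' => hG e' (mem_insert_of_mem he')
    have ha' : (gr G).IsAcyclic := ha.anti (gr_mono (Finset.subset_insert _ _))
    have ih' := ih hG' ha'
    rw [card_insert_of_notMem he]
    induction e using Sym2.ind with
    | _ u v =>
    have huv : u ≠ v := by
      have := hG s(u, v) (mem_insert_self _ _)
      simpa using this
    have hadj : (gr (insert s(u, v) G)).Adj u v := by
      simp [gr, huv]
    have hbr := (SimpleGraph.isAcyclic_iff_forall_adj_isBridge.mp ha) hadj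
    have hnr : ¬ (gr G).Reachable u v := by
      intro hr
      refine (SimpleGraph.isBridge_iff.mp hbr) (hr.mono ?_)
      intro a b hab
      simp only [gr, SimpleGraph.fromEdgeSet_adj, SimpleGraph.deleteEdges_adj, coe_insert,
        Set.mem_insert_iff, mem_coe, Set.mem_singleton_iff] at hab ⊢
      refine ⟨⟨Or.inr hab.1, hab.2⟩, ?_⟩
      intro h
      exact he (h ▸ hab.1)
    have h1 : cc G = cc (insert s(u, v) G) + 1 := by
      rw [cc_eq_nat, cc_eq_nat]
      exact (card_cc_step (gr_mono (Finset.subset_insert _ G)) hadj gr_insert_adj).2 hnr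
    omega

/-- A spanning forest of an edge set extending a given acyclic part. -/
private theorem exists_forest_ext (E F : Finset (Sym2 V)) (hFE : F ⊆ E)
    (ha : (gr F).IsAcyclic) :
    ∃ F' : Finset (Sym2 V), F ⊆ F' ∧ F' ⊆ E ∧ (gr F').IsAcyclic ∧
      (gr F').Reachable = (gr E).Reachable := by
  have hle : gr F ≤ gr E :=
    SimpleGraph.fromEdgeSet_mono (by exact_mod_cast hFE)
  obtain ⟨H, hFH, hHE, hHa, hHr⟩ :=
    (gr E).exists_isAcyclic_reachable_eq_le_of_le_of_isAcyclic hle ha
  refine ⟨F ∪ E.filter (fun e => e ∈ H.edgeSet), ?_, ?_, ?_, ?_⟩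
  · exact subset_union_left
  · exact union_subset hFE (filter_subset _ _)
  · have : gr (F ∪ E.filter (fun e => e ∈ H.edgeSet)) ≤ H := by
      intro a b hab
      simp only [gr, SimpleGraph.fromEdgeSet_adj, coe_union, Set.mem_union, mem_coe,
        mem_filter] at hab
      rcases hab with ⟨h | h, hne⟩
      · exact hFH (by simp only [gr, SimpleGraph.fromEdgeSet_adj, mem_coe]; exact ⟨h, hne⟩)
      · exact h.2
    exact hHa.anti this
  · have hle2 : gr (F ∪ E.filter (fun e => e ∈ H.edgeSet)) ≤ H := by
      intro a b hab
      simp only [gr, SimpleGraph.fromEdgeSet_adj, coe_union, Set.mem_union, mem_coe,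
        mem_filter] at hab
      rcases hab with ⟨h | h, hne⟩
      · exact hFH (by simp only [gr, SimpleGraph.fromEdgeSet_adj, mem_coe]; exact ⟨h, hne⟩)
      · exact h.2
    have hle3 : H ≤ gr (F ∪ E.filter (fun e => e ∈ H.edgeSet)) := by
      intro a b hab
      have h1 : (gr E).Adj a b := hHE hab
      simp only [gr, SimpleGraph.fromEdgeSet_adj, mem_coe] at h1
      simp only [gr, SimpleGraph.fromEdgeSet_adj, coe_union, Set.mem_union, mem_coe, mem_filter]
      exact ⟨Or.inr ⟨h1.1, hab⟩, h1.2⟩
    have : gr (F ∪ E.filter (fun e => e ∈ H.edgeSet)) = H := le_antisymm hle2 hle3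
    rw [this, hHr]

/-- The forest by popularity: every level loses only its cycles. -/
theorem exists_popular_forest (U : Finset (Sym2 V)) (hU : NoLoop U) (c : Sym2 V → ℕ) :
    ∃ TT ⊆ U, (gr TT).IsAcyclic ∧ ∀ t : ℕ,
      ((U.filter (fun e => t ≤ c e)) \ TT).card + Fintype.card V ≤
        (U.filter (fun e => t ≤ c e)).card + cc (U.filter (fun e => t ≤ c e)) := by
  set E : ℕ → Finset (Sym2 V) := fun t => U.filter (fun e => t ≤ c e) with hE
  obtain ⟨M, hM⟩ : ∃ M : ℕ, ∀ e ∈ U, c e < M := by
    refine ⟨(U.sup c) + 1, fun e he => ?_⟩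
    exact Nat.lt_succ_of_le (Finset.le_sup (f := c) he)
  have key : ∀ d : ℕ, d ≤ M → ∃ F : Finset (Sym2 V), F ⊆ E (M - d) ∧ (gr F).IsAcyclic ∧
      ∀ t, M - d ≤ t → ((E t) \ F).card + Fintype.card V ≤ (E t).card + cc (E t) := by
    intro d
    induction d with
    | zero =>
      intro _
      refine ⟨∅, empty_subset _, ?_, ?_⟩
      · simpa [gr] using (SimpleGraph.isAcyclic_bot (V := V))
      · intro t ht
        have hEt : E t = ∅ := by
          apply filter_eq_empty_iff.mpr
          intro e he
          have := hM e he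
          simp only [Nat.sub_zero] at ht
          omega
        rw [hEt]
        simpa using card_le_card_add_cc (∅ : Finset (Sym2 V))
    | succ d ih =>
      intro hd
      obtain ⟨F, hFE, hFa, hF⟩ := ih (by omega)
      have hs : M - d = (M - (d + 1)) + 1 := by omega
      have hFE' : F ⊆ E (M - (d + 1)) := by
        intro e he
        have := hFE he
        rw [hs] at this
        simp only [hE, mem_filter] at this ⊢
        exact ⟨this.1, by omega⟩
      obtain ⟨F', hFF', hF'E, hF'a, hF'r⟩ := exists_forest_ext _ F hFE' hFa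
      refine ⟨F', hF'E, hF'a, ?_⟩
      intro t ht
      rcases Nat.eq_or_lt_of_le ht with h | h
      · -- the new level
        rw [← h]
        have hEs : NoLoop (E (M - (d + 1))) := fun e he => hU e (mem_of_mem_filter e he)
        have hNL : NoLoop F' := fun e he => hEs e (hF'E he)
        have h1 := acyclic_card_add_cc F' hNL hF'a
        have h2 := cc_eq_of_reachable hF'r
        have h3 : ((E (M - (d + 1))) \ F').card + F'.card = (E (M - (d + 1))).card :=
          card_sdiff_add_card_eq_card hF'E
        omega
      · have h4 := hF t (by omega)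
        have h5 : ((E t) \ F').card ≤ ((E t) \ F).card :=
          card_le_card (sdiff_subset_sdiff (Subset.refl _) hFF')
        omega
  obtain ⟨F, hFE, hFa, hF⟩ := key M le_rfl
  refine ⟨F, ?_, hFa, ?_⟩
  · intro e he
    exact mem_of_mem_filter e (hFE he)
  · intro t
    exact hF t (by omega)


/-- Few components if everything on the edges is reachable from one vertex. -/
theorem cc_add_vset_le (G : Finset (Sym2 V)) {y : V}
    (h : ∀ z ∈ vset G, (gr G).Reachable y z) :
    cc G + (vset G).card ≤ Fintype.card V + 1 := by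
  have hsurj : Function.Surjective
      (fun z : {z // z ∈ insert y (vset G)ᶜ} => (gr G).connectedComponentMk z.1) := by
    intro c
    induction c using SimpleGraph.ConnectedComponent.ind with
    | h z =>
    by_cases hz : z ∈ vset G
    · exact ⟨⟨y, Finset.mem_insert_self _ _⟩, SimpleGraph.ConnectedComponent.sound (h z hz)⟩
    · exact ⟨⟨z, Finset.mem_insert_of_mem (Finset.mem_compl.2 hz)⟩, rfl⟩
  have h1 := Fintype.card_le_of_surjective _ hsurj
  have h2 : Fintype.card {z // z ∈ insert y (vset G)ᶜ} ≤ (vset G)ᶜ.card + 1 := by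
    rw [Fintype.card_coe]
    exact Finset.card_insert_le _ _
  have h3 : (vset G)ᶜ.card + (vset G).card = Fintype.card V := by
    rw [Finset.card_compl]
    have := Finset.card_le_univ (vset G)
    omega
  have h4 : cc G = Fintype.card (gr G).ConnectedComponent := rfl
  omega

/-- An acyclic edge set has fewer edges inside `K` than `K` has vertices. -/
private theorem inE_card_lt (A : Finset (Sym2 V)) (hA : NoLoop A) (ha : (gr A).IsAcyclic)
    (K : Finset V) (hK : K.Nonempty) : (inE A K).card < K.card := by
  obtain ⟨k, hk⟩ := hK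
  set A' := inE A K with hA'
  have hsub : A' ⊆ A := Finset.filter_subset _ _
  have hle : gr A' ≤ gr A := by
    intro u v huv
    rw [SimpleGraph.fromEdgeSet_adj] at huv ⊢
    exact ⟨hsub huv.1, huv.2⟩
  have hac : (gr A').IsAcyclic := ha.anti hle
  have hno : NoLoop A' := fun e he => hA e (hsub he)
  have hform := acyclic_card_add_cc A' hno hac
  have hiso : ∀ u v, (gr A').Adj u v → u ∈ K ∧ v ∈ K := by
    intro u v huv
    rw [SimpleGraph.fromEdgeSet_adj] at huv
    have h1 : s(u, v) ∈ A' := huv.1
    have h2 := (Finset.mem_filter.mp h1).2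
    constructor
    · exact h2 (by simp [Sym2.mem_toFinset])
    · exact h2 (by simp [Sym2.mem_toFinset])
  have hout : ∀ u v, u ∉ K → (gr A').Reachable u v → u = v := by
    intro u v hu hr
    obtain ⟨w⟩ := hr
    induction w with
    | nil => rfl
    | cons hadj _ _ => exact absurd (hiso _ _ hadj).1 hu
  have hinj : Function.Injective
      (fun z : {z // z ∈ insert k Kᶜ} => (gr A').connectedComponentMk z.1) := by
    rintro ⟨a, ha'⟩ ⟨b, hb'⟩ hab
    have hr : (gr A').Reachable a b := SimpleGraph.ConnectedComponent.exact hab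
    apply Subtype.ext
    show a = b
    rcases Finset.mem_insert.mp ha' with rfl | ha''
    · rcases Finset.mem_insert.mp hb' with rfl | hb''
      · rfl
      · exact (hout b a (Finset.mem_compl.mp hb'') hr.symm).symm
    · exact hout a b (Finset.mem_compl.mp ha'') hr
  have h1 := Fintype.card_le_of_injective _ hinj
  have h2 : Fintype.card {z // z ∈ insert k Kᶜ} = Kᶜ.card + 1 := by
    rw [Fintype.card_coe]
    exact Finset.card_insert_of_notMem (by simpa using hk)
  have h3 : Kᶜ.card + K.card = Fintype.card V := by
    rw [Finset.card_compl]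
    have := Finset.card_le_univ K
    omega
  have h4 : cc A' = Fintype.card (gr A').ConnectedComponent := rfl
  omega

/-- Pairwise disjoint dense sets give independent cycles. -/
theorem card_add_le_cyc (G : Finset (Sym2 V)) (hG : NoLoop G) (KK : Finset (Finset V))
    (hdisj : ∀ K ∈ KK, ∀ K' ∈ KK, K ≠ K' → Disjoint K K')
    (hdense : ∀ K ∈ KK, K.Nonempty ∧ K.card ≤ (inE G K).card) :
    KK.card + Fintype.card V ≤ G.card + cc G := by
  obtain ⟨F, hFle, hFac, hFr⟩ := (gr G).exists_isAcyclic_reachable_eq_le
  -- the edges of the forest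
  set A : Finset (Sym2 V) := G.filter (fun e => e ∈ F.edgeSet) with hA
  have hAsub : A ⊆ G := Finset.filter_subset _ _
  have hgrA : gr A = F := by
    ext u v
    rw [SimpleGraph.fromEdgeSet_adj]
    constructor
    · rintro ⟨h1, _⟩
      exact (Finset.mem_filter.mp h1).2
    · intro h1
      have h2 := hFle h1
      rw [SimpleGraph.fromEdgeSet_adj] at h2
      exact ⟨Finset.mem_filter.mpr ⟨h2.1, h1⟩, h2.2⟩
  have hAno : NoLoop A := fun e he => hG e (hAsub he)
  have hAac : (gr A).IsAcyclic := by rw [hgrA]; exact hFac
  have hform := acyclic_card_add_cc A hAno hAac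
  have hcc : cc A = cc G := by
    apply cc_eq_of_reachable
    rw [hgrA]
    exact hFr
  -- every dense set has an edge outside the forest
  have hex : ∀ K ∈ KK, ∃ e, e ∈ inE G K ∧ e ∉ A := by
    intro K hK
    obtain ⟨hne, hc⟩ := hdense K hK
    have hlt := inE_card_lt A hAno hAac K hne
    by_contra hno
    push Not at hno
    have hs : inE G K ⊆ inE A K := by
      intro e he
      exact Finset.mem_filter.mpr ⟨hno e he, (Finset.mem_filter.mp he).2⟩
    have := Finset.card_le_card hs
    omega
  have hle : KK.card ≤ (G \ A).card := by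
    refine Finset.card_le_card_of_forall_subsingleton (fun K e => e ∈ inE G K) ?_ ?_
    · intro K hK
      obtain ⟨e, he, he'⟩ := hex K hK
      exact ⟨e, Finset.mem_sdiff.mpr ⟨(Finset.mem_filter.mp he).1, he'⟩, he⟩
    · intro e _ K hK K' hK'
      by_contra hne
      have hd := hdisj K hK.1 K' hK'.1 hne
      have h1 := (Finset.mem_filter.mp hK.2).2
      have h2 := (Finset.mem_filter.mp hK'.2).2
      induction e using Sym2.ind with
      | _ u v =>
      have hu : u ∈ (s(u, v) : Sym2 V).toFinset := by simp [Sym2.mem_toFinset]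
      exact (Finset.disjoint_left.mp hd (h1 hu)) (h2 hu)
  have hsd : (G \ A).card + A.card = G.card := Finset.card_sdiff_add_card_eq_card hAsub
  omega

end Vale.Agent.Lib.P064C
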