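import Vale.Agent.Lib.P064C.Defs

/-!
A growth order which uses a vertex of a given set of large vertices as parent only when there is
no other choice.
-/

open Finset

namespace Vale.Agent.Lib.P064C

open Vale.Agent.Lib.P064 Vale.Agent.Lib.P064S
open scoped Classical

variable {α : Type} [Fintype α] {F : SimpleGraph α}

/-- The graph on the vertices of `A` outside `large`. -/
def smallG (F : SimpleGraph α) (A large : Finset α) : SimpleGraph α where
  Adj u w := F.Adj u w ∧ u ∈ A ∧ w ∈ A ∧ u ∉ large ∧ w ∉ large
  symm := ⟨fun _ _ h => ⟨h.1.symm, h.2.2.1, h.2.1, h.2.2.2.2, h.2.2.2.1⟩⟩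
  loopless := ⟨fun _ h => F.loopless.1 _ h.1⟩

/-- With no edge from a visited small vertex to an unvisited one of `A`, the unvisited ones stay
unvisited along the small graph. -/
private lemma not_mem_of_reachable {A D large : Finset α}
    (hno : ∀ u ∈ D, u ∉ large → ∀ v ∈ A \ D, ¬ F.Adj u v) {y z : α}
    (h : (smallG F A large).Reachable y z) (hy : y ∉ D) : z ∉ D := by
  obtain ⟨p⟩ := h
  induction p with
  | nil => exact hy
  | cons hadj _ ih =>
    apply ih
    intro hz
    exact hno _ hz hadj.2.2.2.2 _ (Finset.mem_sdiff.2 ⟨hadj.2.1, hy⟩) hadj.1.symm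

/-- The greedy growth order. -/
theorem exists_chain_greedy {A D₀ large : Finset α}
    (hconn : ∀ D : Finset α, D₀ ⊆ D → D ⊆ A → D ≠ A → ∃ u ∈ D, ∃ v ∈ A \ D, F.Adj u v) :
    ∀ (k : ℕ) (D : Finset α), (A \ D).card = k → D₀ ⊆ D → D ⊆ A → ∀ par₀ : α → α,
      ∃ (par : α → α) (r : List α) (st : Finset α),
        (∀ u ∈ D, par u = par₀ u) ∧ Chain F par D r ∧ r.Nodup ∧ D ∪ r.toFinset = A ∧
        (∀ v ∈ r, par v ∈ large → v ∈ large ∨ v ∈ st) ∧
        (∀ s ∈ st, s ∈ r ∧ s ∉ large ∧ ∀ u ∈ D, u ∉ large → ¬ (smallG F A large).Reachable s u) ∧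
        (∀ s ∈ st, ∀ s' ∈ st, s ≠ s' → ¬ (smallG F A large).Reachable s s') := by
  intro k
  induction k with
  | zero =>
    intro D h0 hx hDI par₀
    have hDeq : D = A := by
      apply Finset.Subset.antisymm hDI
      intro y hy
      by_contra hyD
      have : y ∈ A \ D := Finset.mem_sdiff.2 ⟨hy, hyD⟩
      rw [Finset.card_eq_zero.1 h0] at this
      simp at this
    refine ⟨par₀, [], ∅, fun _ _ => rfl, trivial, List.nodup_nil, ?_, ?_, ?_, ?_⟩
    · simp [hDeq]
    · intro v hv
      simp at hv
    · intro s hs
      simp at hs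
    · intro s hs
      simp at hs
  | succ k ih =>
    intro D h0 hx hDI par₀
    have hne : D ≠ A := by
      rintro rfl
      simp at h0
    -- one step: adding `v` with parent `u`
    have step : ∀ (u v : α), u ∈ D → v ∈ A \ D → F.Adj u v →
        ∃ (par : α → α) (r : List α) (st : Finset α),
          par v = u ∧ (∀ w ∈ D, par w = par₀ w) ∧ Chain F par (insert v D) r ∧ (v :: r).Nodup ∧
          D ∪ (v :: r).toFinset = A ∧
          (∀ w ∈ r, par w ∈ large → w ∈ large ∨ w ∈ st) ∧
          (∀ s ∈ st, s ∈ r ∧ s ∉ large ∧ ∀ w ∈ insert v D, w ∉ large →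
            ¬ (smallG F A large).Reachable s w) ∧
          (∀ s ∈ st, ∀ s' ∈ st, s ≠ s' → ¬ (smallG F A large).Reachable s s') := by
      intro u v hu hv _
      obtain ⟨hvI, hvD⟩ := Finset.mem_sdiff.1 hv
      have hcard : (A \ insert v D).card = k := by
        have : A \ insert v D = (A \ D).erase v := by
          ext y
          simp only [Finset.mem_sdiff, Finset.mem_insert, Finset.mem_erase]
          tauto
        rw [this, Finset.card_erase_of_mem hv, h0]
        simp
      obtain ⟨par, r, st, h1, h2, h3, h4, h5, h6, h7⟩ := ih (insert v D) hcard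
        (hx.trans (Finset.subset_insert _ _)) (Finset.insert_subset hvI hDI)
        (Function.update par₀ v u)
      refine ⟨par, r, st, ?_, ?_, h2, ?_, ?_, h5, h6, h7⟩
      · rw [h1 v (Finset.mem_insert_self _ _)]
        simp
      · intro w hw
        rw [h1 w (Finset.mem_insert_of_mem hw), Function.update_of_ne]
        rintro rfl
        exact hvD hw
      · exact List.nodup_cons.2 ⟨h2.not_mem v (Finset.mem_insert_self _ _), h3⟩
      · rw [union_insert_toFinset]
        exact h4
    by_cases hcase : ∃ u ∈ D, u ∉ large ∧ ∃ v ∈ A \ D, F.Adj u v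
    · -- a small visited vertex has an unvisited neighbour
      obtain ⟨u, hu, hul, v, hv, huv⟩ := hcase
      obtain ⟨par, r, st, hpv, h1, h2, h3, h4, h5, h6, h7⟩ := step u v hu hv huv
      refine ⟨par, v :: r, st, h1, ⟨(Finset.mem_sdiff.1 hv).2, ?_, ?_, h2⟩, h3, h4, ?_, ?_, h7⟩
      · rw [hpv]
        exact hu
      · rw [hpv]
        exact huv
      · intro w hw hwl
        rcases List.mem_cons.1 hw with rfl | hw
        · rw [hpv] at hwl
          exact absurd hwl hul
        · exact h5 w hw hwl
      · intro s hs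
        obtain ⟨h8, h9, h10⟩ := h6 s hs
        exact ⟨List.mem_cons_of_mem _ h8, h9,
          fun w hw hwl => h10 w (Finset.mem_insert_of_mem hw) hwl⟩
    · -- no such vertex
      have hno : ∀ u ∈ D, u ∉ large → ∀ v ∈ A \ D, ¬ F.Adj u v := by
        intro u hu hul v hv huv
        exact hcase ⟨u, hu, hul, v, hv, huv⟩
      obtain ⟨u, hu, v, hv, huv⟩ := hconn D hx hDI hne
      obtain ⟨par, r, st, hpv, h1, h2, h3, h4, h5, h6, h7⟩ := step u v hu hv huv
      have hvD := (Finset.mem_sdiff.1 hv).2
      by_cases hvl : v ∈ large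
      · refine ⟨par, v :: r, st, h1, ⟨hvD, ?_, ?_, h2⟩, h3, h4, ?_, ?_, h7⟩
        · rw [hpv]
          exact hu
        · rw [hpv]
          exact huv
        · intro w hw hwl
          rcases List.mem_cons.1 hw with rfl | hw
          · exact Or.inl hvl
          · exact h5 w hw hwl
        · intro s hs
          obtain ⟨h8, h9, h10⟩ := h6 s hs
          exact ⟨List.mem_cons_of_mem _ h8, h9,
            fun w hw hwl => h10 w (Finset.mem_insert_of_mem hw) hwl⟩
      · -- a start
        refine ⟨par, v :: r, insert v st, h1, ⟨hvD, ?_, ?_, h2⟩, h3, h4, ?_, ?_, ?_⟩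
        · rw [hpv]
          exact hu
        · rw [hpv]
          exact huv
        · intro w hw hwl
          rcases List.mem_cons.1 hw with rfl | hw
          · exact Or.inr (Finset.mem_insert_self _ _)
          · rcases h5 w hw hwl with h | h
            · exact Or.inl h
            · exact Or.inr (Finset.mem_insert_of_mem h)
        · intro s hs
          rcases Finset.mem_insert.1 hs with rfl | hs
          · refine ⟨List.mem_cons_self, hvl, ?_⟩
            intro w hw _ hreach
            exact not_mem_of_reachable hno hreach hvD hw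
          · obtain ⟨h8, h9, h10⟩ := h6 s hs
            exact ⟨List.mem_cons_of_mem _ h8, h9,
              fun w hw hwl => h10 w (Finset.mem_insert_of_mem hw) hwl⟩
        · intro s hs s' hs' hne'
          rcases Finset.mem_insert.1 hs with rfl | hs1
          · rcases Finset.mem_insert.1 hs' with rfl | hs2
            · exact absurd rfl hne'
            · intro hreach
              exact (h6 s' hs2).2.2 s (Finset.mem_insert_self _ _) hvl hreach.symm
          · rcases Finset.mem_insert.1 hs' with rfl | hs2
            · exact (h6 s hs1).2.2 s' (Finset.mem_insert_self _ _) hvl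
            · exact h7 s hs1 s' hs2 hne'

end Vale.Agent.Lib.P064C
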