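import Vale.Agent.Lib.P064C.Forest

/-!
Sub edge sets of a forest all of whose leaves are in a given set.
-/

open Finset

namespace Vale.Agent.Lib.P064C

open scoped Classical

variable {V : Type} [Fintype V]

/-- A nonempty forest has a vertex of degree one. -/
theorem exists_leaf (T : Finset (Sym2 V)) (hT : NoLoop T) (ha : (gr T).IsAcyclic)
    (hne : T.Nonempty) : ∃ z, dg T z = 1 := by
  have hV : Nonempty V := by
    obtain ⟨e, _⟩ := hne
    induction e using Sym2.ind with
    | _ x y => exact ⟨x⟩
  obtain ⟨u, v, p, hp, hmax⟩ := SimpleGraph.Walk.exists_isPath_forall_isPath_length_le_length (gr T)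
  have hadj : ∀ {x y : V}, s(x, y) ∈ T → (gr T).Adj x y := by
    intro x y h
    rw [SimpleGraph.fromEdgeSet_adj]
    refine ⟨by exact_mod_cast h, ?_⟩
    intro hxy
    subst hxy
    exact hT _ h (by simp)
  have hnil : ¬ p.Nil := by
    obtain ⟨e, he⟩ := hne
    induction e using Sym2.ind with
    | _ x y =>
      have h1 := hadj he
      have h2 := hmax _ _ (SimpleGraph.Walk.cons h1 SimpleGraph.Walk.nil)
        (SimpleGraph.Walk.IsPath.of_adj h1)
      intro hn
      have h3 : p.length = 0 := SimpleGraph.Walk.length_eq_zero_iff.2 hn
      simp at h2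
      omega
  have hw := p.adj_penultimate hnil
  refine ⟨v, ?_⟩
  unfold dg
  rw [card_eq_one]
  refine ⟨s(v, p.penultimate), ?_⟩
  ext e
  rw [mem_filter, mem_singleton]
  constructor
  · rintro ⟨he, hve⟩
    obtain ⟨x, rfl⟩ := hve
    have h1 := hadj he
    congr 1
    by_cases hx : x ∈ p.support
    · exact ha.eq_penultimate_of_adj_end hp h1 hx
    · exfalso
      have h2 := hmax _ _ (p.concat h1) (hp.concat hx h1)
      simp at h2
  · rintro rfl
    constructor
    · have h1 := hw.symm
      rw [SimpleGraph.fromEdgeSet_adj] at h1
      exact_mod_cast h1.1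
    · simp

private abbrev QQ (A B : Finset V) (T' : Finset (Sym2 V)) : Prop :=
  (∀ z, z ∉ A → dg T' z ≠ 1 ∨ z ∈ B) ∧ ∀ z ∈ B, dg T' z ≠ 0

private lemma dg_insert (e : Sym2 V) (T'' : Finset (Sym2 V)) (he : e ∉ T'') (z : V) :
    dg (insert e T'') z = dg T'' z + if z ∈ e then 1 else 0 := by
  unfold dg
  rw [filter_insert]
  split_ifs with h
  · rw [card_insert_of_notMem (by simp [he])]
  · simp

private lemma yes_bound (T : Finset (Sym2 V)) (e : Sym2 V) (A B A₁ B₁ : Finset V)
    (h : ∀ T'' ⊆ T.erase e, QQ A B (insert e T'') → QQ A₁ B₁ T'') :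
    ((T.powerset.filter (QQ A B)).filter (fun T' => e ∈ T')).card
      ≤ ((T.erase e).powerset.filter (QQ A₁ B₁)).card := by
  apply card_le_card_of_injOn (fun T' => T'.erase e)
  · intro T' hT'
    simp only [coe_filter, mem_filter, mem_powerset, Set.mem_ofPred_eq] at hT' ⊢
    obtain ⟨⟨h1, h2⟩, h3⟩ := hT'
    have h4 : T'.erase e ⊆ T.erase e := erase_subset_erase _ h1
    refine ⟨h4, h _ h4 ?_⟩
    rw [insert_erase h3]
    exact h2
  · intro T₁ h₁ T₂ h₂ heq
    simp only [coe_filter, mem_filter, mem_powerset, Set.mem_ofPred_eq] at h₁ h₂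
    have := congrArg (insert e) heq
    simpa only [insert_erase h₁.2, insert_erase h₂.2] using this

private lemma no_bound (T : Finset (Sym2 V)) (e : Sym2 V) (A B A₀ B₀ : Finset V)
    (h : ∀ T' ⊆ T.erase e, QQ A B T' → QQ A₀ B₀ T') :
    ((T.powerset.filter (QQ A B)).filter (fun T' => ¬ e ∈ T')).card
      ≤ ((T.erase e).powerset.filter (QQ A₀ B₀)).card := by
  apply card_le_card
  intro T' hT'
  simp only [mem_filter, mem_powerset] at hT' ⊢
  obtain ⟨⟨h1, h2⟩, h3⟩ := hT'
  have h4 : T' ⊆ T.erase e := by
    intro x hx
    rw [mem_erase]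
    exact ⟨fun hxe => h3 (hxe ▸ hx), h1 hx⟩
  exact ⟨h4, h _ h4 h2⟩

/-- The three positions of the other end `w` of the leaf edge. -/
private lemma yes_case (T₀ : Finset (Sym2 V)) (l w : V) (hlw : l ≠ w) (A B : Finset V) (hAB : Disjoint A B)
    (hl0 : ∀ T'' ⊆ T₀, dg T'' l = 0)
    (hins : ∀ T'' ⊆ T₀, ∀ z, dg (insert s(l, w) T'') z = dg T'' z + if z = l ∨ z = w then 1 else 0) :
    ∃ A₁ B₁ : Finset V, Disjoint A₁ B₁ ∧
      (∀ T'' ⊆ T₀, QQ A B (insert s(l, w) T'') → QQ A₁ B₁ T'') ∧
      4 ^ A₁.card * 2 ^ B₁.card ≤ 2 * (4 ^ (A.erase l).card * 2 ^ (B.erase l).card) := by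
  have hdisj : ∀ z, z ∈ A → z ∈ B → False := fun z h1 h2 => (disjoint_left.1 hAB h1 h2)
  by_cases hwA : w ∈ A
  · refine ⟨A.erase l, B.erase l, ?_, ?_, ?_⟩
    · rw [disjoint_left]
      intro z h1 h2
      exact hdisj z (mem_of_mem_erase h1) (mem_of_mem_erase h2)
    · rintro T'' hT'' ⟨h1, h2⟩
      constructor
      · intro z hz
        by_cases hzl : z = l
        · left
          rw [hzl, hl0 T'' hT'']
          norm_num
        · have hzA : z ∉ A := fun h => hz (mem_erase.2 ⟨hzl, h⟩)
          have hzw : z ≠ w := fun h => hzA (h ▸ hwA)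
          have e1 := hins T'' hT'' z
          rw [if_neg (by tauto), add_zero] at e1
          rcases h1 z hzA with h3 | h3
          · left
            rwa [e1] at h3
          · right
            exact mem_erase.2 ⟨hzl, h3⟩
      · intro z hz
        have hzB := mem_of_mem_erase hz
        have hzl : z ≠ l := ne_of_mem_erase hz
        have hzw : z ≠ w := fun h => hdisj z (h ▸ hwA) hzB
        have e1 := hins T'' hT'' z
        rw [if_neg (by tauto), add_zero] at e1
        have := h2 z hzB
        rwa [e1] at this
    · have : 0 < 4 ^ (A.erase l).card * 2 ^ (B.erase l).card := by positivity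
      omega
  · by_cases hwB : w ∈ B
    · have hwB0 : w ∈ B.erase l := mem_erase.2 ⟨hlw.symm, hwB⟩
      have hwA0 : w ∉ A.erase l := fun h => hwA (mem_of_mem_erase h)
      refine ⟨insert w (A.erase l), (B.erase l).erase w, ?_, ?_, ?_⟩
      · rw [disjoint_left]
        intro z h1 h2
        rcases mem_insert.1 h1 with rfl | h1
        · exact (ne_of_mem_erase h2) rfl
        · exact hdisj z (mem_of_mem_erase h1) (mem_of_mem_erase (mem_of_mem_erase h2))
      · rintro T'' hT'' ⟨h1, h2⟩
        constructor
        · intro z hz
          have hzw : z ≠ w := fun h => hz (h ▸ mem_insert_self _ _)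
          by_cases hzl : z = l
          · left
            rw [hzl, hl0 T'' hT'']
            norm_num
          · have hzA : z ∉ A := fun h => hz (mem_insert_of_mem (mem_erase.2 ⟨hzl, h⟩))
            have e1 := hins T'' hT'' z
            rw [if_neg (by tauto), add_zero] at e1
            rcases h1 z hzA with h3 | h3
            · left
              rwa [e1] at h3
            · right
              exact mem_erase.2 ⟨hzw, mem_erase.2 ⟨hzl, h3⟩⟩
        · intro z hz
          have hzw : z ≠ w := ne_of_mem_erase hz
          have hz2 := mem_of_mem_erase hz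
          have hzl : z ≠ l := ne_of_mem_erase hz2
          have hzB := mem_of_mem_erase hz2
          have e1 := hins T'' hT'' z
          rw [if_neg (by tauto), add_zero] at e1
          have := h2 z hzB
          rwa [e1] at this
      · rw [card_insert_of_notMem hwA0, card_erase_of_mem hwB0]
        have hpos : 0 < (B.erase l).card := card_pos.2 ⟨w, hwB0⟩
        obtain ⟨d, hd⟩ : ∃ d, (B.erase l).card = d + 1 := ⟨_, (Nat.succ_pred_eq_of_pos hpos).symm⟩
        rw [hd]
        simp only [Nat.add_sub_cancel]
        apply le_of_eq
        ring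
    · have hwB0 : w ∉ B.erase l := fun h => hwB (mem_of_mem_erase h)
      refine ⟨A.erase l, insert w (B.erase l), ?_, ?_, ?_⟩
      · rw [disjoint_left]
        intro z h1 h2
        rcases mem_insert.1 h2 with rfl | h2
        · exact hwA (mem_of_mem_erase h1)
        · exact hdisj z (mem_of_mem_erase h1) (mem_of_mem_erase h2)
      · rintro T'' hT'' ⟨h1, h2⟩
        constructor
        · intro z hz
          by_cases hzl : z = l
          · left
            rw [hzl, hl0 T'' hT'']
            norm_num
          · by_cases hzw : z = w
            · right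
              rw [hzw]
              exact mem_insert_self _ _
            · have hzA : z ∉ A := fun h => hz (mem_erase.2 ⟨hzl, h⟩)
              have e1 := hins T'' hT'' z
              rw [if_neg (by tauto), add_zero] at e1
              rcases h1 z hzA with h3 | h3
              · left
                rwa [e1] at h3
              · right
                exact mem_insert_of_mem (mem_erase.2 ⟨hzl, h3⟩)
        · intro z hz
          rcases mem_insert.1 hz with rfl | hz
          · have e1 := hins T'' hT'' z
            rw [if_pos (Or.inr rfl)] at e1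
            rcases h1 z hwA with h3 | h3
            · rw [e1] at h3
              omega
            · exact absurd h3 hwB
          · have hzB := mem_of_mem_erase hz
            have hzl : z ≠ l := ne_of_mem_erase hz
            have hzw : z ≠ w := fun h => hwB (h ▸ hzB)
            have e1 := hins T'' hT'' z
            rw [if_neg (by tauto), add_zero] at e1
            have := h2 z hzB
            rwa [e1] at this
      · rw [card_insert_of_notMem hwB0]
        apply le_of_eq
        ring

/-- The count with a set `B` of vertices which must be covered. -/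
theorem leaf_count_aux (T : Finset (Sym2 V)) (hT : NoLoop T) (ha : (gr T).IsAcyclic)
    (A B : Finset V) (hAB : Disjoint A B) :
    (T.powerset.filter (fun T' => (∀ z, z ∉ A → dg T' z ≠ 1 ∨ z ∈ B) ∧ ∀ z ∈ B, dg T' z ≠ 0)).card
      ≤ 4 ^ A.card * 2 ^ B.card := by
  induction hn : T.card using Nat.strong_induction_on generalizing T A B with
  | _ n IH =>
    rcases T.eq_empty_or_nonempty with rfl | hne
    · have h1 : ((∅ : Finset (Sym2 V)).powerset.filter
          (fun T' => (∀ z, z ∉ A → dg T' z ≠ 1 ∨ z ∈ B) ∧ ∀ z ∈ B, dg T' z ≠ 0)).card ≤ 1 := by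
        refine (card_filter_le _ _).trans ?_
        simp
      have h2 : 0 < 4 ^ A.card * 2 ^ B.card := by positivity
      omega
    · obtain ⟨l, hl⟩ := exists_leaf T hT ha hne
      unfold dg at hl
      obtain ⟨e, he⟩ := card_eq_one.1 hl
      have heT : e ∈ T := by
        have : e ∈ T.filter (fun e => l ∈ e) := by
          rw [he]
          exact mem_singleton_self _
        exact (mem_filter.1 this).1
      have hle : l ∈ e := by
        have : e ∈ T.filter (fun e => l ∈ e) := by
          rw [he]
          exact mem_singleton_self _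
        exact (mem_filter.1 this).2
      have huniq : ∀ e' ∈ T, l ∈ e' → e' = e := by
        intro e' h1 h2
        have : e' ∈ T.filter (fun e => l ∈ e) := mem_filter.2 ⟨h1, h2⟩
        rw [he] at this
        exact mem_singleton.1 this
      obtain ⟨w, rfl⟩ := hle
      have hlw : l ≠ w := by
        intro h
        subst h
        exact hT _ heT (by simp)
      set e : Sym2 V := s(l, w) with he_def
      set T₀ := T.erase e with hT₀
      have hT₀sub : T₀ ⊆ T := erase_subset _ _
      have hT₀loop : NoLoop T₀ := fun x hx => hT x (hT₀sub hx)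
      have hT₀ac : (gr T₀).IsAcyclic := by
        apply SimpleGraph.IsAcyclic.anti _ ha
        apply SimpleGraph.fromEdgeSet_mono
        exact_mod_cast hT₀sub
      have hcard : T₀.card < n := by
        rw [← hn]
        exact card_erase_lt_of_mem heT
      have IH' : ∀ A' B' : Finset V, Disjoint A' B' →
          (T₀.powerset.filter (QQ A' B')).card ≤ 4 ^ A'.card * 2 ^ B'.card :=
        fun A' B' h => IH T₀.card hcard T₀ hT₀loop hT₀ac A' B' h rfl
      have hl0 : ∀ T'' ⊆ T₀, dg T'' l = 0 := by
        intro T'' hT''
        unfold dg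
        rw [card_eq_zero, filter_eq_empty_iff]
        intro x hx hlx
        have h1 := huniq x (hT₀sub (hT'' hx)) hlx
        have h2 := hT'' hx
        rw [h1, hT₀] at h2
        exact (mem_erase.1 h2).1 rfl
      have hins : ∀ T'' ⊆ T₀, ∀ z, dg (insert e T'') z = dg T'' z + if z = l ∨ z = w then 1 else 0 := by
        intro T'' hT'' z
        have heT'' : e ∉ T'' := fun h => (mem_erase.1 (hT'' h)).1 rfl
        rw [dg_insert e T'' heT'' z]
        congr 1
        have : z ∈ e ↔ z = l ∨ z = w := by
          rw [he_def, Sym2.mem_iff]
        simp only [this]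
      obtain ⟨A₁, B₁, hd₁, hq₁, hN₁⟩ := yes_case T₀ l w hlw A B hAB hl0 hins
      have hyes := (yes_bound T e A B A₁ B₁ hq₁).trans (IH' A₁ B₁ hd₁)
      have hsplit := card_filter_add_card_filter_not (s := T.powerset.filter (QQ A B)) (fun T' => e ∈ T')
      change (T.powerset.filter (QQ A B)).card ≤ _
      by_cases hlA : l ∈ A
      · -- both branches
        have hlB : l ∉ B := fun h => disjoint_left.1 hAB hlA h
        have hno : ((T.powerset.filter (QQ A B)).filter (fun T' => ¬ e ∈ T')).card
            ≤ 4 ^ (A.erase l).card * 2 ^ B.card := by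
          refine (no_bound T e A B (A.erase l) B ?_).trans (IH' _ _ ?_)
          · rintro T' hT' ⟨h1, h2⟩
            refine ⟨?_, h2⟩
            intro z hz
            by_cases hzl : z = l
            · left
              rw [hzl, hl0 T' hT']
              norm_num
            · exact h1 z (fun h => hz (mem_erase.2 ⟨hzl, h⟩))
          · rw [disjoint_left]
            intro z h1 h2
            exact disjoint_left.1 hAB (mem_of_mem_erase h1) h2
        rw [erase_eq_of_notMem hlB] at hN₁
        have hApos : 0 < A.card := card_pos.2 ⟨l, hlA⟩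
        have hcA : A.card = (A.erase l).card + 1 := by
          rw [card_erase_of_mem hlA]
          omega
        have e4 : 4 ^ A.card * 2 ^ B.card = 4 * (4 ^ (A.erase l).card * 2 ^ B.card) := by
          rw [hcA]
          ring
        rw [e4]
        omega
      · by_cases hlB : l ∈ B
        · -- the edge is forced
          have hno : ((T.powerset.filter (QQ A B)).filter (fun T' => ¬ e ∈ T')).card = 0 := by
            rw [card_eq_zero, filter_eq_empty_iff]
            intro T' hT' hne'
            simp only [mem_filter, mem_powerset] at hT'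
            have h4 : T' ⊆ T₀ := by
              intro x hx
              rw [hT₀, mem_erase]
              exact ⟨fun hxe => hne' (hxe ▸ hx), hT'.1 hx⟩
            exact hT'.2.2 l hlB (hl0 T' h4) |>.elim
          rw [erase_eq_of_notMem hlA] at hN₁
          have hcB : B.card = (B.erase l).card + 1 := by
            rw [card_erase_of_mem hlB]
            have : 0 < B.card := card_pos.2 ⟨l, hlB⟩
            omega
          have e4 : 4 ^ A.card * 2 ^ B.card = 2 * (4 ^ A.card * 2 ^ (B.erase l).card) := by
            rw [hcB]
            ring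
          rw [e4]
          omega
        · -- the edge is excluded
          have hyes0 : ((T.powerset.filter (QQ A B)).filter (fun T' => e ∈ T')).card = 0 := by
            rw [card_eq_zero, filter_eq_empty_iff]
            intro T' hT' hmem
            simp only [mem_filter, mem_powerset] at hT'
            have h5 := hins (T'.erase e) (erase_subset_erase _ hT'.1) l
            rw [insert_erase hmem, hl0 _ (erase_subset_erase _ hT'.1), if_pos (Or.inl rfl)] at h5
            rcases hT'.2.1 l hlA with h6 | h6
            · exact h6 (by omega)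
            · exact hlB h6
          have hno : ((T.powerset.filter (QQ A B)).filter (fun T' => ¬ e ∈ T')).card
              ≤ (T₀.powerset.filter (QQ A B)).card := no_bound T e A B A B (fun _ _ h => h)
          have := IH' A B hAB
          omega

/-- The count of sub edge sets with all leaves in `A`. -/
theorem leaf_count (T : Finset (Sym2 V)) (hT : NoLoop T) (ha : (gr T).IsAcyclic) (A : Finset V) :
    (T.powerset.filter (fun T' => ∀ z, z ∉ A → dg T' z ≠ 1)).card ≤ 4 ^ A.card := by
  have h := leaf_count_aux T hT ha A ∅ (disjoint_empty_right _)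
  simp only [card_empty, pow_zero, mul_one, notMem_empty, or_false, false_imp_iff, implies_true,
    and_true] at h
  exact h

end Vale.Agent.Lib.P064C
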