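import Vale.Agent.Lib.P064C.Dense

/-!
One image meets few minimal dense sets.
-/

open Finset

namespace Vale.Agent.Lib.P064C

open scoped Classical

variable {V : Type} [Fintype V]

variable {U : Finset (Sym2 V)} {γ γ₁ : ℝ}

/-- The pointwise bound. -/
theorem k_le (hdens : Dens γ U) (hU : NoLoop U) (hγ0 : 0 ≤ γ) (hγ : γ ≤ γ₁) (hγ₁ : 0 < γ₁)
    {Im : Finset (Sym2 V)} (hIm : Im ⊆ U) {y : V}
    (hconn : ∀ z ∈ vset Im, (gr Im).Reachable y z)
    (eK : Finset V → Sym2 V) (hek : ∀ K ∈ CC U (1 / (4 * γ₁)), eK K ∈ inE U K) :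
    (((CC U (1 / (4 * γ₁))).filter (fun K => eK K ∈ Im)).card : ℝ) ≤
      2 * γ₁ * (vset Im).card + 2 := by
  set KK := (CC U (1 / (4 * γ₁))).filter (fun K => eK K ∈ Im) with hKK
  have hKKCC : ∀ K ∈ KK, K ∈ CC U (1 / (4 * γ₁)) := fun K hK => (mem_filter.mp hK).1
  set G : Finset (Sym2 V) := Im ∪ KK.biUnion (fun K => inE U K) with hGdef
  have hGU : G ⊆ U := by
    intro e he
    rcases mem_union.mp he with h | h
    · exact hIm h
    · obtain ⟨K, _, hK⟩ := mem_biUnion.mp h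
      exact (mem_filter.mp hK).1
  have hG : NoLoop G := fun e he => hU e (hGU he)
  have hinE : ∀ K ∈ KK, inE U K ⊆ G := fun K hK e he =>
    mem_union_right _ (mem_biUnion.mpr ⟨K, hK, he⟩)
  have hdense : ∀ K ∈ KK, K.Nonempty ∧ K.card ≤ (inE G K).card := by
    intro K hK
    obtain ⟨h1, _, h3, _⟩ := CC_spec (hKKCC K hK)
    refine ⟨h1, h3.trans (card_le_card ?_)⟩
    intro e he
    exact mem_filter.mpr ⟨hinE K hK he, (mem_filter.mp he).2⟩
  have hdisj : ∀ K ∈ KK, ∀ K' ∈ KK, K ≠ K' → Disjoint K K' := fun K hK K' hK' hne =>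
    CC_disjoint hdens hγ0 hγ hγ₁ (hKKCC K hK) (hKKCC K' hK') hne
  have hc1 := card_add_le_cyc G hG KK hdisj hdense
  have hmonoIm : gr Im ≤ gr G := SimpleGraph.fromEdgeSet_mono (by
    intro e he
    exact mem_coe.mpr (mem_union_left _ (mem_coe.mp he)))
  have hmonoK : ∀ K ∈ KK, gr (inE U K) ≤ gr G := fun K hK =>
    SimpleGraph.fromEdgeSet_mono (by
      intro e he
      exact mem_coe.mpr (hinE K hK (mem_coe.mp he)))
  have hreach : ∀ z ∈ vset G, (gr G).Reachable y z := by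
    intro z hz
    obtain ⟨e, he, hze⟩ := mem_biUnion.mp hz
    rcases mem_union.mp he with h | h
    · exact (hconn z (mem_biUnion.mpr ⟨e, h, hze⟩)).mono hmonoIm
    · obtain ⟨K, hK, heK⟩ := mem_biUnion.mp h
      have hzK : z ∈ K := (mem_filter.mp heK).2 hze
      have hek' := hek K (hKKCC K hK)
      have heIm : eK K ∈ Im := (mem_filter.mp hK).2
      obtain ⟨a, ha⟩ : ∃ a, a ∈ (eK K).toFinset := by
        induction (eK K) using Sym2.ind with
        | _ p q => exact ⟨p, by simp⟩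
      have haK : a ∈ K := (mem_filter.mp hek').2 ha
      have hya : (gr G).Reachable y a :=
        (hconn a (mem_biUnion.mpr ⟨_, heIm, ha⟩)).mono hmonoIm
      exact hya.trans ((CC_conn (hKKCC K hK) haK hzK).mono (hmonoK K hK))
  have hc2 := cc_add_vset_le G hreach
  have hc3 : KK.card + (vset G).card ≤ G.card + 1 := by omega
  have hd := hdens G hGU
  -- the vertices of `G`
  have hv : vset G ⊆ vset Im ∪ KK.biUnion (fun K => K) := by
    intro z hz
    obtain ⟨e, he, hze⟩ := mem_biUnion.mp hz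
    rcases mem_union.mp he with h | h
    · exact mem_union_left _ (mem_biUnion.mpr ⟨e, h, hze⟩)
    · obtain ⟨K, hK, heK⟩ := mem_biUnion.mp h
      exact mem_union_right _ (mem_biUnion.mpr ⟨K, hK, (mem_filter.mp heK).2 hze⟩)
  have hv1 : ((vset G).card : ℝ) ≤ (vset Im).card + ∑ K ∈ KK, (K.card : ℝ) := by
    have h1 := (card_le_card hv).trans (card_union_le _ _)
    have h2 : (KK.biUnion (fun K => K)).card ≤ ∑ K ∈ KK, K.card := card_biUnion_le
    have h3 : (vset G).card ≤ (vset Im).card + ∑ K ∈ KK, K.card := by omega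
    exact_mod_cast h3
  have hv2 : γ₁ * ∑ K ∈ KK, (K.card : ℝ) ≤ (KK.card : ℝ) * (1 / 4) := by
    rw [Finset.mul_sum]
    calc ∑ K ∈ KK, γ₁ * (K.card : ℝ) ≤ ∑ _K ∈ KK, (1 / 4 : ℝ) := by
          refine sum_le_sum fun K hK => ?_
          obtain ⟨_, h2, _, _⟩ := CC_spec (hKKCC K hK)
          have := small_of_lt hγ₁ h2
          linarith
      _ = (KK.card : ℝ) * (1 / 4) := by simp
  have hc3' : (KK.card : ℝ) + (vset G).card ≤ G.card + 1 := by exact_mod_cast hc3
  have hg1 : γ * ((vset G).card : ℝ) ≤ γ₁ * ((vset G).card : ℝ) :=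
    mul_le_mul_of_nonneg_right hγ (Nat.cast_nonneg _)
  have hg2 : γ₁ * ((vset G).card : ℝ) ≤ γ₁ * (((vset Im).card : ℝ) + ∑ K ∈ KK, (K.card : ℝ)) :=
    mul_le_mul_of_nonneg_left hv1 hγ₁.le
  have hpos : 0 ≤ γ₁ * ((vset Im).card : ℝ) := by positivity
  nlinarith

end Vale.Agent.Lib.P064C
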